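import Vale.Agent.P129.Norm

/-!
P129, file Avg: long averages exist in every block subspace (argument of James).
-/

namespace Vale.Agent.P129

open Finset

variable {Γ : Type} [LinearOrder Γ] {R : Rho Γ}

theorem meet_le {n M : ℕ} {g : ℕ → Γ →₀ ℚ} {y : ℕ → Γ →₀ ℝ} (hg : ∀ r < n, g r ∈ GG R)
    (hgs : ∀ r r', r < r' → r' < n → Before (g r).support (g r').support)
    (hy : ∀ s < M, NN R (y s) ≤ 1)
    (hys : ∀ s s', s < s' → s' < M → Before (y s).support (y s').support) :
    |act (∑ r ∈ range n, g r) (∑ s ∈ range M, y s)| ≤ n + M := by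
  classical
  let P : ℕ × ℕ → Prop := fun x => ∃ a ∈ (y x.2).support, g x.1 a ≠ 0
  have e : act (∑ r ∈ range n, g r) (∑ s ∈ range M, y s) =
      ∑ x ∈ (range n ×ˢ range M).filter P, act (g x.1) (y x.2) := by
    rw [act_sum, Finset.sum_filter_of_ne, Finset.sum_product]
    · exact Finset.sum_congr rfl fun r _ => map_sum _ _ _
    · intro x _ hx
      by_contra hne
      apply hx
      apply act_eq_zero
      intro a ha
      by_contra h
      exact hne ⟨a, ha, h⟩
  have hmono : ∀ x ∈ (range n ×ˢ range M).filter P, ∀ x' ∈ (range n ×ˢ range M).filter P,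
      x.1 < x'.1 → x.2 ≤ x'.2 := by
    intro x hx x' hx' hlt
    obtain ⟨hx1, a, ha, ha'⟩ := Finset.mem_filter.1 hx
    obtain ⟨hx1', b, hb, hb'⟩ := Finset.mem_filter.1 hx'
    simp only [Finset.mem_product, Finset.mem_range] at hx1 hx1'
    by_contra hne
    have h1 := hgs _ _ hlt hx1'.1 a (Finsupp.mem_support_iff.2 ha') b
      (Finsupp.mem_support_iff.2 hb')
    have h2 := hys _ _ (not_le.1 hne) hx1.2 b hb a ha
    exact lt_asymm h1 h2
  have hcard : ((range n ×ˢ range M).filter P).card ≤ (range (n + M)).card := by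
    apply Finset.card_le_card_of_injOn (fun x => x.1 + x.2)
    · intro x hx
      have hx1 := (Finset.mem_filter.1 hx).1
      simp only [Finset.mem_product, Finset.mem_range] at hx1
      simp only [Finset.coe_range, Set.mem_Iio]
      omega
    · intro x hx x' hx' he
      have h1 := hmono x hx x' hx'
      have h2 := hmono x' hx' x hx
      simp only at he
      ext <;> omega
  rw [e]
  refine (Finset.abs_sum_le_sum_abs _ _).trans ?_
  have h1 : ∑ x ∈ (range n ×ˢ range M).filter P, |act (g x.1) (y x.2)| ≤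
      ((range n ×ˢ range M).filter P).card • (1 : ℝ) := by
    apply Finset.sum_le_card_nsmul
    intro x hx
    have hx1 := (Finset.mem_filter.1 hx).1
    simp only [Finset.mem_product, Finset.mem_range] at hx1
    exact (abs_act_le_NN (hg _ hx1.1) _).trans (hy _ hx1.2)
  rw [nsmul_eq_mul, mul_one] at h1
  rw [Finset.card_range] at hcard
  exact h1.trans (by exact_mod_cast hcard)

theorem sum_range_mul_eq {β : Type} [AddCommMonoid β] (f : ℕ → β) (N M : ℕ) :
    ∑ s ∈ range (N * M), f s = ∑ i ∈ range M, ∑ s ∈ range N, f (N * i + s) := by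
  induction M with
  | zero => simp
  | succ k ih => rw [Nat.mul_succ, Finset.sum_range_add, ih, Finset.sum_range_succ]

theorem pow_le_nn (M : ℕ) (hM : 1 ≤ M) : ∃ j, M ^ (j + 5) ≤ nn j := by
  refine ⟨M ^ 2 + 1, ?_⟩
  set k := M ^ 2 with hk
  have h1 : mm k ≤ SS (k + 1) := by
    show mm k ≤ SS k + mm k * (1 + 2 * SS k) ^ (k + 3)
    have : 1 ≤ (1 + 2 * SS k) ^ (k + 3) := Nat.one_le_pow _ _ (by omega)
    nlinarith
  have h2 : mm (k + 1) = 2 * mm k := by unfold mm; ring
  have h3 : k ≤ mm (k + 1) := by have := lt_mm (k + 1); omega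
  calc M ^ (k + 1 + 5) ≤ M ^ (2 * (k + 1 + 4)) := Nat.pow_le_pow_right hM (by omega)
    _ = k * k ^ (k + 1 + 3) := by rw [pow_mul, ← hk]; ring
    _ ≤ mm (k + 1) * (1 + 2 * SS (k + 1)) ^ (k + 1 + 3) :=
        Nat.mul_le_mul h3 (Nat.pow_le_pow_left (by omega) _)

theorem exists_l1_avg {V : ℕ → Submodule ℝ (Γ →₀ ℝ)} (hV : Blocks V) (R : Rho Γ) (T M : ℕ)
    (hM : 1 ≤ M) : ∃ y : ℕ → Γ →₀ ℝ, (∀ s < M, y s ∈ V T) ∧ (∀ s < M, NN R (y s) ≤ 1) ∧
      (∀ s s', s < s' → s' < M → Before (y s).support (y s').support) ∧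
      (M : ℝ) / 2 ≤ NN R (∑ s ∈ range M, y s) := by
  classical
  by_contra hne
  push Not at hne
  obtain ⟨u, -, -, -, hu1, hu2, hu3, -⟩ := hV.seq R T 0 (fun _ u _ => NN R u = 1) fun T _ => by
    obtain ⟨y, hy, hy'⟩ := hV.exists_norm_one (R := R) T
    exact ⟨y, hy, 0, fun _ _ => hy'⟩
  have hM' : (0 : ℝ) < M / 2 := by
    have : (1 : ℝ) ≤ M := by exact_mod_cast hM
    linarith
  have key : ∀ d a, NN R (∑ s ∈ range (M ^ d), u (a + s)) ≤ ((M : ℝ) / 2) ^ d := by
    intro d
    induction d with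
    | zero => intro a; simp [hu3]
    | succ d ih =>
      intro a
      have hp : (0 : ℝ) < ((M : ℝ) / 2) ^ d := pow_pos hM' d
      have hsupp : ∀ i, ∀ b ∈ ((((M : ℝ) / 2) ^ d)⁻¹ •
          ∑ s ∈ range (M ^ d), u (a + M ^ d * i + s)).support,
          ∃ s < M ^ d, b ∈ (u (a + M ^ d * i + s)).support := by
        intro i b hb
        have := Finsupp.support_finsetSum (Finsupp.support_smul hb)
        simpa using this
      have h := hne (fun i => (((M : ℝ) / 2) ^ d)⁻¹ • ∑ s ∈ range (M ^ d), u (a + M ^ d * i + s))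
        (fun i _ => (V T).smul_mem _ ((V T).sum_mem fun s _ => hu1 _))
        (fun i _ => by
          rw [NN_smul, abs_of_pos (inv_pos.2 hp), inv_mul_le_iff₀ hp, mul_one]
          exact ih _)
        (fun i i' hi _ b hb b' hb' => by
          obtain ⟨s, hs, h1⟩ := hsupp i b hb
          obtain ⟨s', -, h2⟩ := hsupp i' b' hb'
          refine hu2 _ _ ?_ b h1 b' h2
          have : M ^ d * (i + 1) ≤ M ^ d * i' := Nat.mul_le_mul_left _ hi
          rw [Nat.mul_succ] at this
          omega)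
      rw [← Finset.smul_sum, NN_smul, abs_of_pos (inv_pos.2 hp), inv_mul_lt_iff₀ hp] at h
      rw [pow_succ, sum_range_mul_eq, pow_succ]
      simp only [← add_assoc]
      exact h.le
  obtain ⟨j, hj⟩ := pow_le_nn M hM
  obtain ⟨φ, hφ, h⟩ := exists_wt_blocks (R := R) hj hu2
  have h1 := ((le_abs_self _).trans (abs_act_le_NN hφ.mem (∑ i ∈ range (M ^ (j + 5)), u i))).trans
    (by simpa only [zero_add] using key (j + 5) 0)
  simp only [hu3, Finset.sum_const, Finset.card_range, nsmul_eq_mul, mul_one] at h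
  have h2 : 2 * (mm j : ℝ) * ((M : ℝ) / 2) ^ (j + 5) = (M : ℝ) ^ (j + 5) / 2 := by
    unfold mm
    push_cast
    rw [div_pow]
    field_simp
    ring
  have h3 := h.trans (mul_le_mul_of_nonneg_left h1 (by have := mm_cast_pos j; positivity))
  rw [h2] at h3
  push_cast at h3
  have h4 : (0 : ℝ) < (M : ℝ) ^ (j + 5) := pow_pos (by linarith) _
  linarith

theorem exists_avg {V : ℕ → Submodule ℝ (Γ →₀ ℝ)} (hV : Blocks V) (R : Rho Γ) (T J : ℕ) :
    ∃ v ∈ V T, NN R v = 1 ∧ Avg R 4 J v := by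
  obtain ⟨y, h1, h2, h3, h4⟩ := exists_l1_avg hV R T (SS J + 1) (by omega)
  set M := SS J + 1 with hM
  have hM0 : (0 : ℝ) < M := by exact_mod_cast (by omega : 0 < M)
  have hp : 0 < NN R (∑ s ∈ range M, y s) := lt_of_lt_of_le (by linarith) h4
  refine ⟨(NN R (∑ s ∈ range M, y s))⁻¹ • ∑ s ∈ range M, y s,
    (V T).smul_mem _ ((V T).sum_mem fun s hs => h1 s (Finset.mem_range.1 hs)), ?_, ?_⟩
  · rw [NN_smul, abs_of_pos (inv_pos.2 hp), inv_mul_cancel₀ hp.ne']
  · rintro w hw ψ ⟨n, g, hn, hg, hgs, rfl⟩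
    have h5 := meet_le hg hgs h2 h3
    have h6 : n ≤ M := by
      have : nn w ≤ ∑ w ∈ range J, nn w :=
        Finset.single_le_sum (f := nn) (fun _ _ => Nat.zero_le _) (Finset.mem_range.2 hw)
      rw [← SS_eq] at this
      omega
    have h7 : (n : ℝ) ≤ M := by exact_mod_cast h6
    have hm := mm_cast_pos w
    rw [map_smul, act_smul, smul_eq_mul, abs_mul, abs_mul, abs_of_pos (inv_pos.2 hp)]
    push_cast
    rw [abs_of_pos (inv_pos.2 hm), inv_mul_le_iff₀ hp, inv_mul_le_iff₀ hm]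
    have : (mm w : ℝ) * (NN R (∑ s ∈ range M, y s) * (4 / mm w)) =
        4 * NN R (∑ s ∈ range M, y s) := by field_simp
    rw [this]
    linarith

end Vale.Agent.P129
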