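import Vale.Agent.P129.RhoCmp

/-!
P129, file Basic: closure properties of the norming set.
-/

namespace Vale.Agent.P129

open Finset

set_option linter.unusedSectionVars false

variable {Γ : Type} [LinearOrder Γ] {R : Rho Γ}

theorem mm_pos (j : ℕ) : 0 < mm j := by
  unfold mm; positivity

theorem mm_cast_pos (j : ℕ) : (0 : ℝ) < mm j := by
  exact_mod_cast mm_pos j

theorem mm_mono : Monotone mm := fun _ _ h =>
  Nat.pow_le_pow_right (by norm_num) (by omega)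

theorem lt_mm (j : ℕ) : j < mm j :=
  lt_of_lt_of_le (by omega) (Nat.lt_two_pow_self (n := j + 3)).le

theorem SS_eq (j : ℕ) : SS j = ∑ w ∈ range j, nn w := by
  induction j with
  | zero => simp [SS]
  | succ k ih => rw [Finset.sum_range_succ, ← ih]; rfl

theorem sum_inv_mm_Ico (j n : ℕ) :
    ∑ w ∈ Ico j (j + n), ((mm w : ℝ))⁻¹ = 2 / mm j - 2 / mm (j + n) := by
  induction n with
  | zero => simp
  | succ k ih =>
    rw [← add_assoc, Finset.sum_Ico_succ_top (by omega), ih]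
    have h1 : (mm (j + k + 1) : ℝ) = 2 * mm (j + k) := by
      unfold mm; push_cast; ring
    have h2 := mm_cast_pos (j + k)
    rw [h1]
    field_simp
    ring

theorem sum_inv_mm_le (j : ℕ) (A : Finset ℕ) (hA : ∀ w ∈ A, j ≤ w) :
    ∑ w ∈ A, ((mm w : ℝ))⁻¹ ≤ 2 / mm j := by
  have hsub : A ⊆ Ico j (j + (A.sup id + 1)) := by
    intro w hw
    have : w ≤ A.sup id := Finset.le_sup (f := id) hw
    exact Finset.mem_Ico.2 ⟨hA w hw, by omega⟩
  calc ∑ w ∈ A, ((mm w : ℝ))⁻¹ ≤ ∑ w ∈ Ico j (j + (A.sup id + 1)), ((mm w : ℝ))⁻¹ :=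
        Finset.sum_le_sum_of_subset_of_nonneg hsub fun w _ _ => (inv_pos.2 (mm_cast_pos w)).le
    _ ≤ 2 / mm j := by
        rw [sum_inv_mm_Ico]
        have := mm_cast_pos (j + (A.sup id + 1))
        have : (0 : ℝ) ≤ 2 / mm (j + (A.sup id + 1)) := by positivity
        linarith

theorem res_apply {M : Type} [Zero M] (E : Set Γ) (g : Γ →₀ M) (a : Γ) [Decidable (a ∈ E)] :
    res E g a = if a ∈ E then g a else 0 := by
  unfold res
  rw [Finsupp.filter_apply]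
  congr

theorem res_apply_of_mem {M : Type} [Zero M] {E : Set Γ} (g : Γ →₀ M) {a : Γ} (h : a ∈ E) :
    res E g a = g a := by
  classical
  rw [res_apply, if_pos h]

theorem res_apply_of_notMem {M : Type} [Zero M] {E : Set Γ} (g : Γ →₀ M) {a : Γ} (h : a ∉ E) :
    res E g a = 0 := by
  classical
  rw [res_apply, if_neg h]

theorem res_res {M : Type} [Zero M] (E F : Set Γ) (g : Γ →₀ M) :
    res E (res F g) = res (E ∩ F) g := by
  classical
  ext a
  simp only [res_apply, Set.mem_inter_iff]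
  by_cases h1 : a ∈ E <;> by_cases h2 : a ∈ F <;> simp [h1, h2]

theorem res_univ {M : Type} [Zero M] (g : Γ →₀ M) : res Set.univ g = g := by
  ext a
  exact res_apply_of_mem g (Set.mem_univ a)

theorem res_add {M : Type} [AddCommMonoid M] (E : Set Γ) (g g' : Γ →₀ M) :
    res E (g + g') = res E g + res E g' := by
  classical
  ext a
  simp only [res_apply, Finsupp.add_apply]
  split_ifs <;> simp

theorem res_zero {M : Type} [Zero M] (E : Set Γ) : res E (0 : Γ →₀ M) = 0 := by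
  classical
  ext a
  simp [res_apply]

theorem res_sum {M ι : Type} [AddCommMonoid M] (E : Set Γ) (s : Finset ι) (g : ι → Γ →₀ M) :
    res E (∑ i ∈ s, g i) = ∑ i ∈ s, res E (g i) := by
  classical
  induction s using Finset.induction_on with
  | empty => simp [res_zero]
  | insert i s hi ih => rw [Finset.sum_insert hi, Finset.sum_insert hi, res_add, ih]

theorem res_smul {M : Type} [Semiring M] (E : Set Γ) (c : M) (g : Γ →₀ M) :
    res E (c • g) = c • res E g := by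
  classical
  ext a
  simp only [res_apply, Finsupp.smul_apply]
  split_ifs <;> simp

theorem mem_support_res {M : Type} [Zero M] {E : Set Γ} {g : Γ →₀ M} {a : Γ} :
    a ∈ (res E g).support ↔ a ∈ E ∧ a ∈ g.support := by
  classical
  simp only [Finsupp.mem_support_iff, res_apply]
  by_cases h : a ∈ E <;> simp [h]

theorem support_res_subset {M : Type} [Zero M] (E : Set Γ) (g : Γ →₀ M) :
    (res E g).support ⊆ g.support := fun _ ha => (mem_support_res.1 ha).2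

theorem res_eq_self {M : Type} [Zero M] {E : Set Γ} {g : Γ →₀ M} (h : ∀ a ∈ g.support, a ∈ E) :
    res E g = g := by
  classical
  ext a
  rw [res_apply]
  split_ifs with h1
  · rfl
  · by_contra hne
    exact h1 (h a (Finsupp.mem_support_iff.2 (Ne.symm hne)))

theorem res_eq_zero {M : Type} [Zero M] {E : Set Γ} {g : Γ →₀ M} (h : ∀ a ∈ g.support, a ∉ E) :
    res E g = 0 := by
  classical
  ext a
  rw [res_apply]
  split_ifs with h1
  · by_contra hne
    exact h a (Finsupp.mem_support_iff.2 hne) h1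
  · rfl

theorem Before.mono {A B A' B' : Finset Γ} (h : Before A B) (hA : A' ⊆ A) (hB : B' ⊆ B) :
    Before A' B' := fun a ha b hb => h a (hA ha) b (hB hb)

theorem Wt.mono {G G' : Set (Γ →₀ ℚ)} (hG : G ⊆ G') {w : ℕ} {φ : Γ →₀ ℚ} (h : Wt G w φ) :
    Wt G' w φ := by
  obtain ⟨n, g, h1, h2, h3, h4⟩ := h
  exact ⟨n, g, h1, fun r hr => hG (h2 r hr), h3, h4⟩

theorem IsSF.mono {G G' : Set (Γ →₀ ℚ)} (hG : G ⊆ G') {A : Finset ℕ} {ψ : ℕ → Γ →₀ ℚ}
    (h : IsSF R G A ψ) : IsSF R G' A ψ := by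
  obtain ⟨q, a, w, φ, E, h1, h2⟩ := h
  exact ⟨q, a, w, φ, E, ⟨fun i hi => (h1.wt i hi).mono hG, h1.cod⟩, h2⟩

theorem comb_mono {G G' : Set (Γ →₀ ℚ)} (hG : G ⊆ G') : Comb R G ⊆ Comb R G' := by
  rintro g ⟨s, A, ψ, ε, h1, h2⟩
  exact ⟨s, A, ψ, ε, ⟨fun l hl => (h1.sf l hl).mono hG, h1.disj, h1.card⟩, h2⟩

theorem GG_sub {S : Set (Γ →₀ ℚ)} (h1 : Base Γ ⊆ S) (h2 : Comb R S ⊆ S) : GG R ⊆ S :=
  Set.sInter_subset_of_mem ⟨h1, h2⟩

theorem base_sub : Base Γ ⊆ GG R := fun _ hg _ hS => hS.1 hg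

theorem comb_sub : Comb R (GG R) ⊆ GG R := fun _ hg _ hS =>
  hS.2 (comb_mono (GG_sub hS.1 hS.2) hg)

theorem GG_cases {g : Γ →₀ ℚ} (hg : g ∈ GG R) : g ∈ Base Γ ∨ g ∈ Comb R (GG R) := by
  have : GG R ⊆ Base Γ ∪ Comb R (GG R) :=
    GG_sub Set.subset_union_left
      ((comb_mono (Set.union_subset base_sub comb_sub)).trans Set.subset_union_right)
  exact this hg

theorem zero_mem_GG : (0 : Γ →₀ ℚ) ∈ GG R :=
  comb_sub ⟨∅, fun _ => ∅, fun _ _ => 0, fun _ => 1,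
    ⟨by simp, by simp, by simp⟩, fun _ => Or.inl rfl, by simp⟩

theorem neg_mem_GG {g : Γ →₀ ℚ} (hg : g ∈ GG R) : -g ∈ GG R := by
  rcases GG_cases hg with ⟨a, h | h⟩ | ⟨s, A, ψ, ε, h1, h2, h3⟩
  · exact base_sub ⟨a, Or.inr (by rw [h, Finsupp.single_neg])⟩
  · exact base_sub ⟨a, Or.inl (by rw [h, Finsupp.single_neg, neg_neg])⟩
  · refine comb_sub ⟨s, A, ψ, fun l => -ε l, h1, fun l => ?_, ?_⟩
    · rcases h2 l with h | h <;> simp [h]
    · rw [h3, ← Finset.sum_neg_distrib]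
      exact Finset.sum_congr rfl fun l _ => by rw [neg_smul]

theorem IsSF.res {G : Set (Γ →₀ ℚ)} {A : Finset ℕ} {ψ : ℕ → Γ →₀ ℚ} (h : IsSF R G A ψ)
    {E : Set Γ} (hE : E.OrdConnected) : IsSF R G A (fun w => res E (ψ w)) := by
  obtain ⟨q, a, w, φ, F, h1, h2, h3, h4⟩ := h
  exact ⟨q, a, w, φ, E ∩ F, h1, hE.inter h2, h3, fun i hi => by
    show Vale.Agent.P129.res E (ψ (w i)) = _
    rw [h4 i hi, res_res]⟩

theorem res_mem_GG {g : Γ →₀ ℚ} (hg : g ∈ GG R) {E : Set Γ} (hE : E.OrdConnected) :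
    res E g ∈ GG R := by
  have hs : ∀ (a : Γ) (c : ℚ), res E (Finsupp.single a c) = Finsupp.single a c ∨
      res E (Finsupp.single a c) = 0 := by
    intro a c
    by_cases ha : a ∈ E
    · left
      apply res_eq_self
      intro b hb
      rw [Finset.mem_singleton.1 (Finsupp.support_single_subset hb)]
      exact ha
    · right
      apply res_eq_zero
      intro b hb
      rw [Finset.mem_singleton.1 (Finsupp.support_single_subset hb)]
      exact ha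
  rcases GG_cases hg with ⟨a, h | h⟩ | ⟨s, A, ψ, ε, h1, h2, h3⟩
  · rcases hs a 1 with h' | h'
    · rw [h, h', ← h]; exact hg
    · rw [h, h']; exact zero_mem_GG
  · rcases hs a (-1) with h' | h'
    · rw [h, h', ← h]; exact hg
    · rw [h, h']; exact zero_mem_GG
  · refine comb_sub ⟨s, A, fun l w => res E (ψ l w), ε,
      ⟨fun l hl => (h1.sf l hl).res hE, h1.disj, h1.card⟩, h2, ?_⟩
    rw [h3, res_sum]
    exact Finset.sum_congr rfl fun l _ => by rw [res_smul, res_sum]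

theorem Wt.coord_le_of {G : Set (Γ →₀ ℚ)} (hG : ∀ g ∈ G, ∀ a, |cf g a| ≤ 1) {w : ℕ}
    {φ : Γ →₀ ℚ} (h : Wt G w φ) (a : Γ) : |cf φ a| ≤ ((mm w : ℝ))⁻¹ := by
  obtain ⟨n, g, -, h2, h3, h4⟩ := h
  have key : |∑ r ∈ range n, cf (g r) a| ≤ 1 := by
    by_cases hex : ∃ r < n, g r a ≠ 0
    · obtain ⟨r, hr, hra⟩ := hex
      rw [Finset.sum_eq_single r]
      · exact hG _ (h2 r hr) a
      · intro r' hr' hne
        have hr'' := Finset.mem_range.1 hr'
        have : g r' a = 0 := by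
          by_contra hne'
          have m1 := Finsupp.mem_support_iff.2 hra
          have m2 := Finsupp.mem_support_iff.2 hne'
          rcases lt_or_gt_of_ne hne with h | h
          · exact lt_irrefl _ (h3 r' r h hr a m2 a m1)
          · exact lt_irrefl _ (h3 r r' h hr'' a m1 a m2)
        simp [cf, this]
      · intro hr'
        exact absurd (Finset.mem_range.2 hr) hr'
    · push Not at hex
      rw [Finset.sum_eq_zero fun r hr => by simp [cf, hex r (Finset.mem_range.1 hr)]]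
      simp
  have e : cf φ a = ((mm w : ℝ))⁻¹ * ∑ r ∈ range n, cf (g r) a := by
    rw [h4]
    simp [cf]
  have hp := inv_pos.2 (mm_cast_pos w)
  rw [e, abs_mul, abs_of_pos hp]
  exact mul_le_of_le_one_right hp.le key

theorem IsSF.coord_le_of {G : Set (Γ →₀ ℚ)} (hG : ∀ g ∈ G, ∀ a, |cf g a| ≤ 1) {A : Finset ℕ}
    {ψ : ℕ → Γ →₀ ℚ} (h : IsSF R G A ψ) {w : ℕ} (hw : w ∈ A) (b : Γ) :
    |cf (ψ w) b| ≤ ((mm w : ℝ))⁻¹ := by
  classical
  obtain ⟨q, a, w', φ, E, h1, -, h3, h4⟩ := h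
  rw [h3] at hw
  obtain ⟨i, hi, rfl⟩ := Finset.mem_image.1 hw
  rw [h4 i hi]
  have := (h1.wt i (Finset.mem_Ico.1 hi).2).coord_le_of hG b
  unfold cf at this ⊢
  rw [res_apply]
  split_ifs
  · exact this
  · simp

theorem comb_coord_le {G : Set (Γ →₀ ℚ)} (hG : ∀ g ∈ G, ∀ a, |cf g a| ≤ 1) {s : Finset ℕ}
    {A : ℕ → Finset ℕ} {ψ : ℕ → ℕ → Γ →₀ ℚ} {ε : ℕ → ℚ} (h1 : Adm R G s A ψ)
    (h2 : ∀ l, ε l = 1 ∨ ε l = -1) {j : ℕ} (hj : ∀ l ∈ s, ∀ w ∈ A l, j ≤ w) (a : Γ) :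
    |cf (∑ l ∈ s, ε l • ∑ w ∈ A l, ψ l w) a| ≤ 2 / mm j := by
  have e : cf (∑ l ∈ s, ε l • ∑ w ∈ A l, ψ l w) a =
      ∑ l ∈ s, (ε l : ℝ) * ∑ w ∈ A l, cf (ψ l w) a := by
    simp [cf, Finsupp.finsetSum_apply]
  rw [e]
  calc |∑ l ∈ s, (ε l : ℝ) * ∑ w ∈ A l, cf (ψ l w) a|
      ≤ ∑ l ∈ s, ∑ w ∈ A l, ((mm w : ℝ))⁻¹ := by
        refine (Finset.abs_sum_le_sum_abs _ _).trans (Finset.sum_le_sum fun l hl => ?_)
        have : |(ε l : ℝ)| = 1 := by rcases h2 l with h | h <;> simp [h]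
        rw [abs_mul, this, one_mul]
        exact (Finset.abs_sum_le_sum_abs _ _).trans
          (Finset.sum_le_sum fun w hw => (h1.sf l hl).coord_le_of hG hw a)
    _ = ∑ w ∈ s.biUnion A, ((mm w : ℝ))⁻¹ :=
        (Finset.sum_biUnion fun l hl l' hl' hne => h1.disj l hl l' hl' hne).symm
    _ ≤ 2 / mm j := by
        apply sum_inv_mm_le
        intro w hw
        obtain ⟨l, hl, hw⟩ := Finset.mem_biUnion.1 hw
        exact hj l hl w hw

theorem GG_coord_le {g : Γ →₀ ℚ} (hg : g ∈ GG R) (a : Γ) : |cf g a| ≤ 1 := by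
  classical
  have : GG R ⊆ {g | ∀ a, |cf g a| ≤ 1} := by
    apply GG_sub
    · rintro g ⟨b, h | h⟩ a
      · rw [h]; unfold cf; rw [Finsupp.single_apply]; split_ifs <;> simp
      · rw [h]; unfold cf; rw [Finsupp.single_apply]; split_ifs <;> simp
    · rintro g ⟨s, A, ψ, ε, h1, h2, h3⟩ a
      rw [h3]
      refine (comb_coord_le (fun g hg => hg) h1 h2 (j := 0) (fun _ _ _ _ => Nat.zero_le _)
        a).trans ?_
      norm_num [mm]
  exact this hg a

theorem Wt.coord_le {w : ℕ} {φ : Γ →₀ ℚ} (h : Wt (GG R) w φ) (a : Γ) :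
    |cf φ a| ≤ ((mm w : ℝ))⁻¹ := h.coord_le_of (fun _ hg => GG_coord_le hg) a

theorem HC.coord_le {j : ℕ} {g : Γ →₀ ℚ} (h : HC R j g) (a : Γ) : |cf g a| ≤ 2 / mm j := by
  obtain ⟨s, A, ψ, ε, h1, h2, h3, h4⟩ := h
  rw [h4]
  exact comb_coord_le (fun _ hg => GG_coord_le hg) h1 h2 h3 a

theorem Wt.zero (G : Set (Γ →₀ ℚ)) (w : ℕ) : Wt G w 0 :=
  ⟨0, fun _ => 0, Nat.zero_le _, by simp, by simp, by simp⟩

theorem Wt.neg {w : ℕ} {φ : Γ →₀ ℚ} (h : Wt (GG R) w φ) : Wt (GG R) w (-φ) := by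
  obtain ⟨n, g, h1, h2, h3, h4⟩ := h
  refine ⟨n, fun r => -g r, h1, fun r hr => neg_mem_GG (h2 r hr), fun r r' h h' => ?_, ?_⟩
  · simpa using h3 r r' h h'
  · rw [h4, Finset.sum_neg_distrib, smul_neg]

theorem Wt.res {w : ℕ} {φ : Γ →₀ ℚ} (h : Wt (GG R) w φ) {E : Set Γ} (hE : E.OrdConnected) :
    Wt (GG R) w (res E φ) := by
  obtain ⟨n, g, h1, h2, h3, h4⟩ := h
  refine ⟨n, fun r => Vale.Agent.P129.res E (g r), h1, fun r hr => res_mem_GG (h2 r hr) hE,
    fun r r' h h' => (h3 r r' h h').mono (support_res_subset _ _) (support_res_subset _ _), ?_⟩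
  rw [h4, res_smul, res_sum]

theorem Wt.isSF {G : Set (Γ →₀ ℚ)} {w : ℕ} {φ : Γ →₀ ℚ} (h : Wt G w φ) :
    IsSF R G {w} (fun _ => φ) :=
  ⟨1, 0, fun _ => w, fun _ => φ, Set.univ, ⟨fun _ _ => h, fun i hi => by omega⟩,
    Set.ordConnected_univ, by simp, fun _ _ => (res_univ φ).symm⟩

theorem IsSF.wt {A : Finset ℕ} {ψ : ℕ → Γ →₀ ℚ} (h : IsSF R (GG R) A ψ) {w : ℕ} (hw : w ∈ A) :
    Wt (GG R) w (ψ w) := by
  obtain ⟨q, a, w', φ, E, h1, h2, h3, h4⟩ := h
  rw [h3] at hw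
  obtain ⟨i, hi, rfl⟩ := Finset.mem_image.1 hw
  rw [h4 i hi]
  exact (h1.wt i (Finset.mem_Ico.1 hi).2).res h2

/-- The first index at which the weight is at least `j`. -/
theorem IsSp.exists_index {G : Set (Γ →₀ ℚ)} {q : ℕ} {w : ℕ → ℕ} {φ : ℕ → Γ →₀ ℚ}
    (h : IsSp R G q w φ) (j : ℕ) : ∃ c ≤ q, ∀ i < q, (w i < j ↔ i < c) := by
  classical
  have hex : ∃ c, q ≤ c ∨ j ≤ w c := ⟨q, Or.inl le_rfl⟩
  refine ⟨Nat.find hex, Nat.find_min' hex (Or.inl le_rfl), fun i hi => ⟨fun h1 => ?_, fun h1 => ?_⟩⟩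
  · by_contra h2
    rw [not_lt] at h2
    rcases Nat.find_spec hex with h3 | h3
    · omega
    · have := h.le h2 hi
      omega
  · have := Nat.find_min hex h1
    push Not at this
    exact this.2

theorem IsSF.filter_ge {G : Set (Γ →₀ ℚ)} {A : Finset ℕ} {ψ : ℕ → Γ →₀ ℚ} (h : IsSF R G A ψ)
    (j : ℕ) : IsSF R G (A.filter (fun w => j ≤ w)) ψ := by
  obtain ⟨q, a, w, φ, E, h1, h2, h3, h4⟩ := h
  obtain ⟨c, hc, hci⟩ := h1.exists_index j
  refine ⟨q, max a c, w, φ, E, h1, h2, ?_, fun i hi => h4 i ?_⟩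
  · ext x
    simp only [h3, Finset.mem_filter, Finset.mem_image, Finset.mem_Ico]
    constructor
    · rintro ⟨⟨i, ⟨hi1, hi2⟩, rfl⟩, hx⟩
      have := hci i hi2
      exact ⟨i, ⟨max_le hi1 (by omega), hi2⟩, rfl⟩
    · rintro ⟨i, ⟨hi1, hi2⟩, rfl⟩
      have := hci i hi2
      have h5 := le_of_max_le_left hi1
      have h6 := le_of_max_le_right hi1
      exact ⟨⟨i, ⟨h5, hi2⟩, rfl⟩, by omega⟩
  · rw [Finset.mem_Ico] at hi ⊢
    exact ⟨le_of_max_le_left hi.1, hi.2⟩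

theorem IsSF.filter_lt {G : Set (Γ →₀ ℚ)} {A : Finset ℕ} {ψ : ℕ → Γ →₀ ℚ} (h : IsSF R G A ψ)
    (j : ℕ) : IsSF R G (A.filter (fun w => w < j)) ψ := by
  obtain ⟨q, a, w, φ, E, h1, h2, h3, h4⟩ := h
  obtain ⟨c, hc, hci⟩ := h1.exists_index j
  refine ⟨c, a, w, φ, E, h1.mono hc, h2, ?_, fun i hi => h4 i ?_⟩
  · ext x
    simp only [h3, Finset.mem_filter, Finset.mem_image, Finset.mem_Ico]
    constructor
    · rintro ⟨⟨i, ⟨hi1, hi2⟩, rfl⟩, hx⟩
      exact ⟨i, ⟨hi1, (hci i hi2).1 hx⟩, rfl⟩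
    · rintro ⟨i, ⟨hi1, hi2⟩, rfl⟩
      exact ⟨⟨i, ⟨hi1, by omega⟩, rfl⟩, (hci i (by omega)).2 hi2⟩
  · rw [Finset.mem_Ico] at hi ⊢
    exact ⟨hi.1, by omega⟩

/-- A segment of a special sequence is a special functional. -/
theorem IsSp.exists_isSF {G : Set (Γ →₀ ℚ)} {q : ℕ} {w : ℕ → ℕ} {φ : ℕ → Γ →₀ ℚ}
    (h : IsSp R G q w φ) (a : ℕ) :
    ∃ ψ : ℕ → Γ →₀ ℚ, IsSF R G ((Ico a q).image w) ψ ∧ ∀ i < q, ψ (w i) = φ i := by
  classical
  have key : ∀ i < q, (fun x => if hx : ∃ i < q, w i = x then φ (Classical.choose hx) else 0)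
      (w i) = φ i := by
    intro i hi
    have hx : ∃ i' < q, w i' = w i := ⟨i, hi, rfl⟩
    simp only [dif_pos hx]
    rw [h.inj (Classical.choose_spec hx).1 hi (Classical.choose_spec hx).2]
  exact ⟨fun x => if hx : ∃ i < q, w i = x then φ (Classical.choose hx) else 0,
    ⟨q, a, w, φ, Set.univ, h, Set.ordConnected_univ, rfl, fun i hi => by
      rw [key i (Finset.mem_Ico.1 hi).2, res_univ]⟩, key⟩

theorem Adm.mem {ι : Type} {s : Finset ι} {A : ι → Finset ℕ} {ψ : ι → ℕ → Γ →₀ ℚ}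
    (h : Adm R (GG R) s A ψ) {ε : ι → ℚ} (hε : ∀ l, ε l = 1 ∨ ε l = -1) :
    ∑ l ∈ s, ε l • ∑ w ∈ A l, ψ l w ∈ GG R := by
  classical
  rcases s.eq_empty_or_nonempty with rfl | ⟨l₀, hl₀⟩
  · simpa using zero_mem_GG
  let f : ℕ → ι := fun n => if hn : n < s.card then (s.equivFin.symm ⟨n, hn⟩ : ι) else l₀
  have hf : ∀ n, f n ∈ s := by
    intro n
    simp only [f]
    split_ifs
    · exact (s.equivFin.symm _).2
    · exact hl₀
  have hinj : ∀ n ∈ range s.card, ∀ n' ∈ range s.card, f n = f n' → n = n' := by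
    intro n hn n' hn' he
    rw [Finset.mem_range] at hn hn'
    simp only [f, dif_pos hn, dif_pos hn'] at he
    have := s.equivFin.symm.injective (Subtype.ext he)
    exact congrArg Fin.val this
  refine comb_sub ⟨range s.card, fun n => A (f n), fun n => ψ (f n), fun n => ε (f n),
    ⟨fun n _ => h.sf _ (hf n), fun n hn n' hn' hne => h.disj _ (hf n) _ (hf n')
      fun he => hne (hinj n hn n' hn' he), fun n _ w hw => ?_⟩, fun n => hε _, ?_⟩
  · rw [Finset.card_range]; exact h.card _ (hf n) w hw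
  · symm
    refine Finset.sum_bij (fun n _ => f n) (fun n _ => hf n) hinj (fun l hl => ?_) fun _ _ => rfl
    refine ⟨(s.equivFin ⟨l, hl⟩ : ℕ), Finset.mem_range.2 (s.equivFin ⟨l, hl⟩).2, ?_⟩
    simp [f]

theorem IsSF.mem {A : Finset ℕ} {ψ : ℕ → Γ →₀ ℚ} (h : IsSF R (GG R) A ψ) :
    ∑ w ∈ A, ψ w ∈ GG R :=
  comb_sub ⟨{0}, fun _ => A, fun _ => ψ, fun _ => 1,
    ⟨fun _ _ => h, by simp, by simp⟩, fun _ => Or.inl rfl, by simp⟩

theorem Wt.mem {w : ℕ} {φ : Γ →₀ ℚ} (h : Wt (GG R) w φ) : φ ∈ GG R := by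
  simpa using (h.isSF (R := R)).mem

theorem HC.mem {j : ℕ} {g : Γ →₀ ℚ} (h : HC R j g) : g ∈ GG R := by
  obtain ⟨s, A, ψ, ε, h1, h2, -, h4⟩ := h
  exact comb_sub ⟨s, A, ψ, ε, h1, h2, h4⟩

/-- Splitting of a functional into weights below `j` and a high part. -/
theorem split_comb {g : Γ →₀ ℚ} (hg : g ∈ Comb R (GG R)) (j : ℕ) :
    ∃ (ψ : ℕ → Γ →₀ ℚ) (h : Γ →₀ ℚ), (∀ w, Wt (GG R) w (ψ w)) ∧ HC R j h ∧
      g = ∑ w ∈ range j, ψ w + h := by
  classical
  obtain ⟨s, A, ψ, ε, h1, h2, h3⟩ := hg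
  refine ⟨fun w => ∑ l ∈ s.filter (fun l => w ∈ A l), ε l • ψ l w,
    ∑ l ∈ s, ε l • ∑ w ∈ (A l).filter (fun w => j ≤ w), ψ l w, fun w => ?_,
    ⟨s, fun l => (A l).filter (fun w => j ≤ w), ψ, ε, ⟨fun l hl => (h1.sf l hl).filter_ge j,
      fun l hl l' hl' hne => (h1.disj l hl l' hl' hne).mono (Finset.filter_subset _ _)
        (Finset.filter_subset _ _),
      fun l hl w hw => h1.card l hl w (Finset.mem_filter.1 hw).1⟩, h2,
      fun l _ w hw => (Finset.mem_filter.1 hw).2, rfl⟩, ?_⟩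
  · by_cases hex : ∃ l ∈ s, w ∈ A l
    · obtain ⟨l, hl, hw⟩ := hex
      have : s.filter (fun l => w ∈ A l) = {l} := by
        ext l'
        simp only [Finset.mem_filter, Finset.mem_singleton]
        constructor
        · rintro ⟨hl', hw'⟩
          by_contra hne
          exact Finset.disjoint_left.1 (h1.disj l' hl' l hl hne) hw' hw
        · rintro rfl
          exact ⟨hl, hw⟩
      simp only [this, Finset.sum_singleton]
      rcases h2 l with h | h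
      · rw [h, one_smul]; exact (h1.sf l hl).wt hw
      · rw [h, neg_smul, one_smul]; exact ((h1.sf l hl).wt hw).neg
    · push Not at hex
      simp only [Finset.filter_false_of_mem hex, Finset.sum_empty]
      exact Wt.zero _ w
  · rw [h3]
    have e1 : ∑ w ∈ range j, ∑ l ∈ s.filter (fun l => w ∈ A l), ε l • ψ l w =
        ∑ l ∈ s, ε l • ∑ w ∈ (A l).filter (fun w => ¬ j ≤ w), ψ l w := by
      simp only [Finset.smul_sum]
      apply Finset.sum_comm'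
      intro w l
      simp only [Finset.mem_range, Finset.mem_filter, not_le]
      tauto
    rw [e1, ← Finset.sum_add_distrib]
    refine Finset.sum_congr rfl fun l _ => ?_
    rw [← smul_add, add_comm, Finset.sum_filter_add_sum_filter_not]

end Vale.Agent.P129
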