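import Vale.Agent.P129.Basic

/-!
P129, file Branch: the branches built by the game, cuts, and existence of tails.

Plan.  `(state R ν c k).1 i = pw R ν c i` and `(state R ν c k).2 i = pf R ν c i` for `i < k`
(induction on `k`), and `nextW .. w φ k` depends only on `w i, φ i` for `i < k`
(`hsupp_congr`, `hist_congr`).  This gives `pw_eq`, `pf_eq`.  `ad`: if
`w δ (i+1) = w δ' (i'+1)` then `code_inj`, `hist_eq` give `i = i'` and equal weights below, so for
every `h ≤ i` the two codes at `h + 1` agree and the parities of the levels give `b δ h = b δ' h`;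
take `c = k₀ + 1` with `b δ k₀ ≠ b δ' k₀`.  Tails: well-founded recursion on `δ` (the supports of the
`φ δ k` are below `δ`, and `cpl t g c` only uses `t ζ` for `ζ ∈ g.support`).
-/

namespace Vale.Agent.P129

open Finset

variable {Γ : Type} [LinearOrder Γ] {R : Rho Γ}

theorem state_eq (R : Rho Γ) (ν : ℕ → Mv Γ) (c : ℕ → Bool) (k : ℕ) :
    ∀ i < k, (state R ν c k).1 i = pw R ν c i ∧ (state R ν c k).2 i = pf R ν c i := by
  induction k with
  | zero => intro i hi; omega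
  | succ k ih =>
    intro i hi
    rcases (Nat.lt_succ_iff.1 hi).lt_or_eq with h | rfl
    · have h1 := ih i h
      simp only [state, Function.update_of_ne h.ne]
      exact h1
    · exact ⟨rfl, rfl⟩

theorem nextW_congr {ν ν' : ℕ → Mv Γ} {c c' : ℕ → Bool} {w w' : ℕ → ℕ} {φ φ' : ℕ → Γ →₀ ℚ}
    {k : ℕ} (hν : ∀ i < k, ν i = ν' i) (hc : ∀ i < k, c i = c' i) (hw : ∀ i < k, w i = w' i)
    (hφ : ∀ i < k, φ i = φ' i) : nextW R ν c w φ k = nextW R ν' c' w' φ' k := by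
  cases k with
  | zero => rfl
  | succ k =>
    simp only [nextW]
    rw [hν k (by omega), hc k (by omega), hw k (by omega), hsupp_congr hφ, hist_congr hw hφ]

theorem nextW_state (R : Rho Γ) (ν : ℕ → Mv Γ) (c : ℕ → Bool) (k : ℕ) :
    nextW R ν c (state R ν c k).1 (state R ν c k).2 k = nextW R ν c (pw R ν c) (pf R ν c) k :=
  nextW_congr (fun _ _ => rfl) (fun _ _ => rfl) (fun i hi => (state_eq R ν c k i hi).1)
    (fun i hi => (state_eq R ν c k i hi).2)

theorem pw_eq (R : Rho Γ) (ν : ℕ → Mv Γ) (c : ℕ → Bool) (k : ℕ) :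
    pw R ν c k = nextW R ν c (pw R ν c) (pf R ν c) k := by
  rw [← nextW_state]
  simp only [pw, state, Function.update_self]

open Classical in
theorem pf_eq (R : Rho Γ) (ν : ℕ → Mv Γ) (c : ℕ → Bool) (k : ℕ) :
    pf R ν c k = if Wt (GG R) (pw R ν c k) (ν k).1 then (ν k).1 else 0 := by
  rw [pw_eq, ← nextW_state]
  simp only [pf, state, Function.update_self]

theorem pwf_local {ν ν' : ℕ → Mv Γ} {c c' : ℕ → Bool} (k : ℕ) (hν : ∀ i < k, ν i = ν' i)
    (hc : ∀ i < k, c i = c' i) :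
    ∀ i < k, pw R ν c i = pw R ν' c' i ∧ pf R ν c i = pf R ν' c' i := by
  induction k with
  | zero => intro i hi; omega
  | succ k ih =>
    have ih' := ih (fun i hi => hν i (by omega)) (fun i hi => hc i (by omega))
    intro i hi
    rcases (Nat.lt_succ_iff.1 hi).lt_or_eq with h | rfl
    · exact ih' i h
    · have h1 : pw R ν c i = pw R ν' c' i := by
        rw [pw_eq, pw_eq]
        exact nextW_congr (fun j hj => hν j (by omega)) (fun j hj => hc j (by omega))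
          (fun j hj => (ih' j hj).1) (fun j hj => (ih' j hj).2)
      refine ⟨h1, ?_⟩
      rw [pf_eq, pf_eq, h1, hν i hi]

theorem pw_local {ν ν' : ℕ → Mv Γ} {c c' : ℕ → Bool} {k : ℕ} (hν : ∀ i < k, ν i = ν' i)
    (hc : ∀ i < k, c i = c' i) : pw R ν c k = pw R ν' c' k := by
  rw [pw_eq, pw_eq]
  exact nextW_congr hν hc (fun j hj => (pwf_local k hν hc j hj).1)
    (fun j hj => (pwf_local k hν hc j hj).2)

theorem pf_local {ν ν' : ℕ → Mv Γ} {c c' : ℕ → Bool} {k : ℕ} (hν : ∀ i < k, ν i = ν' i)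
    (hc : ∀ i < k, c i = c' i) : ∀ i < k, pf R ν c i = pf R ν' c' i := by
  exact fun j hj => (pwf_local k hν hc j hj).2

theorem lt_pw_succ (R : Rho Γ) (ν : ℕ → Mv Γ) (c : ℕ → Bool) (k : ℕ) :
    (ν k).2 < pw R ν c (k + 1) := by
  rw [pw_eq]
  simp only [nextW]
  refine lt_of_le_of_lt ?_ (code_gt _ _)
  have h1 := le_max_right (pw R ν c k) (ν k).2
  have h2 := le_max_left (max (pw R ν c k) (ν k).2) (lev R (hsupp (pf R ν c) (k + 1)))
  omega

theorem pf_support (R : Rho Γ) (ν : ℕ → Mv Γ) (c : ℕ → Bool) (k : ℕ) :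
    (pf R ν c k).support ⊆ (ν k).1.support := by
  rw [pf_eq]
  split_ifs
  · exact Finset.Subset.refl _
  · simp

theorem branches_of_guess (R : Rho Γ) {μ : Γ → ℕ → Mv Γ} {b : Γ → ℕ → Bool} (h : Guess μ b) :
    Branches R (fun δ => pw R (μ δ) (b δ)) (fun δ => pf R (μ δ) (b δ)) := by
  have hsp : ∀ δ q, IsSp R (GG R) q (pw R (μ δ) (b δ)) (pf R (μ δ) (b δ)) := by
    intro δ q
    refine ⟨fun i _ => ?_, fun i _ => ?_⟩
    · rw [pf_eq]
      split_ifs with h1
      · exact h1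
      · exact Wt.zero _ _
    · have h1 := le_max_left (pw R (μ δ) (b δ) i) (μ δ i).2
      have h2 := le_max_left (max (pw R (μ δ) (b δ) i) (μ δ i).2)
        (lev R (hsupp (pf R (μ δ) (b δ)) (i + 1)))
      have h3 := le_max_right (max (pw R (μ δ) (b δ) i) (μ δ i).2)
        (lev R (hsupp (pf R (μ δ) (b δ)) (i + 1)))
      refine ⟨2 * max (max (pw R (μ δ) (b δ) i) (μ δ i).2)
        (lev R (hsupp (pf R (μ δ) (b δ)) (i + 1))) + (b δ i).toNat, by omega,
        (chain_lev R _).mono (by omega) (Finset.Subset.refl _), ?_⟩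
      rw [pw_eq]
      rfl
  refine ⟨hsp, fun δ k a ha => h.lt δ k a (pf_support R _ _ k ha), fun δ δ' hne => ?_⟩
  obtain ⟨k₀, hk₀⟩ := Function.ne_iff.1 (h.inj.ne hne)
  refine ⟨k₀ + 1, fun i hi i' hi' he => hk₀ ?_⟩
  obtain ⟨m, rfl⟩ : ∃ m, i = m + 1 := ⟨i - 1, by omega⟩
  obtain ⟨m', rfl⟩ : ∃ m', i' = m' + 1 := ⟨i' - 1, by omega⟩
  obtain ⟨rfl, h1, -⟩ := (hsp δ (m + 2)).share (hsp δ' (m' + 2)) (by omega) (by omega) he
  have h2 : pw R (μ δ) (b δ) (k₀ + 1) = pw R (μ δ') (b δ') (k₀ + 1) := by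
    rcases hi.lt_or_eq with h3 | h3
    · exact h1 _ (by omega)
    · rw [h3]; exact he
  rw [pw_eq, pw_eq] at h2
  simp only [nextW] at h2
  have h3 := (code_inj h2).1
  cases h4 : b δ k₀ <;> cases h5 : b δ' k₀ <;> simp only [h4, h5, Bool.toNat_false,
    Bool.toNat_true] at h3 ⊢ <;> omega

variable {w : Γ → ℕ → ℕ} {φ : Γ → ℕ → Γ →₀ ℚ}

theorem Branches.strictMono (h : Branches R w φ) (δ : Γ) : StrictMono (w δ) := by
  exact fun i j hij => (h.sp δ (j + 1)).lt hij (Nat.lt_succ_self j)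

theorem Branches.wt (h : Branches R w φ) (δ : Γ) (k : ℕ) : Wt (GG R) (w δ k) (φ δ k) := by
  exact (h.sp δ (k + 1)).wt k (Nat.lt_succ_self k)

omit [LinearOrder Γ] in
theorem Cut.mono {F : Finset Γ} {c c' : ℕ} (h : Cut w F c) (hc : c ≤ c') : Cut w F c' := by
  exact ⟨fun δ hδ δ' hδ' hne i hi i' hi' => h.1 δ hδ δ' hδ' hne i (hc.trans hi) i' (hc.trans hi'),
    fun δ hδ i hi => h.2 δ hδ i (hc.trans hi)⟩

omit [LinearOrder Γ] in
theorem cut_singleton (w : Γ → ℕ → ℕ) (δ : Γ) (c : ℕ) : Cut w {δ} c := by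
  refine ⟨fun a ha b hb hne => ?_, fun a _ i _ => by simp⟩
  rw [Finset.mem_singleton] at ha hb
  exact absurd (ha.trans hb.symm) hne

theorem Branches.exists_cut (h : Branches R w φ) (F : Finset Γ) : ∃ c, Cut w F c := by
  classical
  have h1 : ∀ x : Γ × Γ, ∃ c, x.1 ≠ x.2 → ∀ i ≥ c, ∀ i' ≥ c, w x.1 i ≠ w x.2 i' := by
    intro x
    by_cases hx : x.1 = x.2
    · exact ⟨0, fun hne => absurd hx hne⟩
    · obtain ⟨c, hc⟩ := h.ad _ _ hx
      exact ⟨c, fun _ => hc⟩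
  choose c hc using h1
  refine ⟨max ((F ×ˢ F).sup c) F.card, fun δ hδ δ' hδ' hne i hi i' hi' => ?_,
    fun δ _ i hi => ?_⟩
  · have h2 : c (δ, δ') ≤ (F ×ˢ F).sup c := Finset.le_sup (Finset.mem_product.2 ⟨hδ, hδ'⟩)
    have h3 := le_max_left ((F ×ˢ F).sup c) F.card
    exact hc (δ, δ') hne i (by omega) i' (by omega)
  · have h2 : i ≤ w δ i := (h.strictMono δ).le_apply
    have h3 := le_max_right ((F ×ˢ F).sup c) F.card
    omega

theorem Branches.exists_tails [WellFoundedLT Γ] (h : Branches R w φ) :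
    ∃ κ t, Tails w φ κ t := by
  classical
  choose κ hκ using h.exists_cut
  let G : (δ : Γ) → ((ζ : Γ) → ζ < δ → ℕ → Γ → ℝ) → ℕ → Γ → ℝ := fun δ r c θ =>
    ∑' k, cpl (fun ζ => if hζ : ζ < δ then r ζ hζ else 0) (φ δ (k + c))
      (κ (φ δ (k + c)).support) θ
  refine ⟨κ, (wellFounded_lt (α := Γ)).fix G, hκ, fun δ c θ => ?_⟩
  rw [WellFounded.fix_eq]
  refine tsum_congr fun k => ?_
  unfold cpl
  refine congrFun (congrArg (cf (φ δ (k + c)) + ·) (Finset.sum_congr rfl fun ζ hζ => ?_)) θ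
  beta_reduce
  rw [dif_pos (h.lt δ _ ζ hζ)]

end Vale.Agent.P129
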