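import Vale.Agent.P129.Main

/-!
P129, file Cx: the counterexample over the real or the complex scalars.
-/

namespace Vale.Agent.P129

open Finset TopologicalSpace

section Kato

variable {W Z : Type} [NormedAddCommGroup W] [NormedSpace ℝ W] [NormedAddCommGroup Z]
  [NormedSpace ℝ Z]

theorem kato_step (hW : ¬ FiniteDimensional ℝ W) (T : W →ₗ[ℝ] Z)
    (hT : ∀ W' : Submodule ℝ W, ¬ FiniteDimensional ℝ W' → ∀ c > 0, ∃ w ∈ W', ‖T w‖ < c * ‖w‖)
    (n : ℕ) (f : ℕ → StrongDual ℝ W) {c : ℝ} (hc : 0 < c) :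
    ∃ (x : W) (g : StrongDual ℝ W), ‖x‖ = 1 ∧ ‖g‖ ≤ 1 ∧ g x = 1 ∧ (∀ i < n, f i x = 0) ∧
      ‖T x‖ ≤ c := by
  let S : W →ₗ[ℝ] (Fin n → ℝ) := LinearMap.pi fun i => (f i : W →ₗ[ℝ] ℝ)
  have htop : ¬ FiniteDimensional ℝ (⊤ : Submodule ℝ W) := fun h =>
    hW (Module.Finite.equiv Submodule.topEquiv)
  obtain ⟨w, hw, hw'⟩ := hT _ (not_fd_inf_ker htop S) c hc
  have hw0 : 0 < ‖w‖ := by
    rcases (norm_nonneg w).lt_or_eq with h | h
    · exact h
    · rw [← h, mul_zero] at hw'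
      exact absurd hw' (not_lt.2 (norm_nonneg _))
  have hx : ‖‖w‖⁻¹ • w‖ = 1 := by
    rw [norm_smul, norm_inv, norm_norm, inv_mul_cancel₀ hw0.ne']
  obtain ⟨g, hg1, hg2⟩ := exists_dual_vector'' ℝ (‖w‖⁻¹ • w)
  refine ⟨‖w‖⁻¹ • w, g, hx, hg1, by rw [hg2, hx]; rfl, fun i hi => ?_, ?_⟩
  · have : f i w = 0 := congrFun (LinearMap.mem_ker.1 hw.2) ⟨i, hi⟩
    rw [map_smul, this, smul_zero]
  · rw [map_smul, norm_smul, norm_inv, norm_norm, inv_mul_le_iff₀ hw0, mul_comm]
    exact hw'.le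

/-- A strictly singular map is small on an infinite-dimensional subspace. -/
theorem kato (hW : ¬ FiniteDimensional ℝ W) (T : W →ₗ[ℝ] Z)
    (hT : ∀ W' : Submodule ℝ W, ¬ FiniteDimensional ℝ W' → ∀ c > 0, ∃ w ∈ W', ‖T w‖ < c * ‖w‖)
    {ε : ℝ} (hε : 0 < ε) :
    ∃ W' : Submodule ℝ W, ¬ FiniteDimensional ℝ W' ∧ ∀ w ∈ W', ‖T w‖ ≤ ε * ‖w‖ := by
  classical
  choose x g h1 h2 h3 h4 h5 using fun n f =>
    kato_step hW T hT n f (c := ε / 4 * (1 / 4) ^ n) (by positivity)
  let F : ℕ → ℕ → StrongDual ℝ W := fun n =>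
    Nat.rec (fun _ => 0) (fun n f => Function.update f n (g n f)) n
  have hF : ∀ n, F (n + 1) = Function.update (F n) n (g n (F n)) := fun _ => rfl
  have hF' : ∀ n i, i < n → F n i = g i (F i) := by
    intro n
    induction n with
    | zero => intro i hi; omega
    | succ n ih =>
      intro i hi
      rw [hF]
      rcases Nat.lt_succ_iff_lt_or_eq.1 hi with h | h
      · rw [Function.update_of_ne h.ne, ih i h]
      · rw [h, Function.update_self]
  set y : ℕ → W := fun n => x n (F n) with hy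
  have hcoef : ∀ (a : ℕ →₀ ℝ) (k : ℕ), ∑ n ∈ range k, |a n| ≤
      (2 ^ k - 1) * ‖Finsupp.linearCombination ℝ y a‖ := by
    intro a k
    induction k with
    | zero => simp
    | succ k ih =>
      obtain ⟨N, hN⟩ := Finset.exists_nat_subset_range a.support
      have hsub : a.support ⊆ range (max N (k + 1)) :=
        hN.trans (Finset.range_subset_range.2 (le_max_left _ _))
      have e1 : g k (F k) (Finsupp.linearCombination ℝ y a) =
          ∑ n ∈ range k, a n * g k (F k) (y n) + a k := by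
        rw [Finsupp.linearCombination_apply,
          Finsupp.sum_of_support_subset _ hsub _ (fun i _ => zero_smul ℝ (y i)), map_sum,
          ← Finset.sum_subset (Finset.range_subset_range.2 (le_max_right N (k + 1))),
          Finset.sum_range_succ]
        · simp only [map_smul, smul_eq_mul, hy, h3, mul_one]
        · intro n _ hn
          have hkn : k < n := by simpa using hn
          have := h4 n (F n) k hkn
          rw [hF' n k hkn] at this
          rw [map_smul, this, smul_zero]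
      have b1 : |g k (F k) (Finsupp.linearCombination ℝ y a)| ≤
          ‖Finsupp.linearCombination ℝ y a‖ :=
        ((g k (F k)).le_opNorm _).trans (mul_le_of_le_one_left (norm_nonneg _) (h2 _ _))
      have b2 : |∑ n ∈ range k, a n * g k (F k) (y n)| ≤ ∑ n ∈ range k, |a n| := by
        refine (Finset.abs_sum_le_sum_abs _ _).trans (Finset.sum_le_sum fun n _ => ?_)
        rw [abs_mul]
        refine mul_le_of_le_one_right (abs_nonneg _) ?_
        refine ((g k (F k)).le_opNorm _).trans ?_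
        rw [h1, mul_one]
        exact h2 _ _
      have b3 : |a k| ≤ ‖Finsupp.linearCombination ℝ y a‖ + ∑ n ∈ range k, |a n| := by
        rw [e1] at b1
        rw [abs_le] at b1 b2 ⊢
        constructor <;> linarith [b1.1, b1.2, b2.1, b2.2]
      rw [Finset.sum_range_succ, pow_succ]
      linarith
  have hcoef' : ∀ (a : ℕ →₀ ℝ) (k : ℕ), |a k| ≤
      2 * 2 ^ k * ‖Finsupp.linearCombination ℝ y a‖ := by
    intro a k
    have b1 := hcoef a (k + 1)
    have b2 : |a k| ≤ ∑ n ∈ range (k + 1), |a n| :=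
      Finset.single_le_sum (f := fun n => |a n|) (fun _ _ => abs_nonneg _)
        (Finset.mem_range.2 (Nat.lt_succ_self k))
    rw [pow_succ] at b1
    nlinarith [norm_nonneg (Finsupp.linearCombination ℝ y a)]
  have hli : LinearIndependent ℝ y := by
    rw [linearIndependent_iff]
    intro a ha
    ext k
    have := hcoef' a k
    rw [ha, norm_zero, mul_zero] at this
    exact abs_nonpos_iff.1 this
  refine ⟨Submodule.span ℝ (Set.range y), fun hf => ?_, fun w hw => ?_⟩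
  · have := (linearIndependent_span hli).finite
    exact not_finite ℕ
  · rw [← Finsupp.range_linearCombination] at hw
    obtain ⟨a, rfl⟩ := hw
    obtain ⟨N, hN⟩ := Finset.exists_nat_subset_range a.support
    set r := ‖Finsupp.linearCombination ℝ y a‖ with hr
    have hr0 : 0 ≤ r := norm_nonneg _
    rw [Finsupp.linearCombination_apply,
      Finsupp.sum_of_support_subset _ hN _ (fun i _ => zero_smul ℝ (y i)), map_sum]
    refine (norm_sum_le _ _).trans ?_
    have b1 : ∑ n ∈ range N, ‖T (a n • y n)‖ ≤ ∑ n ∈ range N, ε * r / 2 * (1 / 2) ^ n := by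
      refine Finset.sum_le_sum fun n _ => ?_
      rw [map_smul, norm_smul, Real.norm_eq_abs]
      calc |a n| * ‖T (y n)‖ ≤ (2 * 2 ^ n * r) * (ε / 4 * (1 / 4) ^ n) :=
            mul_le_mul (hcoef' a n) (h5 _ _) (norm_nonneg _) (by positivity)
        _ = ε * r / 2 * (2 ^ n * (1 / 4) ^ n) := by ring
        _ = ε * r / 2 * (1 / 2) ^ n := by rw [← mul_pow]; norm_num
    rw [← Finset.mul_sum] at b1
    have b2 := mul_le_mul_of_nonneg_left (sum_geometric_two_le N)
      (by positivity : 0 ≤ ε * r / 2)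
    linarith

end Kato

variable {Γ : Type} [LinearOrder Γ] {N : (Γ →₀ ℝ) → ℝ} {x : Γ → Γ → ℝ}
  {Z : Type} [NormedAddCommGroup Z] [NormedSpace ℝ Z] {e : (Γ →₀ ℝ) →ₗ[ℝ] Z}
  {P : Set Γ → Z →L[ℝ] Z} {xh : Γ → StrongDual ℝ Z}

theorem Setup.extract_one [WellFoundedLT Γ] (h : Setup N x e P xh)
    (hω : ∀ f : ℕ → Γ, ∃ β, ∀ n, f n < β) {W : Type} [NormedAddCommGroup W] [NormedSpace ℝ W]
    (p : W →ₗ[ℝ] Z) (W' : Submodule ℝ W) (hW' : ¬ FiniteDimensional ℝ W') {c : ℝ} (hc : 0 < c)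
    (hlow : ∀ w ∈ W', c * ‖w‖ ≤ ‖p w‖) (d : ℕ → StrongDual ℝ W)
    (hd : ∀ δ, ∀ ε > 0, ∃ n, ∀ w, (∀ i ≤ n, d i w = 0) → |xh δ (p w)| ≤ ε * ‖w‖) : False := by
  have hinj : Function.Injective (p.domRestrict W') := by
    rw [← LinearMap.ker_eq_bot, LinearMap.ker_eq_bot']
    intro w hw
    have h1 := hlow w w.2
    have h2 : p w = 0 := hw
    rw [h2, norm_zero] at h1
    have h3 : ‖(w : W)‖ ≤ 0 := by
      by_contra hne
      exact absurd h1 (not_le.2 (mul_pos hc (not_le.1 hne)))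
    exact Subtype.ext (norm_le_zero_iff.1 h3)
  let q := LinearEquiv.ofInjective (p.domRestrict W') hinj
  have hq : ∀ z : LinearMap.range (p.domRestrict W'), p (q.symm z) = z := fun z =>
    LinearEquiv.ofInjective_symm_apply (p.domRestrict W') z
  have hext : ∀ i, ∃ d' : StrongDual ℝ Z, ∀ z : LinearMap.range (p.domRestrict W'),
      d' z = d i (q.symm z) := by
    intro i
    let f₀ : LinearMap.range (p.domRestrict W') →ₗ[ℝ] ℝ :=
      (d i : W →ₗ[ℝ] ℝ) ∘ₗ W'.subtype ∘ₗ q.symm.toLinearMap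
    obtain ⟨g, hg, -⟩ := exists_extension_norm_eq _ (f₀.mkContinuous (‖d i‖ / c) fun z => by
      have h1 := hlow _ (q.symm z).2
      rw [hq] at h1
      have h2 := (d i).le_opNorm (q.symm z)
      have h3 : ‖((q.symm z : W') : W)‖ ≤ ‖(z : Z)‖ / c := by rwa [le_div_iff₀' hc]
      calc ‖f₀ z‖ ≤ ‖d i‖ * ‖((q.symm z : W') : W)‖ := h2
        _ ≤ ‖d i‖ * (‖(z : Z)‖ / c) := mul_le_mul_of_nonneg_left h3 (norm_nonneg _)
        _ = ‖d i‖ / c * ‖z‖ := by rw [Submodule.coe_norm]; ring)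
    exact ⟨g, hg⟩
  choose d' hd' using hext
  refine h.extract' hω (LinearMap.range (p.domRestrict W'))
    (fun hf => hW' (Module.Finite.equiv q.symm)) d' fun δ ε hε => ?_
  obtain ⟨n, hn⟩ := hd δ (ε * c) (mul_pos hε hc)
  refine ⟨n, fun z hz h0 => ?_⟩
  have h1 := hn (q.symm ⟨z, hz⟩) fun i hi => by rw [← hd' i ⟨z, hz⟩]; exact h0 i hi
  have h2 := hlow _ (q.symm ⟨z, hz⟩).2
  rw [hq] at h1 h2
  calc |xh δ z| ≤ ε * c * ‖((q.symm ⟨z, hz⟩ : W') : W)‖ := h1
    _ = ε * (c * ‖((q.symm ⟨z, hz⟩ : W') : W)‖) := by ring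
    _ ≤ ε * ‖z‖ := mul_le_mul_of_nonneg_left h2 hε.le

theorem Setup.extract_two [WellFoundedLT Γ] (h : Setup N x e P xh)
    (hω : ∀ f : ℕ → Γ, ∃ β, ∀ n, f n < β) {W : Type} [NormedAddCommGroup W] [NormedSpace ℝ W]
    (hW : ¬ FiniteDimensional ℝ W) (p₁ p₂ : W →ₗ[ℝ] Z) {C : ℝ} (hC : 0 < C)
    (hlow : ∀ w, ‖w‖ ≤ C * (‖p₁ w‖ + ‖p₂ w‖)) (d : ℕ → StrongDual ℝ W)
    (hd : ∀ δ, ∀ ε > 0, ∃ n, ∀ w, (∀ i ≤ n, d i w = 0) →
      |xh δ (p₁ w)| ≤ ε * ‖w‖ ∧ |xh δ (p₂ w)| ≤ ε * ‖w‖) : False := by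
  by_cases h1 : ∀ W' : Submodule ℝ W, ¬ FiniteDimensional ℝ W' → ∀ c > 0,
      ∃ w ∈ W', ‖p₁ w‖ < c * ‖w‖
  · obtain ⟨W', hW', h2⟩ := kato hW p₁ h1 (ε := 1 / (2 * C)) (by positivity)
    refine h.extract_one hω p₂ W' hW' (c := 1 / (2 * C)) (by positivity) (fun w hw => ?_) d
      fun δ ε hε => (hd δ ε hε).imp fun n hn w hw => (hn w hw).2
    have h3 := hlow w
    have h4 := mul_le_mul_of_nonneg_left (h2 w hw) hC.le
    have h5 : C * (1 / (2 * C) * ‖w‖) = ‖w‖ / 2 := by field_simp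
    rw [div_mul_eq_mul_div, one_mul, div_le_iff₀ (by positivity)]
    nlinarith
  · push Not at h1
    obtain ⟨W', hW', c, hc, h2⟩ := h1
    exact h.extract_one hω p₁ W' hW' hc h2 d
      fun δ ε hε => (hd δ ε hε).imp fun n hn w hw => (hn w hw).1

theorem fd_of_fd_dual {𝕜 E : Type} [RCLike 𝕜] [NormedAddCommGroup E] [NormedSpace 𝕜 E]
    (h : FiniteDimensional 𝕜 (StrongDual 𝕜 E)) : FiniteDimensional 𝕜 E := by
  let T : E →ₗ[𝕜] Module.Dual 𝕜 (StrongDual 𝕜 E) :=
    { toFun := fun v =>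
        { toFun := fun f => f v
          map_add' := fun f g => rfl
          map_smul' := fun c f => rfl }
      map_add' := fun a b => by ext f; simp
      map_smul' := fun c a => by ext f; simp }
  refine FiniteDimensional.of_injective T ?_
  rw [← LinearMap.ker_eq_bot, LinearMap.ker_eq_bot']
  intro v hv
  obtain ⟨g, -, hg⟩ := exists_dual_vector'' 𝕜 v
  have h1 : g v = 0 := LinearMap.congr_fun hv g
  rw [h1] at hg
  exact norm_eq_zero.1 (by exact_mod_cast hg.symm)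

theorem norm_I_le {𝕜 : Type} [RCLike 𝕜] : ‖(RCLike.I : 𝕜)‖ ≤ 1 := by
  rw [RCLike.norm_I]
  split_ifs <;> norm_num

theorem norm_le_re_im {𝕜 : Type} [RCLike 𝕜] (z : 𝕜) : ‖z‖ ≤ |RCLike.re z| + |RCLike.im z| := by
  conv_lhs => rw [← RCLike.re_add_im z]
  refine (norm_add_le _ _).trans ?_
  rw [norm_mul, RCLike.norm_ofReal, RCLike.norm_ofReal]
  exact add_le_add le_rfl (mul_le_of_le_one_right (abs_nonneg _) norm_I_le)

theorem Setup.no_sep_quotient_rc [WellFoundedLT Γ] (h : Setup N x e P xh)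
    (hω : ∀ f : ℕ → Γ, ∃ β, ∀ n, f n < β) {X : Type} [NormedAddCommGroup X] [NormedSpace ℝ X]
    (ι : X →ₗᵢ[ℝ] StrongDual ℝ Z) (hx : ∀ δ, ∃ ξ : X, ι ξ = xh δ)
    (honto : ∀ f : StrongDual ℝ X, ∃ z : Z, ∀ ξ : X, f ξ = ι ξ z)
    (huniq : ∀ z : Z, (∀ ξ : X, ι ξ z = 0) → z = 0) {𝕜 Y : Type} [RCLike 𝕜]
    [NormedAddCommGroup Y] [NormedSpace 𝕜 Y] (j : X → Y)
    (hadd : ∀ a b, j (a + b) = j a + j b) (hsmul : ∀ (c : ℝ) a, j (c • a) = (c : 𝕜) • j a)
    (hnorm : ∀ a, ‖j a‖ ≤ ‖a‖)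
    (hj : ∀ η : Y, ∃ a b : X, ‖a‖ ≤ ‖η‖ ∧ ‖b‖ ≤ ‖η‖ ∧ η = j a + (RCLike.I : 𝕜) • j b)
    (M : Submodule 𝕜 Y) (hM : IsClosed (M : Set Y)) (hs : SeparableSpace (Y ⧸ M)) :
    FiniteDimensional 𝕜 (Y ⧸ M) := by
  by_contra hfin
  choose Ψ hΨ using honto
  have hΨ' : ∀ z z' : Z, (∀ ξ : X, ι ξ z = ι ξ z') → z = z' := fun z z' hz =>
    sub_eq_zero.1 (huniq _ fun ξ => by rw [map_sub, hz, sub_self])
  -- the real functional on `X` given by a functional on the quotient
  have hL : ∀ (r : 𝕜 →L[ℝ] ℝ), ∃ p : StrongDual 𝕜 (Y ⧸ M) →ₗ[ℝ] Z,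
      ∀ f ξ, ι ξ (p f) = r (f (Submodule.Quotient.mk (j ξ))) := by
    intro r
    let L : StrongDual 𝕜 (Y ⧸ M) → StrongDual ℝ X := fun f =>
      LinearMap.mkContinuous
        { toFun := fun ξ => r (f (Submodule.Quotient.mk (j ξ)))
          map_add' := fun a b => by rw [hadd, Submodule.Quotient.mk_add, map_add, map_add]
          map_smul' := fun c a => by
            rw [hsmul, Submodule.Quotient.mk_smul, map_smul, RingHom.id_apply, smul_eq_mul,
              ← RCLike.real_smul_eq_coe_mul, map_smul] } (‖r‖ * ‖f‖) fun ξ => by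
        refine (r.le_opNorm _).trans ?_
        rw [mul_assoc]
        refine mul_le_mul_of_nonneg_left ((f.le_opNorm _).trans ?_) (norm_nonneg _)
        exact mul_le_mul_of_nonneg_left
          ((Submodule.Quotient.norm_mk_le _ _).trans (hnorm ξ)) (norm_nonneg _)
    have hL : ∀ f ξ, ι ξ (Ψ (L f)) = r (f (Submodule.Quotient.mk (j ξ))) := fun f ξ =>
      (hΨ (L f) ξ).symm
    refine ⟨{ toFun := fun f => Ψ (L f)
              map_add' := fun f g => hΨ' _ _ fun ξ => by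
                rw [map_add, hL, hL, hL, add_apply, map_add]
              map_smul' := fun c f => hΨ' _ _ fun ξ => by
                rw [RingHom.id_apply, map_smul, hL, hL, smul_apply, map_smul] }, hL⟩
  obtain ⟨p₁, hp₁⟩ := hL RCLike.reCLM
  obtain ⟨p₂, hp₂⟩ := hL RCLike.imCLM
  simp only [RCLike.reCLM_apply, RCLike.imCLM_apply] at hp₁ hp₂
  have hW : ¬ FiniteDimensional ℝ (StrongDual 𝕜 (Y ⧸ M)) := by
    intro hW
    have : FiniteDimensional 𝕜 (StrongDual 𝕜 (Y ⧸ M)) :=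
      Module.Finite.of_restrictScalars_finite ℝ 𝕜 _
    exact hfin (fd_of_fd_dual this)
  have hev : ∀ (r : 𝕜 →L[ℝ] ℝ) (v : Y ⧸ M), ∃ d : StrongDual ℝ (StrongDual 𝕜 (Y ⧸ M)),
      ∀ f, d f = r (f v) := fun r v =>
    ⟨LinearMap.mkContinuous
      { toFun := fun f => r (f v)
        map_add' := fun f g => by rw [add_apply, map_add]
        map_smul' := fun c f => by rw [smul_apply, map_smul, RingHom.id_apply] } (‖r‖ * ‖v‖)
      fun f => by
        refine (r.le_opNorm _).trans ?_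
        rw [mul_assoc, mul_comm ‖v‖]
        exact mul_le_mul_of_nonneg_left (f.le_opNorm _) (norm_nonneg _), fun _ => rfl⟩
  choose ev hev using hev
  obtain ⟨u, hu⟩ := exists_dense_seq (Y ⧸ M)
  refine h.extract_two hω hW p₁ p₂ (C := 4) (by norm_num) (fun f => ?_)
    (fun i => if i % 2 = 0 then ev RCLike.reCLM (u (i / 2)) else ev RCLike.imCLM (u (i / 2)))
    fun δ ε hε => ?_
  · have b0 : ∀ ξ : X, ‖f (Submodule.Quotient.mk (j ξ))‖ ≤ (‖p₁ f‖ + ‖p₂ f‖) * ‖ξ‖ := by
      intro ξ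
      have a1 := (ι ξ).le_opNorm (p₁ f)
      have a2 := (ι ξ).le_opNorm (p₂ f)
      rw [ι.norm_map, Real.norm_eq_abs] at a1 a2
      rw [hp₁] at a1
      rw [hp₂] at a2
      have a3 := norm_le_re_im (f (Submodule.Quotient.mk (j ξ)))
      linarith
    refine f.opNorm_le_bound (by positivity) fun v => ?_
    rcases (norm_nonneg v).lt_or_eq with hv | hv
    · obtain ⟨η, rfl, hη⟩ := Submodule.Quotient.norm_mk_lt v hv
      obtain ⟨a, b, ha, hb, hab⟩ := hj η
      have a1 : f (Submodule.Quotient.mk η) = f (Submodule.Quotient.mk (j a)) +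
          (RCLike.I : 𝕜) • f (Submodule.Quotient.mk (j b)) := by
        rw [← map_smul, ← map_add, ← Submodule.Quotient.mk_smul, ← Submodule.Quotient.mk_add,
          ← hab]
      have a2 : ‖(RCLike.I : 𝕜) • f (Submodule.Quotient.mk (j b))‖ ≤
          ‖f (Submodule.Quotient.mk (j b))‖ := by
        rw [norm_smul]
        exact mul_le_of_le_one_left (norm_nonneg _) norm_I_le
      have a3 := norm_add_le (f (Submodule.Quotient.mk (j a)))
        ((RCLike.I : 𝕜) • f (Submodule.Quotient.mk (j b)))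
      have a4 : 0 ≤ ‖p₁ f‖ + ‖p₂ f‖ := by positivity
      have a5 := mul_le_mul_of_nonneg_left (ha.trans hη.le) a4
      have a6 := mul_le_mul_of_nonneg_left (hb.trans hη.le) a4
      rw [← a1] at a3
      linarith [b0 a, b0 b]
    · rw [norm_eq_zero.1 hv.symm]
      simp
  · obtain ⟨ξ, hξ⟩ := hx δ
    obtain ⟨n, hn⟩ := hu.exists_dist_lt (Submodule.Quotient.mk (j ξ)) hε
    refine ⟨2 * n + 1, fun f hf => ?_⟩
    have a1 := hf (2 * n) (by omega)
    have a2 := hf (2 * n + 1) le_rfl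
    rw [if_pos (by omega), hev, show 2 * n / 2 = n by omega, RCLike.reCLM_apply] at a1
    rw [if_neg (by omega), hev, show (2 * n + 1) / 2 = n by omega, RCLike.imCLM_apply] at a2
    have a3 : f (u n) = 0 := RCLike.ext (by simpa using a1) (by simpa using a2)
    have a4 : ‖f (Submodule.Quotient.mk (j ξ))‖ ≤ ε * ‖f‖ := by
      have := f.le_opNorm (Submodule.Quotient.mk (j ξ) - u n)
      rw [map_sub, a3, sub_zero, ← dist_eq_norm] at this
      rw [mul_comm]
      exact this.trans (mul_le_mul_of_nonneg_left hn.le (norm_nonneg _))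
    rw [← hξ, hp₁, hp₂]
    exact ⟨(RCLike.abs_re_le_norm _).trans a4, (RCLike.abs_im_le_norm _).trans a4⟩

/-- The scalar extension of a space of real functionals. -/
def XK (𝕜 : Type) [RCLike 𝕜] (X : Submodule ℝ (StrongDual ℝ Z)) : Submodule 𝕜 (Z →L[ℝ] 𝕜) where
  carrier := {η | RCLike.reCLM.comp η ∈ X ∧ RCLike.imCLM.comp η ∈ X}
  add_mem' := fun {a b} ha hb => by
    constructor
    · rw [ContinuousLinearMap.comp_add]; exact X.add_mem ha.1 hb.1
    · rw [ContinuousLinearMap.comp_add]; exact X.add_mem ha.2 hb.2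
  zero_mem' := by
    constructor <;> · rw [ContinuousLinearMap.comp_zero]; exact X.zero_mem
  smul_mem' := fun c a ha => by
    constructor
    · have : RCLike.reCLM.comp (c • a) =
          RCLike.re c • RCLike.reCLM.comp a - RCLike.im c • RCLike.imCLM.comp a := by
        ext z; simp
      rw [this]
      exact X.sub_mem (X.smul_mem _ ha.1) (X.smul_mem _ ha.2)
    · have : RCLike.imCLM.comp (c • a) =
          RCLike.re c • RCLike.imCLM.comp a + RCLike.im c • RCLike.reCLM.comp a := by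
        ext z; simp
      rw [this]
      exact X.add_mem (X.smul_mem _ ha.2) (X.smul_mem _ ha.1)

theorem main_rc (𝕜 : Type) [RCLike 𝕜] (S : Set (ℕ → ℕ))
    (hS : Cardinal.mk S ≤ Cardinal.aleph 1) (hm : ¬ IsMeagre S) :
    ∃ (X : Type) (_ : NormedAddCommGroup X) (_ : NormedSpace 𝕜 X), CompleteSpace X ∧
      ¬ FiniteDimensional 𝕜 X ∧ ∀ M : Submodule 𝕜 X, IsClosed (M : Set X) →
        SeparableSpace (X ⧸ M) → FiniteDimensional 𝕜 (X ⧸ M) := by
  obtain ⟨Γ, _, hwf, hΓ, hc, hω⟩ := exists_omega1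
  obtain ⟨R⟩ := exists_rho Γ hc
  obtain ⟨μ, b, hG⟩ := exists_guess Γ hc hΓ S hS hm
  obtain ⟨N, x, hF⟩ := exists_frame R hG
  obtain ⟨Z, _, _, _, e, P, xh, h⟩ := exists_setup hF
  have : Infinite Γ := by
    rw [Cardinal.infinite_iff, hΓ]
    exact Cardinal.aleph0_le_aleph 1
  have hmem : ∀ δ, xh δ ∈ XX xh := fun δ =>
    Submodule.le_topologicalClosure _ (Submodule.subset_span ⟨δ, rfl⟩)
  have hj : ∀ ξ : XX xh, (RCLike.ofRealCLM (K := 𝕜)).comp (ξ : StrongDual ℝ Z) ∈ XK 𝕜 (XX xh) := by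
    intro ξ
    constructor
    · have : RCLike.reCLM.comp ((RCLike.ofRealCLM (K := 𝕜)).comp (ξ : StrongDual ℝ Z)) = ξ := by
        ext z; simp
      rw [this]; exact ξ.2
    · have : RCLike.imCLM.comp ((RCLike.ofRealCLM (K := 𝕜)).comp (ξ : StrongDual ℝ Z)) = 0 := by
        ext z; simp
      rw [this]; exact (XX xh).zero_mem
  let j : XX xh → XK 𝕜 (XX xh) := fun ξ => ⟨_, hj ξ⟩
  refine ⟨XK 𝕜 (XX xh), inferInstance, inferInstance, ?_, fun hf => ?_, fun M hM hs =>
    h.no_sep_quotient_rc hω (XX xh).subtypeₗᵢ (fun δ => ⟨⟨xh δ, hmem δ⟩, rfl⟩) h.dual_onto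
      (fun z hz => ?_) j (fun a b => ?_) (fun c a => ?_) (fun a => ?_) (fun η => ?_) M hM hs⟩
  · have hcl : IsClosed (XX xh : Set (StrongDual ℝ Z)) := Submodule.isClosed_topologicalClosure _
    have : IsClosed (XK 𝕜 (XX xh) : Set (Z →L[ℝ] 𝕜)) :=
      (hcl.preimage (continuous_const.clm_comp continuous_id)).inter
        (hcl.preimage (continuous_const.clm_comp continuous_id))
    exact this.completeSpace_coe
  · have hl : LinearIndependent 𝕜 fun δ => j ⟨xh δ, hmem δ⟩ := by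
      refine LinearIndependent.of_comp (XK 𝕜 (XX xh)).subtype (linearIndependent_iff'.2 ?_)
      intro s c hc i hi
      have hz : ∀ z, ∑ δ ∈ s, c δ * (xh δ z : 𝕜) = 0 := by
        intro z
        have := congrArg (fun η : Z →L[ℝ] 𝕜 => η z) hc
        simpa [j] using this
      have h1 := linearIndependent_iff'.1 h.linearIndependent s (fun δ => RCLike.re (c δ)) (by
        ext z
        simpa using congrArg RCLike.re (hz z)) i hi
      have h2 := linearIndependent_iff'.1 h.linearIndependent s (fun δ => RCLike.im (c δ)) (by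
        ext z
        simpa using congrArg RCLike.im (hz z)) i hi
      exact RCLike.ext (by simpa using h1) (by simpa using h2)
    have := hl.finite
    exact not_finite Γ
  · have h1 := h.norming isLowerSet_univ (h.P_univ z) (c := 0) (fun ξ hξ => by
      rw [Set.image_univ] at hξ
      have := hz ⟨ξ, Submodule.le_topologicalClosure _ hξ⟩
      have h2 : ξ z = 0 := this
      rw [h2]; simp) le_rfl
    exact norm_le_zero_iff.1 (by simpa using h1)
  · ext z; simp [j]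
  · ext z; simp [j]
  · refine ContinuousLinearMap.opNorm_le_bound _ (norm_nonneg (a : StrongDual ℝ Z)) fun z => ?_
    simpa [j] using (a : StrongDual ℝ Z).le_opNorm z
  · refine ⟨⟨_, η.2.1⟩, ⟨_, η.2.2⟩, ?_, ?_, ?_⟩
    · refine ContinuousLinearMap.opNorm_le_bound _ (norm_nonneg (η : Z →L[ℝ] 𝕜)) fun z => ?_
      exact (RCLike.abs_re_le_norm _).trans ((η : Z →L[ℝ] 𝕜).le_opNorm z)
    · refine ContinuousLinearMap.opNorm_le_bound _ (norm_nonneg (η : Z →L[ℝ] 𝕜)) fun z => ?_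
      exact (RCLike.abs_im_le_norm _).trans ((η : Z →L[ℝ] 𝕜).le_opNorm z)
    · ext z
      simp only [j, Submodule.coe_add, Submodule.coe_smul, add_apply, smul_apply,
        ContinuousLinearMap.comp_apply, RCLike.ofRealCLM_apply, RCLike.reCLM_apply,
        RCLike.imCLM_apply, smul_eq_mul]
      rw [mul_comm, RCLike.re_add_im]

end Vale.Agent.P129
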