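import Vale.Agent.P129.Space

/-!
P129, file Dual: the dual of `XX xh` is `Z`.

Plan.  Fix `f`.  Say `z` solves `S` if `P S z = z` and `xh δ z = f (xh δ)` for `δ ∈ S`.  By
`Setup.norming` a solution for a lower set has norm `≤ 6 ‖f‖` and is unique; if `z` solves `S'` and
`S ⊆ S'` are lower sets then `P S z` solves `S` (`Setup.P_P`, `Setup.xh_P`).
`limit`: if every `Iic γ`, `γ ∈ S`, has a solution `z γ` then `S` has one.  For empty `S` take `0`.
Otherwise the net `γ ↦ z γ` on `S` is Cauchy: if not there are `ε > 0` and `γ 0 < γ 1 < ..` in `S`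
with `‖z (γ (i+1)) - z (γ i)‖ ≥ ε`; but `z (γ (i+1)) - z (γ i) = P (Ioc (γ i) (γ (i+1))) (z (γ n))`
for `i < n` (`Setup.P_union`), contradicting `Setup.low`.  The limit solves `S`.
Strong induction: from a solution `z` of `Iio γ`,
`z + (f (xh γ) - xh γ z) • e (single γ 1)` solves `Iic γ` (`x_self`, `x_gt`).  Finally `S = univ`,
and `f ξ = ξ z` extends from the span to its closure by continuity.
-/

namespace Vale.Agent.P129

variable {Γ : Type} [LinearOrder Γ] {N : (Γ →₀ ℝ) → ℝ} {x : Γ → Γ → ℝ}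
  {Z : Type} [NormedAddCommGroup Z] [NormedSpace ℝ Z] {e : (Γ →₀ ℝ) →ₗ[ℝ] Z}
  {P : Set Γ → Z →L[ℝ] Z} {xh : Γ → StrongDual ℝ Z}

open Filter Topology

/-- `z` represents `F` on the functionals indexed by `S`. -/
def DSol (P : Set Γ → Z →L[ℝ] Z) (xh : Γ → StrongDual ℝ Z) (F : StrongDual ℝ (StrongDual ℝ Z))
    (S : Set Γ) (z : Z) : Prop :=
  P S z = z ∧ ∀ δ ∈ S, xh δ z = F (xh δ)

variable {F : StrongDual ℝ (StrongDual ℝ Z)}

omit [LinearOrder Γ] in
theorem DSol.span {S : Set Γ} {z : Z} (hz : DSol P xh F S z) {ξ : StrongDual ℝ Z}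
    (hξ : ξ ∈ Submodule.span ℝ (xh '' S)) : ξ z = F ξ := by
  induction hξ using Submodule.span_induction with
  | mem ξ hξ =>
    obtain ⟨δ, hδ, rfl⟩ := hξ
    exact hz.2 δ hδ
  | zero => simp
  | add ξ ξ' _ _ h1 h2 => simp [h1, h2]
  | smul c ξ _ h1 => simp [h1]

theorem Setup.sol_norm (h : Setup N x e P xh) {S : Set Γ} (hS : IsLowerSet S) {z : Z}
    (hz : DSol P xh F S z) : ‖z‖ ≤ 6 * ‖F‖ := by
  refine h.norming hS hz.1 (fun ξ hξ => ?_) F.opNorm_nonneg
  rw [hz.span hξ, ← Real.norm_eq_abs]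
  exact F.le_opNorm ξ

theorem Setup.sol_unique (h : Setup N x e P xh) {S : Set Γ} (hS : IsLowerSet S) {z z' : Z}
    (hz : DSol P xh F S z) (hz' : DSol P xh F S z') : z = z' := by
  have := h.norming hS (z := z - z') (c := 0) (by rw [map_sub, hz.1, hz'.1])
    (fun ξ hξ => by rw [map_sub, hz.span hξ, hz'.span hξ]; simp) le_rfl
  rw [mul_zero] at this
  exact sub_eq_zero.1 (norm_le_zero_iff.1 this)

theorem Setup.sol_res (h : Setup N x e P xh) {S S' : Set Γ} (hS : IsLowerSet S) (hSS : S ⊆ S')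
    {z : Z} (hz : DSol P xh F S' z) : DSol P xh F S (P S z) := by
  refine ⟨?_, fun δ hδ => ?_⟩
  · rw [h.P_P hS.ordConnected hS.ordConnected, Set.inter_self]
  · rw [h.xh_P hS hδ, hz.2 δ (hSS hδ)]

theorem Setup.sol_cauchy (h : Setup N x e P xh) {S : Set Γ} [Nonempty S] {z : S → Z}
    (hz : ∀ γ : S, DSol P xh F (Set.Iic (γ : Γ)) (z γ)) : CauchySeq z := by
  rw [Metric.cauchySeq_iff']
  by_contra hc
  push Not at hc
  obtain ⟨ε, hε, hc⟩ := hc
  choose nxt hnxt hd using hc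
  obtain ⟨γ0⟩ := ‹Nonempty S›
  let γ : ℕ → S := fun i => nxt^[i] γ0
  have hγ : ∀ i, γ (i + 1) = nxt (γ i) := fun i => Function.iterate_succ_apply' nxt i γ0
  have hmono : Monotone γ := monotone_nat_of_le_succ fun i => by
    rw [hγ]
    exact hnxt _
  have hF : 0 < 6 * ‖F‖ + 1 := by positivity
  obtain ⟨n, hn, hl⟩ := h.low (ε / (6 * ‖F‖ + 1)) (by positivity)
  have h1 := hl (z (γ n)) (fun i => Set.Ioc (γ i : Γ) (γ (i + 1))) (fun _ => Set.ordConnected_Ioc)
    (fun i j hij a ha b hb => (ha.2.trans (hmono (Nat.succ_le_of_lt hij))).trans_lt hb.1)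
  have h2 : ∀ i ≤ n, P (Set.Iic (γ i : Γ)) (z (γ n)) = z (γ i) := fun i hi =>
    h.sol_unique (isLowerSet_Iic _)
      (h.sol_res (isLowerSet_Iic _) (Set.Iic_subset_Iic.2 (hmono hi)) (hz _)) (hz _)
  have h3 : ∀ i ∈ Finset.range n, ε ≤ ‖P (Set.Ioc (γ i : Γ) (γ (i + 1))) (z (γ n))‖ := by
    intro i hi
    have hi' := Finset.mem_range.1 hi
    have hle : (γ i : Γ) ≤ γ (i + 1) := hmono (Nat.le_succ i)
    have h4 := h.P_union (E := Set.Iic (γ i : Γ)) (F := Set.Ioc (γ i : Γ) (γ (i + 1)))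
      Set.ordConnected_Iic Set.ordConnected_Ioc
      (by rw [Set.Iic_union_Ioc_eq_Iic hle]; exact Set.ordConnected_Iic)
      (Set.disjoint_left.2 fun a ha hb => not_lt.2 ha hb.1) (z (γ n))
    rw [Set.Iic_union_Ioc_eq_Iic hle, h2 i hi'.le, h2 (i + 1) hi'] at h4
    have h5 := hd (γ i)
    rw [← hγ, dist_eq_norm, h4, add_sub_cancel_left] at h5
    exact h5
  have h4 := Finset.card_nsmul_le_sum _ _ _ h3
  rw [Finset.card_range, nsmul_eq_mul] at h4
  have h5 := h.sol_norm (isLowerSet_Iic _) (hz (γ n))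
  have hn' : (0 : ℝ) < n := Nat.cast_pos.2 hn
  have h6 : ε / (6 * ‖F‖ + 1) * n * ‖z (γ n)‖ < ε / (6 * ‖F‖ + 1) * n * (6 * ‖F‖ + 1) :=
    mul_lt_mul_of_pos_left (by linarith) (by positivity)
  have h7 : ε / (6 * ‖F‖ + 1) * n * (6 * ‖F‖ + 1) = n * ε := by field_simp
  linarith

theorem Setup.sol_limit [CompleteSpace Z] (h : Setup N x e P xh) {S : Set Γ} (hS : IsLowerSet S)
    (hz : ∀ γ ∈ S, ∃ z, DSol P xh F (Set.Iic γ) z) : ∃ z, DSol P xh F S z := by
  rcases S.eq_empty_or_nonempty with rfl | hne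
  · exact ⟨0, map_zero _, fun δ hδ => absurd hδ (Set.notMem_empty δ)⟩
  have := hne.to_subtype
  choose z hz using fun γ : S => hz γ γ.2
  obtain ⟨w, hw⟩ := cauchySeq_tendsto_of_complete (h.sol_cauchy hz)
  refine ⟨w, ?_, fun δ hδ => ?_⟩
  · have h1 : (P S) ∘ z = z := funext fun γ => by
      have h2 : S ∩ Set.Iic (γ : Γ) = Set.Iic (γ : Γ) :=
        Set.inter_eq_right.2 fun a ha => hS ha γ.2
      rw [Function.comp_apply, ← (hz γ).1, h.P_P hS.ordConnected Set.ordConnected_Iic, h2]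
    have h2 := ((P S).continuous.tendsto w).comp hw
    rw [h1] at h2
    exact tendsto_nhds_unique h2 hw
  · have h2 := ((xh δ).continuous.tendsto w).comp hw
    refine tendsto_nhds_unique h2 (tendsto_const_nhds.congr' ?_)
    filter_upwards [eventually_ge_atTop (⟨δ, hδ⟩ : S)] with γ hγ
    exact ((hz γ).2 δ hγ).symm

theorem Setup.sol_succ (h : Setup N x e P xh) {γ : Γ} {z : Z} (hz : DSol P xh F (Set.Iio γ) z) :
    ∃ z, DSol P xh F (Set.Iic γ) z := by
  refine ⟨z + (F (xh γ) - xh γ z) • e (Finsupp.single γ 1), ?_, fun δ hδ => ?_⟩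
  · have h1 : P (Set.Iic γ) z = z := by
      rw [← hz.1, h.P_P Set.ordConnected_Iic Set.ordConnected_Iio,
        Set.inter_eq_right.2 Set.Iio_subset_Iic_self]
    rw [map_add, map_smul, h1, h.P_e _ Set.ordConnected_Iic, res_eq_self]
    intro a ha
    exact (Finset.mem_singleton.1 (Finsupp.support_single_subset ha)).le
  · rw [map_add, map_smul, h.xh_e, dot_single, one_mul, smul_eq_mul]
    rcases eq_or_lt_of_le (Set.mem_Iic.1 hδ) with rfl | hlt
    · rw [h.frame.x_self]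
      ring
    · rw [h.frame.x_gt δ γ hlt, mul_zero, add_zero]
      exact hz.2 δ hlt

theorem Setup.dual_onto [WellFoundedLT Γ] [CompleteSpace Z] (h : Setup N x e P xh)
    (f : StrongDual ℝ (XX xh)) : ∃ z : Z, ∀ ξ : XX xh, f ξ = (ξ : StrongDual ℝ Z) z := by
  obtain ⟨F, hF, -⟩ := exists_extension_norm_eq (XX xh) f
  have h1 : ∀ γ, ∃ z, DSol P xh F (Set.Iic γ) z := fun γ => by
    induction γ using WellFoundedLT.induction with
    | ind γ ih =>
      obtain ⟨z, hz⟩ := h.sol_limit (isLowerSet_Iio γ) ih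
      exact h.sol_succ hz
  obtain ⟨z, hz⟩ := h.sol_limit isLowerSet_univ fun γ _ => h1 γ
  refine ⟨z, fun ξ => ?_⟩
  rw [← hF ξ]
  have h2 : (ξ : StrongDual ℝ Z) ∈ closure (Submodule.span ℝ (Set.range xh) : Set _) := ξ.2
  refine closure_minimal (t := {ξ : StrongDual ℝ Z | F ξ = ξ z}) (fun η hη => ?_)
    (isClosed_eq (by fun_prop) (by fun_prop)) h2
  rw [← Set.image_univ] at hη
  exact (hz.span hη).symm

end Vale.Agent.P129
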