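import Vale.Agent.P129.Space

/-!
P129, file Extract: no infinite-dimensional subspace of `Z` carries a null filtration.

Plan for `exists_level`.  Take a linearly independent sequence in `W`; `Setup.exists_P_Iio` and `hω`
give `γ` with `P (Iio γ) = id` on its span.  So the set of `lam` such that `P (Iio lam)` is bounded
below on an infinite-dimensional subspace of `W` is nonempty; take its least element.  For
`μ < lam` and `W'' ≤ W'` infinite-dimensional, intersect `W''` with the kernel of the functional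
of `Setup.P_single`; there `P (Iic μ) = P (Iio μ)` (`Setup.P_union`) is not bounded below.

Plan for `extract`.  Take `lam, W', c` from `exists_level` (`c ≤ 1` is not needed).  With
`ε t = c / 4 * 2⁻¹ ^ t` choose recursively `w t ∈ W'` of norm one, killed by `d n` for `n ≤ t`
(a finite-codimensional subspace of `W'` is infinite-dimensional), with `‖P (Iic μ) (w t)‖ ≤ ε t / 2` where
`μ < lam` bounds the supports of the `u' s`, `s < t` (nothing to do for `t = 0`), and `u t : Γ →₀ ℝ`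
vanishing on `Iic μ` with `‖e (u t) - w t‖ ≤ ε t`; `u' t = res (Iio lam) (u t)`, `N (u' t) ≥ c / 2`.
`V T = span {u' t | T ≤ t}` is `Blocks`.  For `y' = ∑ a t • u' t ∈ V T` and `y = ∑ a t • u t`:
`|a t| ≤ 2 N y' / c` (`res_le`), `‖∑ a t • w t‖ ≤ C N y'`, hence `|dot (x δ) y| ≤ ε N y'` for `T`
large, for every `δ`.  For `ζ < lam`, `dot (x ζ) y' = dot (x ζ) y` (`x_gt`), so `x ζ` is null along
`V`.  Apply `kill` with `β` above `lam` and all supports of the `u t` (`hω`): for the `δ` obtained again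
`dot (x δ) y' = dot (x δ) y`, so `x δ` is null, a contradiction.
-/

namespace Vale.Agent.P129

variable {Γ : Type} [LinearOrder Γ] {N : (Γ →₀ ℝ) → ℝ} {x : Γ → Γ → ℝ}
  {Z : Type} [NormedAddCommGroup Z] [NormedSpace ℝ Z] {e : (Γ →₀ ℝ) →ₗ[ℝ] Z}
  {P : Set Γ → Z →L[ℝ] Z} {xh : Γ → StrongDual ℝ Z}

open Finset

theorem not_fd_inf_ker {U : Type} [AddCommGroup U] [Module ℝ U] [FiniteDimensional ℝ U]
    {W : Submodule ℝ Z} (hW : ¬ FiniteDimensional ℝ W) (T : Z →ₗ[ℝ] U) :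
    ¬ FiniteDimensional ℝ (W ⊓ LinearMap.ker T : Submodule ℝ Z) := fun h =>
  hW ((Submodule.fg_iff_finiteDimensional W).1 (Submodule.fg_of_fg_map_of_fg_inf_ker T
    (IsNoetherian.noetherian _) ((Submodule.fg_iff_finiteDimensional _).2 h)))

theorem Setup.nonempty_of_not_fd (h : Setup N x e P xh) {W : Submodule ℝ Z}
    (hW : ¬ FiniteDimensional ℝ W) : Nonempty Γ := by
  by_contra hne
  rw [not_nonempty_iff] at hne
  have : Subsingleton Z := ⟨fun a b => by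
    rw [← h.P_univ a, ← h.P_univ b, Set.univ_eq_empty_iff.2 hne, h.P_empty, h.P_empty]⟩
  exact hW inferInstance

theorem Setup.exists_fixed (h : Setup N x e P xh)
    (hω : ∀ f : ℕ → Γ, ∃ β, ∀ n, f n < β) (W : Submodule ℝ Z) (hW : ¬ FiniteDimensional ℝ W) :
    ∃ (γ : Γ) (W' : Submodule ℝ Z), W' ≤ W ∧ ¬ FiniteDimensional ℝ W' ∧
      ∀ z ∈ W', P (Set.Iio γ) z = z := by
  have := h.nonempty_of_not_fd hW
  let b := Module.Basis.ofVectorSpace ℝ W
  have : Infinite (Module.Basis.ofVectorSpaceIndex ℝ W) := by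
    by_contra hi
    rw [not_infinite_iff_finite] at hi
    exact hW (Module.Finite.of_basis b)
  let em := Infinite.natEmbedding (Module.Basis.ofVectorSpaceIndex ℝ W)
  have hl : LinearIndependent ℝ fun n => ((b (em n) : W) : Z) :=
    (b.linearIndependent.comp em em.injective).map' W.subtype W.ker_subtype
  choose β hβ using fun n => h.exists_P_Iio hω ((b (em n) : W) : Z)
  obtain ⟨γ, hγ⟩ := hω β
  let W' : Submodule ℝ Z := W ⊓ LinearMap.ker ((P (Set.Iio γ) : Z →ₗ[ℝ] Z) - LinearMap.id)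
  have hm : ∀ z, z ∈ W' ↔ z ∈ W ∧ P (Set.Iio γ) z = z := fun z => by
    simp [W', sub_eq_zero]
  refine ⟨γ, W', inf_le_left, fun hf => ?_, fun z hz => ((hm z).1 hz).2⟩
  have hl' : LinearIndependent ℝ fun n =>
      (⟨((b (em n) : W) : Z), (hm _).2 ⟨(b (em n)).2, hβ n γ (hγ n).le⟩⟩ : W') :=
    LinearIndependent.of_comp W'.subtype hl
  have := hl'.finite
  exact not_finite ℕ

theorem Setup.exists_level [WellFoundedLT Γ] (h : Setup N x e P xh)
    (hω : ∀ f : ℕ → Γ, ∃ β, ∀ n, f n < β) (W : Submodule ℝ Z) (hW : ¬ FiniteDimensional ℝ W) :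
    ∃ (lam : Γ) (W' : Submodule ℝ Z) (c : ℝ), W' ≤ W ∧ ¬ FiniteDimensional ℝ W' ∧ 0 < c ∧
      (∀ z ∈ W', c * ‖z‖ ≤ ‖P (Set.Iio lam) z‖) ∧
      ∀ μ < lam, ∀ W'' ≤ W', ¬ FiniteDimensional ℝ W'' → ∀ ε > 0,
        ∃ z ∈ W'', ‖z‖ = 1 ∧ ‖P (Set.Iic μ) z‖ ≤ ε := by
  let A : Set Γ := {lam | ∃ (W' : Submodule ℝ Z) (c : ℝ), W' ≤ W ∧ ¬ FiniteDimensional ℝ W' ∧
    0 < c ∧ ∀ z ∈ W', c * ‖z‖ ≤ ‖P (Set.Iio lam) z‖}
  have hA : A.Nonempty := by
    obtain ⟨γ, W', h1, h2, h3⟩ := h.exists_fixed hω W hW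
    exact ⟨γ, W', 1, h1, h2, one_pos, fun z hz => by rw [one_mul, h3 z hz]⟩
  obtain ⟨lam, ⟨W', c, h1, h2, h3, h4⟩, hmin⟩ := (wellFounded_lt (α := Γ)).has_min A hA
  refine ⟨lam, W', c, h1, h2, h3, h4, fun μ hμ W'' hW'' hfd ε hε => ?_⟩
  obtain ⟨f, hf⟩ := h.P_single μ
  have h5 := not_fd_inf_ker hfd (f : Z →ₗ[ℝ] ℝ)
  have h6 : ¬ ∀ z ∈ W'' ⊓ LinearMap.ker (f : Z →ₗ[ℝ] ℝ), ε * ‖z‖ ≤ ‖P (Set.Iio μ) z‖ :=
    fun h6 => hmin μ ⟨_, ε, inf_le_left.trans (hW''.trans h1), h5, hε, h6⟩ hμ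
  push Not at h6
  obtain ⟨z, ⟨hz1, hz2⟩, hz⟩ := h6
  have hz0 : 0 < ‖z‖ := by
    by_contra h0
    have : ε * ‖z‖ ≤ 0 := mul_nonpos_of_nonneg_of_nonpos hε.le (not_lt.1 h0)
    linarith [norm_nonneg (P (Set.Iio μ) z)]
  have h7 : P (Set.Iic μ) z = P (Set.Iio μ) z := by
    have h8 := h.P_union (E := Set.Iio μ) (F := {μ}) Set.ordConnected_Iio
      Set.ordConnected_singleton (by rw [Set.Iio_union_right]; exact Set.ordConnected_Iic)
      (by simp) z
    have h9 : f z = 0 := hz2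
    rw [Set.Iio_union_right, hf, h9, zero_smul, add_zero] at h8
    exact h8
  refine ⟨‖z‖⁻¹ • z, W''.smul_mem _ hz1, ?_, ?_⟩
  · rw [norm_smul, norm_inv, norm_norm, inv_mul_cancel₀ hz0.ne']
  · rw [map_smul, norm_smul, norm_inv, norm_norm, h7, inv_mul_le_iff₀ hz0, mul_comm]
    exact hz.le

/-- One step of the gliding hump. -/
theorem Setup.hump_step (h : Setup N x e P xh) {lam : Γ} {W' : Submodule ℝ Z}
    (hW' : ¬ FiniteDimensional ℝ W')
    (hl : ∀ μ < lam, ∀ W'' ≤ W', ¬ FiniteDimensional ℝ W'' → ∀ ε > 0,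
      ∃ z ∈ W'', ‖z‖ = 1 ∧ ‖P (Set.Iic μ) z‖ ≤ ε)
    (d : ℕ → StrongDual ℝ Z) (t : ℕ) (A : Finset Γ) {ε : ℝ} (hε : 0 < ε) :
    ∃ (w : Z) (u : Γ →₀ ℝ), w ∈ W' ∧ ‖w‖ = 1 ∧ (∀ n ≤ t, d n w = 0) ∧ ‖e u - w‖ ≤ ε ∧
      ∀ a ∈ A, a < lam → ∀ b ∈ u.support, a < b := by
  let T : Z →ₗ[ℝ] (Fin (t + 1) → ℝ) := LinearMap.pi fun i => (d i : Z →ₗ[ℝ] ℝ)
  have h1 := not_fd_inf_ker hW' T
  have h2 : ∀ w ∈ W' ⊓ LinearMap.ker T, ∀ n ≤ t, d n w = 0 := fun w hw n hn =>
    congrFun (LinearMap.mem_ker.1 hw.2) ⟨n, Nat.lt_succ_of_le hn⟩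
  rcases (A.filter (· < lam)).eq_empty_or_nonempty with hA | hA
  · have hne : W' ⊓ LinearMap.ker T ≠ ⊥ := fun h0 => h1 (by rw [h0]; infer_instance)
    obtain ⟨z, hz, hz0⟩ := Submodule.exists_mem_ne_zero_of_ne_bot hne
    have hz1 : ‖z‖⁻¹ • z ∈ W' ⊓ LinearMap.ker T := Submodule.smul_mem _ _ hz
    obtain ⟨y, -, hy⟩ := h.exists_approx Set.ordConnected_univ (h.P_univ (‖z‖⁻¹ • z)) hε
    refine ⟨‖z‖⁻¹ • z, y, hz1.1, ?_, h2 _ hz1, hy, fun a ha hal => ?_⟩
    · rw [norm_smul, norm_inv, norm_norm, inv_mul_cancel₀ (norm_ne_zero_iff.2 hz0)]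
    · have : a ∈ A.filter (· < lam) := mem_filter.2 ⟨ha, hal⟩
      rw [hA] at this
      exact absurd this (notMem_empty a)
  · set μ := (A.filter (· < lam)).max' hA with hμ
    have hμl : μ < lam := (mem_filter.1 ((A.filter (· < lam)).max'_mem hA)).2
    obtain ⟨w, hw, hw1, hw2⟩ := hl μ hμl _ inf_le_left h1 (ε / 2) (half_pos hε)
    obtain ⟨y, hy1, hy2⟩ := h.exists_approx (E := Set.Ioi μ) (z := P (Set.Ioi μ) w)
      Set.ordConnected_Ioi
      (by rw [h.P_P Set.ordConnected_Ioi Set.ordConnected_Ioi, Set.inter_self]) (half_pos hε)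
    have h3 := h.P_union (E := Set.Iic μ) (F := Set.Ioi μ) Set.ordConnected_Iic
      Set.ordConnected_Ioi (by rw [Set.Iic_union_Ioi]; exact Set.ordConnected_univ)
      (Set.Iic_disjoint_Ioi le_rfl) w
    rw [Set.Iic_union_Ioi, h.P_univ] at h3
    refine ⟨w, y, hw.1, hw1, h2 w hw, ?_, fun a ha hal b hb => ?_⟩
    · have h4 : e y - w = (e y - P (Set.Ioi μ) w) - P (Set.Iic μ) w := by
        rw [sub_sub, add_comm, ← h3]
      rw [h4]
      linarith [norm_sub_le (e y - P (Set.Ioi μ) w) (P (Set.Iic μ) w)]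
    · exact (le_max' (A.filter (· < lam)) a (mem_filter.2 ⟨ha, hal⟩)).trans_lt (hy1 b hb)

/-- The gliding hump sequences. -/
theorem Setup.hump_seq (h : Setup N x e P xh) {lam : Γ} {W' : Submodule ℝ Z}
    (hW' : ¬ FiniteDimensional ℝ W')
    (hl : ∀ μ < lam, ∀ W'' ≤ W', ¬ FiniteDimensional ℝ W'' → ∀ ε > 0,
      ∃ z ∈ W'', ‖z‖ = 1 ∧ ‖P (Set.Iic μ) z‖ ≤ ε)
    (d : ℕ → StrongDual ℝ Z) {ε : ℕ → ℝ} (hε : ∀ t, 0 < ε t) :
    ∃ (w : ℕ → Z) (u : ℕ → Γ →₀ ℝ), (∀ t, w t ∈ W') ∧ (∀ t, ‖w t‖ = 1) ∧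
      (∀ t, ∀ n ≤ t, d n (w t) = 0) ∧ (∀ t, ‖e (u t) - w t‖ ≤ ε t) ∧
      ∀ s t, s < t → ∀ a ∈ (u s).support, a < lam → ∀ b ∈ (u t).support, a < b := by
  choose w u h1 h2 h3 h4 h5 using fun t A => h.hump_step hW' hl d t A (hε t)
  let A : ℕ → Finset Γ := fun t => Nat.rec ∅ (fun t B => B ∪ (u t B).support) t
  have hA : ∀ t, A (t + 1) = A t ∪ (u t (A t)).support := fun _ => rfl
  have hmono : Monotone A := monotone_nat_of_le_succ fun t => by
    rw [hA]
    exact subset_union_left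
  refine ⟨fun t => w t (A t), fun t => u t (A t), fun t => h1 t _, fun t => h2 t _,
    fun t => h3 t _, fun t => h4 t _, fun s t hst a ha => h5 t (A t) a ?_⟩
  refine hmono (Nat.succ_le_of_lt hst) ?_
  rw [Nat.succ_eq_add_one, hA]
  exact mem_union_right _ ha

omit [LinearOrder Γ] in
theorem mem_support_lc {u : ℕ → Γ →₀ ℝ} {l : ℕ →₀ ℝ} {a : Γ}
    (ha : a ∈ (Finsupp.linearCombination ℝ u l).support) :
    ∃ t ∈ l.support, a ∈ (u t).support := by
  by_contra hc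
  push Not at hc
  refine Finsupp.mem_support_iff.1 ha ?_
  rw [Finsupp.linearCombination_apply, Finsupp.sum, Finsupp.finsetSum_apply]
  refine sum_eq_zero fun t ht => ?_
  rw [Finsupp.smul_apply, Finsupp.notMem_support_iff.1 (hc t ht), smul_zero]

theorem blocks_of_succ {u : ℕ → Γ →₀ ℝ} (hu : Succ u) (h0 : ∀ t, u t ≠ 0) :
    Blocks fun T => (Finsupp.supported ℝ ℝ (Set.Ici T)).map (Finsupp.linearCombination ℝ u) where
  anti := fun _ _ hT => Submodule.map_mono (Finsupp.supported_mono (Set.Ici_subset_Ici.2 hT))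
  ne := fun T => ⟨u T, ⟨Finsupp.single T 1, Finsupp.single_mem_supported ℝ 1 (Set.mem_Ici.2 le_rfl),
    by simp⟩, h0 T⟩
  after := by
    rintro T y ⟨l, -, rfl⟩
    refine ⟨l.support.sup id + 1, ?_⟩
    rintro y' ⟨l', hl', rfl⟩ a ha b hb
    obtain ⟨t, ht, ha⟩ := mem_support_lc ha
    obtain ⟨t', ht', hb⟩ := mem_support_lc hb
    have h1 : t ≤ l.support.sup id := le_sup (f := id) ht
    have h2 : l.support.sup id + 1 ≤ t' := (Finsupp.mem_supported ℝ l').1 hl' ht'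
    exact hu t t' (by omega) a ha b hb

theorem sum_half_pow_le {s : Finset ℕ} {T : ℕ} (hs : ∀ t ∈ s, T ≤ t) :
    ∑ t ∈ s, (1 / 2 : ℝ) ^ t ≤ 2 * (1 / 2) ^ T := by
  have h1 : s ⊆ Ico T (s.sup id + 1) := fun t ht =>
    mem_Ico.2 ⟨hs t ht, Nat.lt_succ_of_le (le_sup (f := id) ht)⟩
  refine (sum_le_sum_of_subset_of_nonneg h1 fun _ _ _ => by positivity).trans ?_
  refine (geom_sum_Ico_le_of_lt_one (by norm_num) (by norm_num)).trans (le_of_eq ?_)
  ring

theorem Frame.coeff_le (h : Frame N x) {u : ℕ → Γ →₀ ℝ} (hu : Succ u) {c : ℝ}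
    (hc : ∀ t, c ≤ N (u t)) (l : ℕ →₀ ℝ) (t : ℕ) :
    |l t| * c ≤ N (Finsupp.linearCombination ℝ u l) := by
  obtain ⟨E, hE, -, hE1, hE2⟩ := hu.exists_intervals
  have h1 : res (E t) (Finsupp.linearCombination ℝ u l) = l t • u t := by
    rw [Finsupp.linearCombination_apply, Finsupp.sum, res_sum, sum_eq_single t]
    · rw [res_smul, hE1]
    · intro s _ hs
      rw [res_smul, hE2 t s (Ne.symm hs), smul_zero]
    · intro ht
      rw [Finsupp.notMem_support_iff.1 ht, zero_smul, res_zero]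
  have h2 := h.res_le (E t) (Finsupp.linearCombination ℝ u l) (hE t)
  rw [h1, h.smul] at h2
  exact (mul_le_mul_of_nonneg_left (hc t) (abs_nonneg _)).trans h2

theorem Setup.extract' [WellFoundedLT Γ] (h : Setup N x e P xh)
    (hω : ∀ f : ℕ → Γ, ∃ β, ∀ n, f n < β) (W : Submodule ℝ Z) (hW : ¬ FiniteDimensional ℝ W)
    (d : ℕ → StrongDual ℝ Z)
    (hd : ∀ δ, ∀ ε > 0, ∃ n, ∀ z ∈ W, (∀ i ≤ n, d i z = 0) → |xh δ z| ≤ ε * ‖z‖) : False := by
  have := h.nonempty_of_not_fd hW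
  obtain ⟨lam, W', c, hWW, hW', hc, hlow, hl⟩ := h.exists_level hω W hW
  obtain ⟨w, u, hw1, hw2, hw3, hwu, hu⟩ := h.hump_seq hW' hl d
    (ε := fun t => c / 4 * (1 / 2) ^ t) fun t => by positivity
  let u' : ℕ → Γ →₀ ℝ := fun t => res (Set.Iio lam) (u t)
  have hsucc : Succ u' := fun s t hst a ha b hb =>
    hu s t hst a (mem_support_res.1 ha).2 (mem_support_res.1 ha).1 b (mem_support_res.1 hb).2
  have hP : ∀ y z, ‖P (Set.Iio lam) z‖ ≤ N (res (Set.Iio lam) y) + ‖e y - z‖ := fun y z => by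
    have h1 : P (Set.Iio lam) z = e (res (Set.Iio lam) y) - P (Set.Iio lam) (e y - z) := by
      rw [map_sub, h.P_e _ Set.ordConnected_Iio, sub_sub_cancel]
    rw [h1, ← h.norm_e]
    linarith [norm_sub_le (e (res (Set.Iio lam) y)) (P (Set.Iio lam) (e y - z)),
      h.norm_P_le (Set.ordConnected_Iio (a := lam)) (e y - z)]
  have hN : ∀ t, c / 2 ≤ N (u' t) := fun t => by
    have h1 := hlow _ (hw1 t)
    have h2 := hP (u t) (w t)
    have h3 := hwu t
    have h4 : (1 / 2 : ℝ) ^ t ≤ 1 := pow_le_one₀ (by norm_num) (by norm_num)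
    have h5 : c / 4 * (1 / 2 : ℝ) ^ t ≤ c / 4 * 1 := mul_le_mul_of_nonneg_left h4 (by positivity)
    rw [hw2, mul_one] at h1
    change c / 2 ≤ N (res (Set.Iio lam) (u t))
    linarith
  have hne : ∀ t, u' t ≠ 0 := fun t h0 => by
    have := hN t
    rw [h0, h.frame.zero] at this
    linarith
  have hres : ∀ l : ℕ →₀ ℝ, res (Set.Iio lam) (Finsupp.linearCombination ℝ u l) =
      Finsupp.linearCombination ℝ u' l := fun l => by
    rw [Finsupp.linearCombination_apply, Finsupp.linearCombination_apply, Finsupp.sum,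
      Finsupp.sum, res_sum]
    exact sum_congr rfl fun t _ => res_smul _ _ _
  have hnull : ∀ δ, (∀ t, ∀ a ∈ (u t).support, lam ≤ a → x δ a = 0) →
      Null N (fun T => (Finsupp.supported ℝ ℝ (Set.Ici T)).map (Finsupp.linearCombination ℝ u'))
        (x δ) := by
    intro δ hδ ε hε
    obtain ⟨n, hn⟩ := hd δ (ε * c / 4) (by positivity)
    obtain ⟨T₀, hT₀⟩ := exists_pow_lt_of_lt_one (x := ε / 6) (y := (1 / 2 : ℝ)) (by positivity)
      (by norm_num)
    refine ⟨max n T₀, ?_⟩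
    rintro y' ⟨l, hlT, rfl⟩
    have hlT' : ∀ t ∈ l.support, max n T₀ ≤ t := fun t ht => (Finsupp.mem_supported ℝ l).1 hlT ht
    set y' := Finsupp.linearCombination ℝ u' l with hy'
    set y := Finsupp.linearCombination ℝ u l with hy
    set z := Finsupp.linearCombination ℝ w l with hz
    have hy0 := h.frame.nonneg y'
    have hzW : z ∈ W' := by
      rw [hz, Finsupp.linearCombination_apply]
      exact Submodule.sum_mem _ fun t _ => W'.smul_mem _ (hw1 t)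
    have hdz : ∀ i ≤ n, d i z = 0 := by
      intro i hi
      rw [hz, Finsupp.linearCombination_apply, Finsupp.sum, map_sum]
      refine sum_eq_zero fun t ht => ?_
      rw [map_smul, hw3 t i (hi.trans ((le_max_left _ _).trans (hlT' t ht))), smul_zero]
    have hyz : ‖e y - z‖ ≤ (1 / 2) ^ max n T₀ * N y' := by
      have h1 : e y - z = ∑ t ∈ l.support, l t • (e (u t) - w t) := by
        rw [hy, hz, Finsupp.linearCombination_apply, Finsupp.linearCombination_apply,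
          Finsupp.sum, Finsupp.sum, map_sum, ← sum_sub_distrib]
        exact sum_congr rfl fun t _ => by rw [map_smul, smul_sub]
      have h2 : ∀ t ∈ l.support, ‖l t • (e (u t) - w t)‖ ≤ N y' / 2 * (1 / 2) ^ t := by
        intro t _
        have h3 := h.frame.coeff_le hsucc hN l t
        rw [norm_smul, Real.norm_eq_abs]
        calc |l t| * ‖e (u t) - w t‖ ≤ |l t| * (c / 4 * (1 / 2) ^ t) :=
              mul_le_mul_of_nonneg_left (hwu t) (abs_nonneg _)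
          _ = |l t| * (c / 2) / 2 * (1 / 2) ^ t := by ring
          _ ≤ N y' / 2 * (1 / 2) ^ t := by gcongr
      rw [h1]
      refine (norm_sum_le _ _).trans ((sum_le_sum h2).trans ?_)
      rw [← mul_sum]
      refine (mul_le_mul_of_nonneg_left (sum_half_pow_le hlT') (by positivity)).trans
        (le_of_eq (by ring))
    have hp1 : (1 / 2 : ℝ) ^ max n T₀ ≤ 1 := pow_le_one₀ (by norm_num) (by norm_num)
    have hp2 : (1 / 2 : ℝ) ^ max n T₀ ≤ ε / 6 :=
      (pow_le_pow_of_le_one (by norm_num) (by norm_num) (le_max_right _ _)).trans hT₀.le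
    have hz1 : c * ‖z‖ ≤ 2 * N y' := by
      have h1 := hlow z hzW
      have h2 := hP y z
      rw [hy, hres, ← hy', ← hy] at h2
      have h3 : (1 / 2 : ℝ) ^ max n T₀ * N y' ≤ 1 * N y' := mul_le_mul_of_nonneg_right hp1 hy0
      linarith
    have hdot : dot (x δ) y' = xh δ (e y) := by
      rw [h.xh_e, hy', ← hres, dot_res]
      refine dot_congr fun a ha => ?_
      obtain ⟨t, -, ha⟩ := mem_support_lc ha
      by_cases hal : a < lam
      · exact Set.indicator_of_mem (s := Set.Iio lam) hal _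
      · rw [Set.indicator_of_notMem (s := Set.Iio lam) hal, hδ t a ha (not_lt.1 hal)]
    have h1 := hn z (hWW hzW) hdz
    have h2 := h.abs_xh_le δ (e y - z)
    have h3 : xh δ (e y) = xh δ z + xh δ (e y - z) := by rw [map_sub]; ring
    have h4 : (1 / 2 : ℝ) ^ max n T₀ * N y' ≤ ε / 6 * N y' := mul_le_mul_of_nonneg_right hp2 hy0
    have h5 : ε / 4 * (c * ‖z‖) ≤ ε / 4 * (2 * N y') :=
      mul_le_mul_of_nonneg_left hz1 (by positivity)
    rw [hdot, h3]
    linarith [abs_add_le (xh δ z) (xh δ (e y - z))]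
  obtain ⟨β, hβ⟩ := exists_bound_finsets hω fun t => (u t).support
  obtain ⟨δ, hβδ, hδ, hnn⟩ := h.frame.kill _ lam β (blocks_of_succ hsucc hne)
    (by
      rintro T y ⟨l, -, rfl⟩ a ha
      obtain ⟨t, -, ha⟩ := mem_support_lc ha
      exact (mem_support_res.1 ha).1)
    fun ζ hζ => hnull ζ fun t a _ hla => h.frame.x_gt ζ a (hζ.trans_le hla)
  exact hnn (hnull δ fun t a ha hla => hδ a hla ((hβ t a ha).trans_le hβδ).ne)

theorem Setup.extract [WellFoundedLT Γ] (h : Setup N x e P xh)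
    (hω : ∀ f : ℕ → Γ, ∃ β, ∀ n, f n < β) (W : Submodule ℝ Z) (hW : ¬ FiniteDimensional ℝ W)
    (d : ℕ → StrongDual ℝ Z)
    (hd : ∀ δ, ∀ ε > 0, ∃ n, ∀ z ∈ W, d n z = 0 → |xh δ z| ≤ ε * ‖z‖) : False :=
  h.extract' hω W hW d fun δ ε hε => by
    obtain ⟨n, hn⟩ := hd δ ε hε
    exact ⟨n, fun z hz h0 => hn z hz (h0 n le_rfl)⟩

end Vale.Agent.P129
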