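import Mathlib

/-!
P129, file Signs: choice of signs and a greedy covering.
-/

namespace Vale.Agent.P129

open Finset

theorem sum_exp_signs (K : ℕ) (t : Fin K → ℝ) :
    ∑ ε : Fin K → Bool, Real.exp (∑ k, (if ε k then 1 else -1) * t k) =
      ∏ k, (2 * Real.cosh (t k)) := by
  have e : ∀ k, 2 * Real.cosh (t k) = ∑ b : Bool, Real.exp ((if b then 1 else -1) * t k) := by
    intro k
    rw [Real.cosh_eq, Fintype.sum_bool]
    simp
    ring
  simp only [e, Real.exp_sum]
  rw [Finset.prod_univ_sum, Fintype.piFinset_univ]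

theorem sum_exp_signs_le (K : ℕ) (τ : ℝ) (d : Fin K → ℝ) (hd : ∀ k, |d k| ≤ 1) :
    ∑ ε : Fin K → Bool, Real.exp (τ * ∑ k, (if ε k then 1 else -1) * d k) ≤
      2 ^ K * Real.exp (τ ^ 2 * K / 2) := by
  have e : ∀ ε : Fin K → Bool, τ * ∑ k, (if ε k then 1 else -1) * d k =
      ∑ k, (if ε k then 1 else -1) * (τ * d k) := by
    intro ε
    rw [Finset.mul_sum]
    exact Finset.sum_congr rfl fun k _ => by ring
  simp only [e]
  rw [sum_exp_signs]
  calc ∏ k, (2 * Real.cosh (τ * d k)) ≤ ∏ _k : Fin K, (2 * Real.exp (τ ^ 2 / 2)) := by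
        apply Finset.prod_le_prod
        · intro k _
          have := Real.cosh_pos (τ * d k)
          positivity
        · intro k _
          have h1 := Real.cosh_le_exp_half_sq (τ * d k)
          have h2 : (τ * d k) ^ 2 / 2 ≤ τ ^ 2 / 2 := by
            have h3 : d k ^ 2 ≤ 1 := by
              rw [← sq_abs]
              exact pow_le_one₀ (abs_nonneg _) (hd k)
            have : (τ * d k) ^ 2 = τ ^ 2 * d k ^ 2 := by ring
            nlinarith [sq_nonneg τ]
          have := h1.trans (Real.exp_le_exp.2 h2)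
          linarith
    _ = 2 ^ K * Real.exp (τ ^ 2 * K / 2) := by
        rw [Finset.prod_const, Finset.card_univ, Fintype.card_fin, mul_pow, ← Real.exp_nat_mul]
        congr 2
        ring

theorem exists_signs (K : ℕ) (τ : ℝ) (hτ : 0 < τ) (Q : Finset (ℕ → ℝ))
    (h1 : ∀ d ∈ Q, ∀ k < K, |d k| ≤ 1)
    (hc : 2 * (Q.card : ℝ) < Real.exp (τ ^ 2 * K / 2)) :
    ∃ ε : ℕ → ℝ, (∀ k, ε k = 1 ∨ ε k = -1) ∧
      ∀ d ∈ Q, |∑ k ∈ range K, ε k * d k| ≤ τ * K := by
  classical
  let S : (Fin K → Bool) → (ℕ → ℝ) → ℝ := fun ε d => ∑ k : Fin K, (if ε k then 1 else -1) * d k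
  suffices hs : ∃ ε : Fin K → Bool, ∀ d ∈ Q, |S ε d| ≤ τ * K by
    obtain ⟨ε, hε⟩ := hs
    refine ⟨fun k => if hk : k < K then (if ε ⟨k, hk⟩ then 1 else -1) else 1, fun k => ?_,
      fun d hd => ?_⟩
    · dsimp only
      split_ifs <;> simp
    · refine le_trans (le_of_eq ?_) (hε d hd)
      congr 1
      rw [Finset.sum_range]
      exact Finset.sum_congr rfl fun k _ => by simp only [dif_pos k.2]
  by_contra hne
  push Not at hne
  have hlow : ∀ ε : Fin K → Bool, Real.exp (τ ^ 2 * K) ≤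
      ∑ d ∈ Q, (Real.exp (τ * S ε d) + Real.exp (τ * S ε (-d))) := by
    intro ε
    obtain ⟨d, hd, h⟩ := hne ε
    refine le_trans ?_ (Finset.single_le_sum (f := fun d =>
      Real.exp (τ * S ε d) + Real.exp (τ * S ε (-d))) (fun d _ => by positivity) hd)
    have e : S ε (-d) = -S ε d := by
      simp only [S, Pi.neg_apply, mul_neg, Finset.sum_neg_distrib]
    rw [e]
    have p1 := Real.exp_pos (τ * S ε d)
    have p2 := Real.exp_pos (τ * -S ε d)
    rcases lt_abs.1 h with h2 | h2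
    · have : Real.exp (τ ^ 2 * K) ≤ Real.exp (τ * S ε d) := Real.exp_le_exp.2 (by nlinarith)
      linarith
    · have : Real.exp (τ ^ 2 * K) ≤ Real.exp (τ * -S ε d) := Real.exp_le_exp.2 (by nlinarith)
      linarith
  have h2 := Finset.sum_le_sum fun ε (_ : ε ∈ (Finset.univ : Finset (Fin K → Bool))) => hlow ε
  rw [Finset.sum_comm, Finset.sum_const, Finset.card_univ, Fintype.card_fun, Fintype.card_bool,
    Fintype.card_fin, nsmul_eq_mul] at h2
  have h3 : ∑ d ∈ Q, ∑ ε : Fin K → Bool, (Real.exp (τ * S ε d) + Real.exp (τ * S ε (-d))) ≤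
      Q.card • (2 * (2 ^ K * Real.exp (τ ^ 2 * K / 2))) := by
    apply Finset.sum_le_card_nsmul
    intro d hd
    rw [Finset.sum_add_distrib]
    have a1 := sum_exp_signs_le K τ (fun k => d k) (fun k => h1 d hd k k.2)
    have a2 := sum_exp_signs_le K τ (fun k => (-d) k) (fun k => by
      simpa using h1 d hd k k.2)
    simp only [S]
    linarith
  rw [nsmul_eq_mul] at h3
  have h4 : Real.exp (τ ^ 2 * K) = Real.exp (τ ^ 2 * K / 2) * Real.exp (τ ^ 2 * K / 2) := by
    rw [← Real.exp_add]; congr 1; ring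
  have p := Real.exp_pos (τ ^ 2 * K / 2)
  have p2 : (0 : ℝ) < 2 ^ K := by positivity
  have h5 := h2.trans h3
  push_cast at h5
  rw [h4] at h5
  have h6 : 2 ^ K * Real.exp (τ ^ 2 * K / 2) * (2 * Q.card) <
      2 ^ K * Real.exp (τ ^ 2 * K / 2) * Real.exp (τ ^ 2 * K / 2) :=
    mul_lt_mul_of_pos_left hc (mul_pos p2 p)
  nlinarith

theorem exists_greedy {α : Type} (sh : α → α → Prop) (hsymm : ∀ a b, sh a b → sh b a)
    (reach : α → ℕ) (B n : ℕ) (C : Set α) (hrefl : ∀ a ∈ C, sh a a)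
    (hB : ∀ a ∈ C, reach a ≤ B)
    (hn : ∀ F : Finset α, (∀ a ∈ F, a ∈ C) → (∀ a ∈ F, ∀ b ∈ F, a ≠ b → ¬ sh a b) →
      F.card ≤ n) :
    ∃ T : Finset α, T.card ≤ n ∧ (∀ a ∈ T, a ∈ C) ∧
      ∀ a ∈ C, ∃ b ∈ T, sh a b ∧ reach a ≤ reach b := by
  classical
  induction n generalizing C with
  | zero =>
    refine ⟨∅, le_rfl, by simp, fun a ha => ?_⟩
    have := hn {a} (by simpa using ha) (by simp)
    simp at this
  | succ n ih =>
    rcases C.eq_empty_or_nonempty with rfl | hC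
    · exact ⟨∅, by simp, by simp, by simp⟩
    have hfin : (reach '' C).Finite :=
      (Set.finite_Iic B).subset (by rintro _ ⟨a, ha, rfl⟩; exact hB a ha)
    obtain ⟨_, ⟨a₁, ha₁, rfl⟩, hmax⟩ := Set.exists_max_image _ id hfin (hC.image reach)
    obtain ⟨T, hT1, hT2, hT3⟩ := ih {a | a ∈ C ∧ ¬ sh a a₁} (fun a ha => hrefl a ha.1)
      (fun a ha => hB a ha.1) (by
        intro F hF hF'
        have hnot : a₁ ∉ F := fun h => (hF a₁ h).2 (hrefl a₁ ha₁)
        have := hn (insert a₁ F) (by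
          intro a ha
          rcases Finset.mem_insert.1 ha with rfl | ha
          · exact ha₁
          · exact (hF a ha).1) (by
          intro a ha b hb hab
          rcases Finset.mem_insert.1 ha with ha' | ha'
          · rcases Finset.mem_insert.1 hb with hb' | hb'
            · exact absurd (ha'.trans hb'.symm) hab
            · exact fun h => (hF b hb').2 (hsymm _ _ (ha' ▸ h))
          · rcases Finset.mem_insert.1 hb with hb' | hb'
            · exact hb' ▸ (hF a ha').2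
            · exact hF' a ha' b hb' hab)
        rw [Finset.card_insert_of_notMem hnot] at this
        omega)
    refine ⟨insert a₁ T, (Finset.card_insert_le _ _).trans (by omega), fun a ha => ?_,
      fun a ha => ?_⟩
    · rcases Finset.mem_insert.1 ha with rfl | ha
      · exact ha₁
      · exact (hT2 a ha).1
    · by_cases h : sh a a₁
      · exact ⟨a₁, Finset.mem_insert_self _ _, h, hmax _ ⟨a, ha, rfl⟩⟩
      · obtain ⟨b, hb, h'⟩ := hT3 a ⟨ha, h⟩
        exact ⟨b, Finset.mem_insert_of_mem hb, h'⟩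

/-- The numerical choice used for the sign lemma. -/
theorem exists_K (τ : ℝ) (hτ : 0 < τ) (n K₀ : ℕ) :
    ∃ K ≥ K₀, 2 * ((K : ℝ) * n * (K + 1)) < Real.exp (τ ^ 2 * K / 2) := by
  obtain ⟨K₁, hK₁⟩ := exists_nat_gt (192 * n / τ ^ 6)
  refine ⟨max (max K₀ K₁) 1, (le_max_left _ _).trans (le_max_left _ _), ?_⟩
  set K : ℕ := max (max K₀ K₁) 1 with hK
  have h1 : (1 : ℝ) ≤ K := by exact_mod_cast le_max_right _ _
  have h2 : (K₁ : ℝ) ≤ K := by exact_mod_cast (le_max_right _ _).trans (le_max_left _ _)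
  have hτ6 : 0 < τ ^ 6 := by positivity
  have h3 : 192 * n < τ ^ 6 * K := by
    have := hK₁.trans_le h2
    rwa [div_lt_iff₀' hτ6] at this
  have h4 := Real.pow_div_factorial_le_exp (τ ^ 2 * K / 2) (by positivity) 3
  have h5 : (τ ^ 2 * K / 2) ^ 3 / (Nat.factorial 3 : ℕ) = τ ^ 6 * K * K ^ 2 / 48 := by
    simp only [Nat.factorial]
    push_cast
    ring
  rw [h5] at h4
  have hn : (0 : ℝ) ≤ n := Nat.cast_nonneg _
  have h6 : 192 * n * (K : ℝ) ^ 2 < τ ^ 6 * K * K ^ 2 := mul_lt_mul_of_pos_right h3 (by positivity)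
  have h7 : (K : ℝ) * n * (K + 1) ≤ 2 * n * K ^ 2 := by
    nlinarith [mul_nonneg hn (by linarith : (0 : ℝ) ≤ K)]
  linarith

end Vale.Agent.P129
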