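import Vale.Agent.P129.Norm
import Vale.Agent.P129.Signs

/-!
P129, file Gowers: a choice of signs which makes the diagonal action of every special sequence
small.
-/

namespace Vale.Agent.P129

open Finset

variable {Γ : Type} [LinearOrder Γ] {R : Rho Γ}

/-- The part of a special sequence with weights in a window is a special functional. -/
theorem IsSp.exists_window {G : Set (Γ →₀ ℚ)} {q : ℕ} {w : ℕ → ℕ} {φ : ℕ → Γ →₀ ℚ}
    (h : IsSp R G q w φ) (J J' : ℕ) :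
    ∃ (A : Finset ℕ) (ψ : ℕ → Γ →₀ ℚ), IsSF R G A ψ ∧
      (∀ x ∈ A, ∃ i < q, w i = x ∧ J ≤ x ∧ x < J') ∧
      ∀ u, act (∑ x ∈ A, ψ x) u = Dg q w φ J J' u := by
  obtain ⟨ψ, h1, h2⟩ := h.exists_isSF 0
  have e : (((Ico 0 q).image w).filter (fun x => J ≤ x)).filter (fun x => x < J') =
      ((range q).filter (fun i => J ≤ w i ∧ w i < J')).image w := by
    ext x
    simp only [Finset.mem_filter, Finset.mem_image, Finset.mem_Ico, Finset.mem_range]
    constructor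
    · rintro ⟨⟨⟨i, ⟨-, hi⟩, rfl⟩, h3⟩, h4⟩
      exact ⟨i, ⟨hi, h3, h4⟩, rfl⟩
    · rintro ⟨i, ⟨hi, h3, h4⟩, rfl⟩
      exact ⟨⟨⟨i, ⟨Nat.zero_le _, hi⟩, rfl⟩, h3⟩, h4⟩
  refine ⟨_, ψ, (h1.filter_ge J).filter_lt J', ?_, fun u => ?_⟩
  · rw [e]
    intro x hx
    obtain ⟨i, hi, rfl⟩ := Finset.mem_image.1 hx
    rw [Finset.mem_filter, Finset.mem_range] at hi
    exact ⟨i, hi.1, rfl, hi.2⟩
  · rw [e, Finset.sum_image, act_sum]
    · refine Finset.sum_congr rfl fun i hi => ?_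
      rw [h2 i (Finset.mem_range.1 (Finset.mem_filter.1 hi).1)]
    · intro i hi i' hi' he
      exact h.inj (Finset.mem_range.1 (Finset.mem_filter.1 hi).1)
        (Finset.mem_range.1 (Finset.mem_filter.1 hi').1) he

theorem IsSp.abs_Dg_le {q : ℕ} {w : ℕ → ℕ} {φ : ℕ → Γ →₀ ℚ} (h : IsSp R (GG R) q w φ)
    (J J' : ℕ) (u : Γ →₀ ℝ) : |Dg q w φ J J' u| ≤ NN R u := by
  obtain ⟨A, ψ, h1, -, h3⟩ := h.exists_window J J'
  rw [← h3]
  exact abs_act_le_NN h1.mem u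

omit [LinearOrder Γ] in
theorem Dg_eq_zero {q : ℕ} {w : ℕ → ℕ} {φ : ℕ → Γ →₀ ℚ} {J J' : ℕ} {u : Γ →₀ ℝ}
    (h : ∀ i < q, J ≤ w i → w i < J' → ∀ a ∈ u.support, φ i a = 0) : Dg q w φ J J' u = 0 := by
  refine Finset.sum_eq_zero fun i hi => ?_
  rw [Finset.mem_filter, Finset.mem_range] at hi
  exact act_eq_zero (h i hi.1 hi.2.1 hi.2.2)

theorem tail_bound {D ε : ℕ → ℝ} {τ : ℝ} {k₀ k' m b K : ℕ} (hτ : 0 ≤ τ)
    (hε : ∀ k, ε k = 1 ∨ ε k = -1) (hD : ∀ k, |D k| ≤ 1) (hb : b ≤ K)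
    (h0 : ∀ k, k₀ < k → k < m → k ≠ k' → D k = 0) (h1 : ∀ k, m < k → k < b → |D k| ≤ τ) :
    |∑ k ∈ Ico k₀ b, ε k * D k| ≤ τ * K + 3 := by
  classical
  have hle : ∀ k ∈ Ico k₀ b, |ε k * D k| ≤
      τ + if k ∈ ({k₀, k', m} : Finset ℕ) then 1 else 0 := by
    intro k hk
    rw [Finset.mem_Ico] at hk
    have e : |ε k * D k| = |D k| := by
      rw [abs_mul]; rcases hε k with h | h <;> simp [h]
    rw [e]
    split_ifs with h2
    · linarith [hD k]
    · simp only [Finset.mem_insert, Finset.mem_singleton, not_or] at h2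
      rcases lt_or_gt_of_ne h2.2.2 with h3 | h3
      · rw [h0 k (by omega) h3 h2.2.1]; simpa using hτ
      · linarith [h1 k h3 hk.2]
  refine (Finset.abs_sum_le_sum_abs _ _).trans ((Finset.sum_le_sum hle).trans ?_)
  rw [Finset.sum_add_distrib, Finset.sum_const, Nat.card_Ico, nsmul_eq_mul, Finset.sum_boole]
  have h2 : ((b - k₀ : ℕ) : ℝ) ≤ K := by exact_mod_cast (by omega : b - k₀ ≤ K)
  have h3 : (((Ico k₀ b).filter (fun k => k ∈ ({k₀, k', m} : Finset ℕ))).card : ℝ) ≤ 3 := by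
    have : ((Ico k₀ b).filter (fun k => k ∈ ({k₀, k', m} : Finset ℕ))).card ≤ 3 :=
      (Finset.card_le_card fun k hk => (Finset.mem_filter.1 hk).2).trans Finset.card_le_three
    exact_mod_cast this
  nlinarith

/-- The points of the early vectors which are seen by the weights below `J m`. -/
def Seen (u : ℕ → Γ →₀ ℝ) (J : ℕ → ℕ) (m q : ℕ) (w : ℕ → ℕ) (φ : ℕ → Γ →₀ ℚ) : Set Γ :=
  {a | (∃ h < q, w h < J m ∧ φ h a ≠ 0) ∧
    ∃ k, a ∈ (u k).support ∧ ∃ h < q, w h < J m ∧ J (k + 1) ≤ w h}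

/-- Comparison of the diagonals of two special sequences which share a weight. -/
theorem diag_compare {u : ℕ → Γ →₀ ℝ} {J : ℕ → ℕ} (hu : Succ u) (hJ : StrictMono J)
    (hch : ∀ k, Chain R (J k) (hsupp u k)) {m q q' : ℕ} {w w' : ℕ → ℕ} {φ φ' : ℕ → Γ →₀ ℚ}
    (h : IsSp R (GG R) q w φ) (h' : IsSp R (GG R) q' w' φ') (h0 : w 0 < J m) (h0' : w' 0 < J m)
    (hsh : ∃ i < q, ∃ i' < q', w i = w' i' ∧ J m ≤ w i)
    (hreach : ∀ a ∈ Seen u J m q w φ, ∃ a' ∈ Seen u J m q' w' φ', a ≤ a') :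
    ∃ k₀ k', k₀ ≤ m ∧ (∀ k < k₀, Dg q w φ (J k) (J (k + 1)) (u k) =
      Dg q' w' φ' (J k) (J (k + 1)) (u k)) ∧
      ∀ k, k₀ < k → k < m → k ≠ k' → Dg q w φ (J k) (J (k + 1)) (u k) = 0 := by
  classical
  obtain ⟨i₁, hi₁, i₂, hi₂, he, hJm⟩ := hsh
  obtain ⟨i, rfl⟩ : ∃ i, i₁ = i + 1 := by
    cases i₁ with
    | zero => omega
    | succ i => exact ⟨i, rfl⟩
  obtain ⟨i', rfl⟩ : ∃ i, i₂ = i + 1 := by
    cases i₂ with
    | zero => omega
    | succ i => exact ⟨i, rfl⟩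
  obtain ⟨hii, hw, hcmp⟩ := h.share h' hi₁ hi₂ he
  subst hii
  have hlow : ∀ k < q, w k < J m → k ≤ i := by
    intro k hk hk'
    by_contra hne
    have := h.le (show i + 1 ≤ k by omega) hk
    omega
  have hlow' : ∀ k < q', w' k < J m → k ≤ i := by
    intro k hk hk'
    by_contra hne
    have := h'.le (show i + 1 ≤ k by omega) hk
    omega
  -- the first window which is not below a weight smaller than `J m`
  have hex : ∃ k, ¬ ∃ h < q, w h < J m ∧ J (k + 1) ≤ w h := by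
    refine ⟨m, ?_⟩
    rintro ⟨h, -, h1, h2⟩
    have : J m < J (m + 1) := hJ (Nat.lt_succ_self m)
    omega
  have hk'1 : ∀ k, Nat.find hex < k → k < m → Dg q w φ (J k) (J (k + 1)) (u k) = 0 := by
    intro k hk hkm
    apply Dg_eq_zero
    intro j hj h1 h2
    exfalso
    have h3 := hJ.monotone (show k + 1 ≤ m by omega)
    have h4 := hJ.monotone (show Nat.find hex + 1 ≤ k by omega)
    exact Nat.find_spec hex ⟨j, hj, by omega, by omega⟩
  have hk'2 : ∀ k < Nat.find hex, ∃ h < q, w h < J m ∧ J (k + 1) ≤ w h := fun k hk =>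
    not_not.1 (Nat.find_min hex hk)
  have hfin : (Seen u J m q w φ).Finite := by
    refine (hsupp φ q).finite_toSet.subset ?_
    rintro a ⟨⟨j, hj, -, h1⟩, -⟩
    exact mem_hsupp.2 ⟨j, hj, h1⟩
  have hzero : ∀ k < m, k ≠ Nat.find hex →
      (∀ a ∈ (u k).support, a ∉ Seen u J m q w φ) → Dg q w φ (J k) (J (k + 1)) (u k) = 0 := by
    intro k hkm hne hs
    rcases lt_or_gt_of_ne hne with h1 | h1
    · apply Dg_eq_zero
      intro j hj h2 h3 a ha
      by_contra hne'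
      have h4 := hJ.monotone (show k + 1 ≤ m by omega)
      exact hs a ha ⟨⟨j, hj, by omega, hne'⟩, k, ha, hk'2 k h1⟩
    · exact hk'1 k h1 hkm
  rcases (Seen u J m q w φ).eq_empty_or_nonempty with hS | hS
  · exact ⟨0, Nat.find hex, Nat.zero_le _, fun k hk => absurd hk (Nat.not_lt_zero _),
      fun k _ hkm hne => hzero k hkm hne fun a _ ha => by rw [hS] at ha; exact ha⟩
  obtain ⟨a, ha, hmax⟩ := Set.exists_max_image _ id hfin hS
  obtain ⟨a', ha', haa⟩ := hreach a ha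
  obtain ⟨⟨j, hj, hj1, hj2⟩, k₀, hk₀, j₀, hj₀, hj₀1, hj₀2⟩ := ha
  obtain ⟨⟨j', hj', hj1', hj2'⟩, k₁, hk₁, j₁, hj₁, hj₁1, hj₁2⟩ := ha'
  have hk₀m : k₀ + 1 < m := hJ.lt_iff_lt.1 (by omega)
  have hρ : R.ρ a a' ≤ w i := by
    have e1 : J (k₀ + 1) ≤ w i := hj₀2.trans (h.le (hlow j₀ hj₀ hj₀1) (by omega))
    have e2 : J (k₁ + 1) ≤ w i := by
      rw [hw i le_rfl]
      exact hj₁2.trans (h'.le (hlow' j₁ hj₁ hj₁1) (by omega))
    have e3 := hch (max k₀ k₁ + 1) a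
      (support_subset_hsupp u (Nat.lt_succ_of_le (le_max_left _ _)) hk₀) a'
      (support_subset_hsupp u (Nat.lt_succ_of_le (le_max_right _ _)) hk₁) haa
    refine e3.trans ?_
    rcases le_total k₀ k₁ with h1 | h1
    · rw [max_eq_right h1]; exact e2
    · rw [max_eq_left h1]; exact e1
  have hc := hcmp a (mem_hsupp.2 ⟨j, Nat.lt_succ_of_le (hlow j hj hj1), hj2⟩) a'
    (mem_hsupp.2 ⟨j', Nat.lt_succ_of_le (hlow' j' hj' hj1'), hj2'⟩) haa hρ
  refine ⟨k₀, Nat.find hex, by omega, fun k hk => ?_, fun k hk hkm hne => ?_⟩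
  · have h4 := hJ.monotone (show k + 1 ≤ m by omega)
    have e : (range q).filter (fun x => J k ≤ w x ∧ w x < J (k + 1)) =
        (range q').filter (fun x => J k ≤ w' x ∧ w' x < J (k + 1)) := by
      ext x
      simp only [Finset.mem_filter, Finset.mem_range]
      constructor
      · rintro ⟨h1, h2, h3⟩
        have h5 := hlow x h1 (by omega)
        rw [← hw x h5]
        exact ⟨by omega, h2, h3⟩
      · rintro ⟨h1, h2, h3⟩
        have h5 := hlow' x h1 (by omega)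
        rw [hw x h5]
        exact ⟨by omega, h2, h3⟩
    unfold Dg
    rw [← e]
    refine Finset.sum_congr rfl fun x hx => act_congr fun b hb => ?_
    rw [Finset.mem_filter, Finset.mem_range] at hx
    exact hc x (hlow x hx.1 (by omega)) b (hu k k₀ hk b hb a hk₀).le
  · refine hzero k hkm hne fun b hb hb' => ?_
    exact absurd (hmax b hb') (not_le.2 (hu k₀ k hk a hk₀ b hb))

theorem gowers_signs {u : ℕ → Γ →₀ ℝ} {J : ℕ → ℕ} {K n : ℕ} {τ : ℝ} (hu : Succ u)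
    (hu1 : ∀ k, NN R (u k) ≤ 1) (hJ : StrictMono J) (hch : ∀ k, Chain R (J k) (hsupp u k))
    (hτ : 0 < τ) (hn : 1 ≤ τ * n) (hnJ : n ≤ J 0)
    (hK : 2 * ((K : ℝ) * n * (K + 1)) < Real.exp (τ ^ 2 * K / 2)) :
    ∃ ε : ℕ → ℝ, (∀ k, ε k = 1 ∨ ε k = -1) ∧
      ∀ q w φ, IsSp R (GG R) q w φ → ∀ b ≤ K,
        |∑ k ∈ range b, ε k * Dg q w φ (J k) (J (k + 1)) (u k)| ≤ 2 * τ * K + 3 := by
  classical
  let α : Type := ℕ × (ℕ → ℕ) × (ℕ → Γ →₀ ℚ)
  let Δ : α → ℕ → ℝ := fun σ k => Dg σ.1 σ.2.1 σ.2.2 (J k) (J (k + 1)) (u k)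
  let C : ℕ → Set α := fun m =>
    {σ | IsSp R (GG R) σ.1 σ.2.1 σ.2.2 ∧ τ < |Δ σ m| ∧ σ.2.1 0 < J m}
  let sh : ℕ → α → α → Prop := fun m σ σ' =>
    ∃ i < σ.1, ∃ i' < σ'.1, σ.2.1 i = σ'.2.1 i' ∧ J m ≤ σ.2.1 i ∧ σ.2.1 i < J (m + 1)
  let reach : ℕ → α → ℕ := fun m σ =>
    ((hsupp u K).filter (fun b => ∃ a ∈ Seen u J m σ.1 σ.2.1 σ.2.2, b ≤ a)).card
  have hΔ : ∀ σ : α, IsSp R (GG R) σ.1 σ.2.1 σ.2.2 → ∀ k, |Δ σ k| ≤ 1 :=
    fun σ hσ k => (hσ.abs_Dg_le _ _ _).trans (hu1 k)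
  have hT : ∀ m, ∃ T : Finset α, T.card ≤ n ∧ (∀ a ∈ T, a ∈ C m) ∧
      ∀ a ∈ C m, ∃ b ∈ T, sh m a b ∧ reach m a ≤ reach m b := by
    intro m
    refine exists_greedy (sh m) ?_ (reach m) (hsupp u K).card n (C m) ?_
      (fun _ _ => Finset.card_filter_le _ _) ?_
    · rintro σ σ' ⟨i, hi, i', hi', h1, h2, h3⟩
      exact ⟨i', hi', i, hi, h1.symm, h1 ▸ h2, h1 ▸ h3⟩
    · rintro σ ⟨-, h2, -⟩
      by_contra hne
      have : Δ σ m = 0 := Dg_eq_zero fun i hi h3 h4 => absurd ⟨i, hi, i, hi, rfl, h3, h4⟩ hne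
      rw [this, abs_zero] at h2
      exact absurd h2 (not_lt.2 hτ.le)
    · intro F hF hF'
      by_contra hne
      obtain ⟨F', hsub, hcard⟩ := Finset.exists_subset_card_eq (show n + 1 ≤ F.card by omega)
      have hw : ∀ σ : α, ∃ (A : Finset ℕ) (ψ : ℕ → Γ →₀ ℚ), IsSp R (GG R) σ.1 σ.2.1 σ.2.2 →
          IsSF R (GG R) A ψ ∧ (∀ x ∈ A, ∃ i < σ.1, σ.2.1 i = x ∧ J m ≤ x ∧ x < J (m + 1)) ∧
          ∀ v, act (∑ x ∈ A, ψ x) v = Dg σ.1 σ.2.1 σ.2.2 (J m) (J (m + 1)) v := by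
        intro σ
        by_cases hσ : IsSp R (GG R) σ.1 σ.2.1 σ.2.2
        · obtain ⟨A, ψ, h⟩ := hσ.exists_window (J m) (J (m + 1))
          exact ⟨A, ψ, fun _ => h⟩
        · exact ⟨∅, fun _ => 0, fun h => absurd h hσ⟩
      choose A ψ hA using hw
      have hadm : Adm R (GG R) F' A ψ := by
        refine ⟨fun σ hσ => (hA σ (hF σ (hsub hσ)).1).1, fun σ hσ σ' hσ' hne' => ?_,
          fun σ hσ x hx => ?_⟩
        · rw [Finset.disjoint_left]
          intro x hx hx'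
          obtain ⟨i, hi, h1, h2, h3⟩ := (hA σ (hF σ (hsub hσ)).1).2.1 x hx
          obtain ⟨i', hi', h1', -⟩ := (hA σ' (hF σ' (hsub hσ')).1).2.1 x hx'
          exact hF' σ (hsub hσ) σ' (hsub hσ') hne'
            ⟨i, hi, i', hi', h1.trans h1'.symm, h1 ▸ h2, h1 ▸ h3⟩
        · obtain ⟨i, hi, h1, h2, h3⟩ := (hA σ (hF σ (hsub hσ)).1).2.1 x hx
          have := hJ.monotone (Nat.zero_le m)
          omega
      have h1 := (hadm.sum_le (u m)).trans (hu1 m)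
      have h2 : F'.card • τ ≤ ∑ σ ∈ F', |act (∑ x ∈ A σ, ψ σ x) (u m)| := by
        apply Finset.card_nsmul_le_sum
        intro σ hσ
        rw [(hA σ (hF σ (hsub hσ)).1).2.2]
        exact (hF σ (hsub hσ)).2.1.le
      rw [hcard, nsmul_eq_mul] at h2
      push_cast at h2
      nlinarith
  choose T hT1 hT2 hT3 using hT
  let pat : α × ℕ → ℕ → ℝ := fun x k => if k < x.2 then Δ x.1 k else 0
  let Q : Finset (ℕ → ℝ) := (range K).biUnion fun m => (T m ×ˢ range (K + 1)).image pat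
  have hQ : Q.card ≤ K * (n * (K + 1)) := by
    refine Finset.card_biUnion_le.trans ?_
    have : ∀ m ∈ range K, ((T m ×ˢ range (K + 1)).image pat).card ≤ n * (K + 1) := by
      intro m _
      refine Finset.card_image_le.trans ?_
      rw [Finset.card_product, Finset.card_range]
      exact Nat.mul_le_mul_right _ (hT1 m)
    simpa using Finset.sum_le_card_nsmul _ _ _ this
  obtain ⟨ε, hε, hεQ⟩ := exists_signs K τ hτ Q (by
    intro d hd k _
    obtain ⟨m, -, hd⟩ := Finset.mem_biUnion.1 hd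
    obtain ⟨x, hx, rfl⟩ := Finset.mem_image.1 hd
    simp only [pat]
    split_ifs
    · exact hΔ _ (hT2 m _ (Finset.mem_product.1 hx).1).1 k
    · simp) (by
    refine lt_of_le_of_lt ?_ hK
    have : (Q.card : ℝ) ≤ K * (n * (K + 1)) := by exact_mod_cast hQ
    linarith)
  refine ⟨ε, hε, fun q w φ hsp b hb => ?_⟩
  have hKτ : 0 ≤ τ * K := by positivity
  -- it suffices to find the data of `tail_bound`
  suffices hs : ∃ k₀ k' m, k₀ ≤ b ∧ |∑ k ∈ range k₀, ε k * Δ (q, w, φ) k| ≤ τ * K ∧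
      (∀ k, k₀ < k → k < m → k ≠ k' → Δ (q, w, φ) k = 0) ∧
      ∀ k, m < k → k < b → |Δ (q, w, φ) k| ≤ τ by
    obtain ⟨k₀, k', m, h1, h2, h3, h4⟩ := hs
    have h5 := tail_bound hτ.le hε (hΔ (q, w, φ) hsp) hb h3 h4
    show |∑ k ∈ range b, ε k * Δ (q, w, φ) k| ≤ _
    rw [← Finset.sum_range_add_sum_Ico _ h1]
    refine (abs_add_le _ _).trans ?_
    linarith
  rcases ((range b).filter (fun k => τ < |Δ (q, w, φ) k|)).eq_empty_or_nonempty with hB | hB
  · refine ⟨0, 0, 0, Nat.zero_le _, by simpa using hKτ, fun k _ hk => absurd hk (Nat.not_lt_zero _),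
      fun k _ hk => ?_⟩
    by_contra hne
    have : k ∈ (range b).filter (fun k => τ < |Δ (q, w, φ) k|) :=
      Finset.mem_filter.2 ⟨Finset.mem_range.2 hk, not_le.1 hne⟩
    rw [hB] at this
    exact absurd this (Finset.notMem_empty _)
  obtain ⟨m, hm, hmax⟩ := Finset.exists_max_image _ id hB
  rw [Finset.mem_filter, Finset.mem_range] at hm
  have hsmall : ∀ k, m < k → k < b → |Δ (q, w, φ) k| ≤ τ := by
    intro k hk hkb
    by_contra hne
    have := hmax k (Finset.mem_filter.2 ⟨Finset.mem_range.2 hkb, not_le.1 hne⟩)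
    exact absurd this (not_le.2 hk)
  by_cases h0 : w 0 < J m
  · obtain ⟨σ', hσ', ⟨i, hi, i', hi', e1, e2, -⟩, hr⟩ := hT3 m (q, w, φ) ⟨hsp, hm.2, h0⟩
    obtain ⟨hsp', -, h0'⟩ := hT2 m σ' hσ'
    obtain ⟨k₀, k', h1, h2, h3⟩ := diag_compare hu hJ hch hsp hsp' h0 h0' ⟨i, hi, i', hi', e1, e2⟩
      (by
        intro a ha
        by_contra hne
        push Not at hne
        refine absurd hr (not_le.2 (Finset.card_lt_card ⟨?_, ?_⟩))
        · intro c hc
          obtain ⟨hc1, a', ha', hca⟩ := Finset.mem_filter.1 hc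
          exact Finset.mem_filter.2 ⟨hc1, a, ha, hca.trans (hne a' ha').le⟩
        · intro hsub
          obtain ⟨-, k, hk, j, -, hj1, hj2⟩ := id ha
          have hkm : k + 1 < m := hJ.lt_iff_lt.1 (lt_of_le_of_lt hj2 hj1)
          have := hsub (Finset.mem_filter.2
            ⟨support_subset_hsupp u (show k < K by omega) hk, a, ha, le_rfl⟩)
          obtain ⟨-, a', ha', haa⟩ := Finset.mem_filter.1 this
          exact absurd haa (not_le.2 (hne a' ha')))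
    refine ⟨k₀, k', m, by omega, ?_, h3, hsmall⟩
    have h4 := hεQ (pat (σ', k₀)) (Finset.mem_biUnion.2 ⟨m, Finset.mem_range.2 (by omega),
      Finset.mem_image_of_mem _ (Finset.mem_product.2 ⟨hσ', Finset.mem_range.2 (by omega)⟩)⟩)
    rw [← Finset.sum_range_add_sum_Ico _ (show k₀ ≤ K by omega),
      Finset.sum_eq_zero (s := Ico k₀ K) (fun k hk => by
        simp only [pat]
        rw [if_neg (not_lt.2 (Finset.mem_Ico.1 hk).1), mul_zero]), add_zero] at h4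
    refine le_trans (le_of_eq ?_) h4
    congr 1
    refine Finset.sum_congr rfl fun k hk => ?_
    simp only [pat]
    rw [if_pos (Finset.mem_range.1 hk)]
    exact congrArg _ (h2 k (Finset.mem_range.1 hk))
  · refine ⟨0, 0, m, Nat.zero_le _, by simpa using hKτ, fun k _ hk _ => ?_, hsmall⟩
    apply Dg_eq_zero
    intro i hi h1 h2
    exfalso
    have h3 : w 0 ≤ w i := hsp.le (Nat.zero_le i) hi
    have h4 := hJ.monotone (show k + 1 ≤ m by omega)
    have h5 : w i < J (k + 1) := h2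
    omega

end Vale.Agent.P129
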