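import Vale.Agent.P129.Avg
import Vale.Agent.P129.Gowers

/-!
P129, file Good: good vectors exist in every block subspace.
-/

namespace Vale.Agent.P129

open Finset

variable {Γ : Type} [LinearOrder Γ] {R : Rho Γ}

theorem diag_lower {u : ℕ → Γ →₀ ℝ} {J : ℕ → ℕ} {K : ℕ} {c : ℝ} {ε : ℕ → ℝ} (hu : Succ u)
    (hu1 : ∀ k, NN R (u k) ≤ 1) (hε : ∀ k, ε k = 1 ∨ ε k = -1) {q : ℕ} {w : ℕ → ℕ}
    {φ : ℕ → Γ →₀ ℚ} (hsp : IsSp R (GG R) q w φ)
    (h : ∀ b ≤ K, |∑ k ∈ range b, ε k * Dg q w φ (J k) (J (k + 1)) (u k)| ≤ c)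
    {L : Set Γ} (hL : IsLowerSet L) :
    |∑ k ∈ range K, ε k * Dg q w φ (J k) (J (k + 1)) (res L (u k))| ≤ c + 1 := by
  classical
  by_cases hex : ∃ k, k < K ∧ ∃ a ∈ (u k).support, a ∉ L
  · obtain ⟨hb, a, ha, haL⟩ := Nat.find_spec hex
    set b := Nat.find hex with hbdef
    have e1 : ∑ k ∈ range K, ε k * Dg q w φ (J k) (J (k + 1)) (res L (u k)) =
        ∑ k ∈ range (b + 1), ε k * Dg q w φ (J k) (J (k + 1)) (res L (u k)) := by
      symm
      apply Finset.sum_subset (Finset.range_subset_range.2 hb)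
      intro k _ hk
      have hk' : b < k := by simpa using hk
      rw [res_eq_zero fun x hx hxL => haL (hL (hu b k hk' a ha x hx).le hxL),
        Dg_eq_zero fun _ _ _ _ x hx => by simp at hx, mul_zero]
    have e2 : ∑ k ∈ range b, ε k * Dg q w φ (J k) (J (k + 1)) (res L (u k)) =
        ∑ k ∈ range b, ε k * Dg q w φ (J k) (J (k + 1)) (u k) := by
      refine Finset.sum_congr rfl fun k hk => ?_
      have hk' := Finset.mem_range.1 hk
      rw [res_eq_self]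
      intro x hx
      by_contra hxL
      exact Nat.find_min hex hk' ⟨by omega, x, hx, hxL⟩
    rw [e1, Finset.sum_range_succ, e2]
    refine (abs_add_le _ _).trans (add_le_add (h b hb.le) ?_)
    have e : |ε b| = 1 := by rcases hε b with h | h <;> simp [h]
    rw [abs_mul, e, one_mul]
    exact ((hsp.abs_Dg_le _ _ _).trans (NN_res_le hL.ordConnected _)).trans (hu1 b)
  · push Not at hex
    have e2 : ∑ k ∈ range K, ε k * Dg q w φ (J k) (J (k + 1)) (res L (u k)) =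
        ∑ k ∈ range K, ε k * Dg q w φ (J k) (J (k + 1)) (u k) :=
      Finset.sum_congr rfl fun k hk => by rw [res_eq_self (hex k (Finset.mem_range.1 hk))]
    rw [e2]
    linarith [h K le_rfl]

theorem exists_lower_diff {E : Set Γ} (hE : E.OrdConnected) :
    ∃ L₁ L₂ : Set Γ, IsLowerSet L₁ ∧ IsLowerSet L₂ ∧
      ∀ z : Γ →₀ ℝ, res E z = res L₂ z - res L₁ z := by
  classical
  refine ⟨{a | (∃ b ∈ E, a ≤ b) ∧ a ∉ E}, {a | ∃ b ∈ E, a ≤ b}, ?_, ?_, fun z => ?_⟩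
  · rintro a a' haa ⟨⟨b, hb, hab⟩, haE⟩
    exact ⟨⟨b, hb, haa.trans hab⟩, fun h => haE (hE.out h hb ⟨haa, hab⟩)⟩
  · rintro a a' haa ⟨b, hb, hab⟩
    exact ⟨b, hb, haa.trans hab⟩
  · ext a
    simp only [Finsupp.sub_apply, res_apply, Set.mem_ofPred_eq]
    by_cases h : a ∈ E
    · rw [if_pos h, if_pos ⟨a, h, le_rfl⟩, if_neg (fun h' => h'.2 h), sub_zero]
    · rw [if_neg h]
      by_cases h' : ∃ b ∈ E, a ≤ b
      · rw [if_pos h', if_pos ⟨h', h⟩, sub_self]
      · rw [if_neg h', if_neg (fun h'' => h' h''.1), sub_self]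

omit [LinearOrder Γ] in
theorem Dg_sub (q : ℕ) (w : ℕ → ℕ) (φ : ℕ → Γ →₀ ℚ) (J J' : ℕ) (y z : Γ →₀ ℝ) :
    Dg q w φ J J' (y - z) = Dg q w φ J J' y - Dg q w φ J J' z := by
  simp [Dg, Finset.sum_sub_distrib]

theorem diag_sf {u : ℕ → Γ →₀ ℝ} {J : ℕ → ℕ} {K : ℕ} {c : ℝ} {ε : ℕ → ℝ} (hu : Succ u)
    (hu1 : ∀ k, NN R (u k) ≤ 1) (hε : ∀ k, ε k = 1 ∨ ε k = -1)
    (h : ∀ q w φ, IsSp R (GG R) q w φ → ∀ b ≤ K,
      |∑ k ∈ range b, ε k * Dg q w φ (J k) (J (k + 1)) (u k)| ≤ c)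
    {A : Finset ℕ} {ψ : ℕ → Γ →₀ ℚ} (hA : IsSF R (GG R) A ψ) :
    |∑ k ∈ range K, ε k * act (∑ w ∈ A.filter (fun w => J k ≤ w ∧ w < J (k + 1)), ψ w) (u k)|
      ≤ 4 * (c + 1) := by
  classical
  obtain ⟨q, a, w, φ, E, hsp, hE, rfl, hψ⟩ := hA
  obtain ⟨L₁, L₂, hL₁, hL₂, hL⟩ := exists_lower_diff hE
  have hq : min a q ≤ q := min_le_right _ _
  have e : ∀ (J J' : ℕ) (z : Γ →₀ ℝ),
      act (∑ x ∈ ((Ico a q).image w).filter (fun x => J ≤ x ∧ x < J'), ψ x) z =
        Dg q w φ J J' (res E z) - Dg (min a q) w φ J J' (res E z) := by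
    intro J J' z
    rw [Finset.filter_image, Finset.sum_image, act_sum]
    · unfold Dg
      rw [Finset.sum_filter, Finset.sum_filter, Finset.sum_filter,
        ← Finset.sum_Ico_eq_sub _ hq]
      have : Ico (min a q) q = Ico a q := by
        ext i
        simp only [Finset.mem_Ico]
        omega
      rw [this]
      refine Finset.sum_congr rfl fun i hi => ?_
      rw [hψ i hi, act_res]
    · intro i hi i' hi' he
      exact hsp.inj (Finset.mem_Ico.1 (Finset.mem_filter.1 hi).1).2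
        (Finset.mem_Ico.1 (Finset.mem_filter.1 hi').1).2 he
  have b1 := diag_lower hu hu1 hε hsp (h _ _ _ hsp) hL₁
  have b2 := diag_lower hu hu1 hε hsp (h _ _ _ hsp) hL₂
  have b3 := diag_lower hu hu1 hε (hsp.mono hq) (h _ _ _ (hsp.mono hq)) hL₁
  have b4 := diag_lower hu hu1 hε (hsp.mono hq) (h _ _ _ (hsp.mono hq)) hL₂
  simp only [e, hL, Dg_sub, mul_sub, Finset.sum_sub_distrib]
  rw [abs_le] at b1 b2 b3 b4 ⊢
  constructor <;> linarith [b1.1, b1.2, b2.1, b2.2, b3.1, b3.2, b4.1, b4.2]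

theorem offdiag_le {A : Finset ℕ} {ψ : ℕ → Γ →₀ ℚ} (hA : IsSF R (GG R) A ψ) {J J' J'' : ℕ}
    (hw : ∀ w ∈ A, J' ≤ w) {u : Γ →₀ ℝ} (hav : Avg R 4 J u)
    (hl : 2 / mm J'' * l1 u ≤ 1 / mm J') :
    |act (∑ w ∈ A, ψ w) u - act (∑ w ∈ A.filter (fun w => J ≤ w ∧ w < J''), ψ w) u| ≤
      9 / mm J' := by
  classical
  rw [← Finset.sum_filter_add_sum_filter_not A (fun w => J ≤ w ∧ w < J''), act_add,
    add_sub_cancel_left, act_sum]
  refine (Finset.abs_sum_le_sum_abs _ _).trans ?_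
  have h1 : ∑ w ∈ A.filter (fun w => ¬ (J ≤ w ∧ w < J'')), |act (ψ w) u| ≤
      ∑ w ∈ A, (4 * ((mm w : ℝ))⁻¹ + if J'' ≤ w then ((mm w : ℝ))⁻¹ * l1 u else 0) := by
    rw [Finset.sum_filter]
    refine Finset.sum_le_sum fun w hw' => ?_
    have hp := inv_pos.2 (mm_cast_pos w)
    have hl0 := l1_nonneg u
    by_cases h2 : w < J
    · have := hav w h2 _ (hA.wt hw')
      rw [div_eq_mul_inv] at this
      have h3 : (0 : ℝ) ≤ if J'' ≤ w then ((mm w : ℝ))⁻¹ * l1 u else 0 := by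
        split_ifs
        · positivity
        · exact le_rfl
      rw [if_pos (by omega)]
      linarith
    · by_cases h3 : J'' ≤ w
      · rw [if_pos (by omega), if_pos h3]
        have := (hA.wt hw').act_le_l1 u
        linarith
      · rw [if_neg (by omega), if_neg h3]
        positivity
  refine h1.trans ?_
  rw [Finset.sum_add_distrib, ← Finset.mul_sum, ← Finset.sum_filter, ← Finset.sum_mul]
  have h2 := sum_inv_mm_le J' A hw
  have h3 := sum_inv_mm_le J'' (A.filter (fun w => J'' ≤ w)) fun w hw => (Finset.mem_filter.1 hw).2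
  have h4 := mul_le_mul_of_nonneg_right h3 (l1_nonneg u)
  have e : (9 : ℝ) / mm J' = 4 * (2 / mm J') + 1 / mm J' := by ring
  linarith

omit [LinearOrder Γ] in
theorem exists_l1_small (u : Γ →₀ ℝ) {c : ℝ} (hc : 0 < c) :
    ∃ J', ∀ J'' ≥ J', 2 / mm J'' * l1 u ≤ c := by
  obtain ⟨J', hJ'⟩ := exists_nat_ge (2 * l1 u / c)
  refine ⟨J', fun J'' h => ?_⟩
  have h1 : (J' : ℝ) ≤ mm J'' := by exact_mod_cast h.trans (lt_mm J'').le
  have hp := mm_cast_pos J''
  rw [div_le_iff₀ hc] at hJ'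
  rw [div_mul_eq_mul_div, div_le_iff₀ hp]
  nlinarith

theorem exists_good {V : ℕ → Submodule ℝ (Γ →₀ ℝ)} (hV : Blocks V) (R : Rho Γ) :
    ∃ C : ℝ, 0 ≤ C ∧ ∀ η > 0, ∀ T, ∃ v ∈ V T, Good R C η v := by
  classical
  by_cases hI : ∀ η > 0, ∀ T, ∃ v ∈ V T, Good R 4 η v
  · exact ⟨4, by norm_num, hI⟩
  push Not at hI
  obtain ⟨δ, hδ, T₀, hbad⟩ := hI
  refine ⟨4 / δ, by positivity, fun η hη T => ?_⟩
  have hηδ : 0 < η * δ := mul_pos hη hδ
  obtain ⟨J', hJ'⟩ := exists_nat_ge (27 / (η * δ))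
  have hJ'' : 9 / (mm J' : ℝ) ≤ η * δ / 3 := by
    have h1 : (J' : ℝ) ≤ mm J' := by exact_mod_cast (lt_mm J').le
    rw [div_le_iff₀ hηδ] at hJ'
    rw [div_le_iff₀ (mm_cast_pos J')]
    nlinarith
  have hτ : 0 < η * δ / 24 := by positivity
  obtain ⟨n, hn⟩ := exists_nat_ge (1 / (η * δ / 24))
  rw [div_le_iff₀' hτ] at hn
  obtain ⟨K₀, hK₀⟩ := exists_nat_ge (48 / (η * δ))
  obtain ⟨K, hK₁, hK⟩ := exists_K _ hτ n K₀
  have hK2 : 48 ≤ η * δ * K := by
    rw [div_le_iff₀' hηδ] at hK₀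
    have : (K₀ : ℝ) ≤ K := by exact_mod_cast hK₁
    nlinarith
  have hK3 : (0 : ℝ) < K := by
    by_contra h
    have := mul_nonpos_of_nonneg_of_nonpos hηδ.le (not_lt.1 h)
    linarith
  obtain ⟨u, J, hJ0, hJ, hu1, hu2, hu3, hch⟩ := hV.seq R (max T T₀) (max J' (max K n))
    (fun J u J'' => u ∈ V T₀ → NN R u = 1 ∧ Avg R 4 J u ∧ (∃ A ψ, IsSF R (GG R) A ψ ∧
      (∀ w ∈ A, J ≤ w ∧ w < J'') ∧ δ < |act (∑ w ∈ A, ψ w) u|) ∧
      2 / mm J'' * l1 u ≤ 1 / mm J') (by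
    intro T J
    obtain ⟨v, hv, hv1, hv2⟩ := exists_avg hV R T J
    by_cases hv0 : v ∈ V T₀
    · have h1 : ¬ Hi R J δ v := fun h => hbad v hv0 ⟨hv1, J, hv2, h⟩
      unfold Hi at h1
      push Not at h1
      obtain ⟨A, ψ, h2, h3, h4⟩ := h1
      obtain ⟨J₁, hJ₁⟩ := exists_l1_small v (c := 1 / mm J') (one_div_pos.2 (mm_cast_pos J'))
      refine ⟨v, hv, max J₁ (A.sup id + 1), fun J'' h _ => ⟨hv1, hv2, ⟨A, ψ, h2, fun w hw =>
        ⟨h3 w hw, ?_⟩, h4⟩, hJ₁ _ (le_of_max_le_left h)⟩⟩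
      have : w ≤ A.sup id := Finset.le_sup (f := id) hw
      have := le_of_max_le_right h
      omega
    · exact ⟨v, hv, 0, fun _ _ h => absurd h hv0⟩)
  have hu4 := fun k => hu3 k (hV.anti (le_max_right _ _) (hu1 k))
  have hN : ∀ k, NN R (u k) ≤ 1 := fun k => (hu4 k).1.le
  have hJge : ∀ k, max J' (max K n) ≤ J k := fun k => hJ0 ▸ hJ.monotone (Nat.zero_le k)
  obtain ⟨ε, hε, hεs⟩ := gowers_signs (K := K) hu2 hN hJ hch hτ hn
    (le_of_max_le_right (le_of_max_le_right (hJge 0))) hK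
  have hεa : ∀ k, |ε k| = 1 := fun k => by rcases hε k with h | h <;> simp [h]
  choose A ψ hA hAw hAδ using fun k => (hu4 k).2.2.1
  obtain ⟨E, hE1, -, hE3, hE4⟩ := hu2.exists_intervals
  set B : Γ →₀ ℝ := ∑ k ∈ range K, ε k • u k with hB
  have hlow : δ * K ≤ NN R B := by
    have hadm : Adm R (GG R) (range K) A (fun k w => res (E k) (ψ k w)) := by
      refine ⟨fun k _ => (hA k).res (hE1 k), ?_, fun k _ w hw => ?_⟩
      · have key : ∀ k k', k < k' → Disjoint (A k) (A k') := by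
          intro k k' h
          rw [Finset.disjoint_left]
          intro w hw hw'
          have h1 := (hAw k w hw).2
          have h2 := (hAw k' w hw').1
          have h3 := hJ.monotone (show k + 1 ≤ k' from h)
          omega
        intro k _ k' _ hne
        rcases lt_or_gt_of_ne hne with h | h
        · exact key k k' h
        · exact (key k' k h).symm
      · have h1 := (hAw k w hw).1
        have h2 := le_of_max_le_left (le_of_max_le_right (hJge k))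
        rw [Finset.card_range]
        omega
    refine le_trans ?_ (hadm.sum_le B)
    have : (range K).card • δ ≤ ∑ k ∈ range K, |act (∑ w ∈ A k, res (E k) (ψ k w)) B| := by
      apply Finset.card_nsmul_le_sum
      intro k hk
      rw [← res_sum, act_res, hB, res_sum, Finset.sum_eq_single (s := range K) k, res_smul, hE3,
        map_smul,
        smul_eq_mul, abs_mul, hεa, one_mul]
      · exact (hAδ k).le
      · intro k' _ hne
        rw [res_smul, hE4 k k' hne.symm, smul_zero]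
      · intro h
        exact absurd hk h
    rw [Finset.card_range, nsmul_eq_mul, mul_comm] at this
    exact this
  have hp : 0 < NN R B := lt_of_lt_of_le (mul_pos hδ hK3) hlow
  refine ⟨(NN R B)⁻¹ • B, (V T).smul_mem _ ((V T).sum_mem fun k _ =>
    (V T).smul_mem _ (hV.anti (le_max_left _ _) (hu1 k))), ?_, J', ?_, ?_⟩
  · rw [NN_smul, abs_of_pos (inv_pos.2 hp), inv_mul_cancel₀ hp.ne']
  · intro w hw φ hφ
    have h1 : |act φ B| ≤ (range K).card • (4 / (mm w : ℝ)) := by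
      rw [hB, map_sum]
      refine (Finset.abs_sum_le_sum_abs _ _).trans (Finset.sum_le_card_nsmul _ _ _ fun k _ => ?_)
      rw [map_smul, smul_eq_mul, abs_mul, hεa, one_mul]
      exact (hu4 k).2.1 w (hw.trans_le (le_of_max_le_left (hJge k))) φ hφ
    rw [Finset.card_range, nsmul_eq_mul] at h1
    rw [map_smul, smul_eq_mul, abs_mul, abs_of_pos (inv_pos.2 hp), inv_mul_le_iff₀ hp]
    have hm := mm_cast_pos w
    calc |act φ B| ≤ K * (4 / mm w) := h1
      _ = δ * K * (4 / δ / mm w) := by field_simp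
      _ ≤ NN R B * (4 / δ / mm w) := mul_le_mul_of_nonneg_right hlow (by positivity)
  · intro A' ψ' hA' hw'
    have h1 := diag_sf hu2 hN hε hεs hA'
    have h2 : |∑ k ∈ range K, ε k * (act (∑ w ∈ A', ψ' w) (u k) -
        act (∑ w ∈ A'.filter (fun w => J k ≤ w ∧ w < J (k + 1)), ψ' w) (u k))| ≤
        (range K).card • (9 / (mm J' : ℝ)) := by
      refine (Finset.abs_sum_le_sum_abs _ _).trans (Finset.sum_le_card_nsmul _ _ _ fun k _ => ?_)
      rw [abs_mul, hεa, one_mul]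
      exact offdiag_le hA' hw' (hu4 k).2.1 (hu4 k).2.2.2
    rw [Finset.card_range, nsmul_eq_mul] at h2
    simp only [mul_sub, Finset.sum_sub_distrib] at h2
    have h3 : act (∑ w ∈ A', ψ' w) B = ∑ k ∈ range K, ε k * act (∑ w ∈ A', ψ' w) (u k) := by
      rw [hB, map_sum]
      exact Finset.sum_congr rfl fun k _ => by rw [map_smul, smul_eq_mul]
    rw [map_smul, smul_eq_mul, abs_mul, abs_of_pos (inv_pos.2 hp), inv_mul_le_iff₀ hp, h3]
    have h4 := mul_le_mul_of_nonneg_left hJ'' hK3.le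
    have h5 := mul_le_mul_of_nonneg_right hlow hη.le
    rw [abs_le] at h1 h2 ⊢
    constructor <;> nlinarith [h1.1, h1.2, h2.1, h2.2]

end Vale.Agent.P129
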