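import Vale.Agent.P129.Defs

/-!
P129, file Guess: the guessing principle from a non-meagre set of size at most `ℵ₁`.

* `b : Γ → (ℕ → Bool)` is injective (`#Γ = ℵ₁ ≤ 𝔠`).
* For each `lam` the moves below `lam` form a countable set `M lam`; choose surjections
  `dec lam k : ℕ → ((Fin k → Bool) → M lam)` and a surjection `π : Γ → Γ × S × Γ`.
* `μ δ k = dec lam k (r k) (fun i => b δ i)` when `π δ = (lam, r, _)` and `lam ≤ δ`.
* A strategy `H` gives dense open subsets of `ℕ → ℕ`, whose intersection meets `S`.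
-/

namespace Vale.Agent.P129

open Cardinal

theorem guess_countable {Γ : Type} [LinearOrder Γ] {lam : Γ} (hc : (Set.Iio lam).Countable) :
    Countable {x : Mv Γ // MvLt lam x} := by
  have : Countable (Set.Iio lam) := hc
  refine Function.Injective.countable (f := fun x : {x : Mv Γ // MvLt lam x} =>
    ((x.1.1.subtypeDomain (· ∈ Set.Iio lam) : Set.Iio lam →₀ ℚ), x.1.2)) fun x y h => ?_
  obtain ⟨h1, h2⟩ := Prod.mk.inj h
  refine Subtype.ext (Prod.ext (Finsupp.ext fun a => ?_) h2)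
  by_cases ha : a < lam
  · exact DFunLike.congr_fun h1 ⟨a, ha⟩
  · rw [Finsupp.notMem_support_iff.1 fun h => ha (x.2 a h),
      Finsupp.notMem_support_iff.1 fun h => ha (y.2 a h)]

theorem guess_baire {S : Set (ℕ → ℕ)} (hm : ¬ IsMeagre S) (H : ℕ → (ℕ → ℕ) → ℕ)
    (hH : ∀ k r r', (∀ i < k, r i = r' i) → H k r = H k r') :
    ∃ r ∈ S, ∀ n, ∃ k ≥ n, r k = H k r := by
  have h1 : ∀ n, {r : ℕ → ℕ | ∃ k ≥ n, r k = H k r} ∈ residual (ℕ → ℕ) := fun n => by
    refine residual_of_dense_open ?_ ?_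
    · refine isOpen_iff_forall_mem_open.2 ?_
      rintro r ⟨k, hk, e⟩
      refine ⟨PiNat.cylinder r (k + 1), fun r' hr' => ⟨k, hk, ?_⟩, PiNat.isOpen_cylinder _ _ _,
        PiNat.self_mem_cylinder _ _⟩
      rw [hr' k (by omega), e]
      exact hH k _ _ fun i hi => (hr' i (by omega)).symm
    · refine (PiNat.isTopologicalBasis_cylinders fun _ => ℕ).dense_iff.2 ?_
      rintro _ ⟨r, m, rfl⟩ -
      refine ⟨Function.update r (max n m) (H (max n m) r),
        fun i hi => Function.update_of_ne (by omega) _ _, max n m, le_max_left _ _, ?_⟩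
      rw [Function.update_self]
      exact hH _ _ _ fun i hi => (Function.update_of_ne hi.ne _ _).symm
  by_contra h
  refine hm (Filter.mem_of_superset (countable_iInter_mem.2 h1) fun r hr hS => h ⟨r, hS, ?_⟩)
  exact Set.mem_iInter.1 hr

theorem exists_guess (Γ : Type) [LinearOrder Γ] (hc : ∀ b : Γ, (Set.Iio b).Countable)
    (hΓ : Cardinal.mk Γ = Cardinal.aleph 1) (S : Set (ℕ → ℕ))
    (hS : Cardinal.mk S ≤ Cardinal.aleph 1) (hm : ¬ IsMeagre S) :
    ∃ (μ : Γ → ℕ → Mv Γ) (b : Γ → ℕ → Bool), Guess μ b := by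
  obtain ⟨b⟩ : Nonempty (Γ ↪ (ℕ → Bool)) := by
    rw [← Cardinal.le_def, hΓ]
    simpa using aleph_one_le_continuum
  have h0 : ∀ lam : Γ, MvLt lam (0, 0) := fun lam a ha => by simp at ha
  have hdec : ∀ (lam : Γ) (k : ℕ), ∃ d : ℕ → (Fin k → Bool) → {x : Mv Γ // MvLt lam x},
      Function.Surjective d := fun lam k =>
    have := guess_countable (hc lam)
    have : Nonempty {x : Mv Γ // MvLt lam x} := ⟨⟨_, h0 lam⟩⟩
    exists_surjective_nat _
  choose dec hdec using hdec
  have hne : Nonempty Γ := by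
    rw [← mk_ne_zero_iff, hΓ]
    exact (aleph_pos 1).ne'
  have hSne : Nonempty S := by
    rcases S.eq_empty_or_nonempty with rfl | h
    · exact absurd IsMeagre.empty hm
    · exact h.to_subtype
  obtain ⟨π, hπ⟩ : ∃ π : Γ → Γ × S × Γ, Function.Surjective π := by
    obtain ⟨j⟩ : Nonempty (Γ × S × Γ ↪ Γ) := by
      rw [← Cardinal.le_def]
      simp only [mk_prod, lift_id, hΓ]
      calc aleph 1 * (#S * aleph 1) ≤ aleph 1 * (aleph 1 * aleph 1) := by gcongr
        _ = aleph 1 := by rw [mul_eq_self (aleph0_le_aleph 1), mul_eq_self (aleph0_le_aleph 1)]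
    exact ⟨Function.invFun j, Function.invFun_surjective j.injective⟩
  refine ⟨fun δ k => if (π δ).1 ≤ δ then (dec (π δ).1 k ((π δ).2.1.1 k) fun i => b δ i).1
    else (0, 0), b, b.injective, fun δ k => ?_, fun lam β H h1 h2 => ?_⟩
  · split_ifs with h
    · exact fun a ha => ((dec _ _ _ _).2 a ha).trans_le h
    · exact h0 δ
  let ν : (ℕ → ℕ) → (ℕ → Bool) → ℕ → Mv Γ := fun r c k => (dec lam k (r k) fun i => c i).1
  let ext : ∀ k, (Fin k → Bool) → ℕ → Bool := fun k s i => if h : i < k then s ⟨i, h⟩ else false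
  let G : ∀ k, (ℕ → ℕ) → (Fin k → Bool) → {x : Mv Γ // MvLt lam x} := fun k r s =>
    ⟨H k (ν r (ext k s)) (ext k s), h1 _ _ _⟩
  obtain ⟨r, hr, hU⟩ := guess_baire hm (fun k r => Function.surjInv (hdec lam k) (G k r))
    fun k r r' h => congrArg _ (funext fun s => Subtype.ext
      (h2 _ _ _ _ _ (fun i hi => by simp only [ν, h i hi]) fun _ _ => rfl))
  obtain ⟨δ, γ, hδ, e⟩ : ∃ δ γ, max β lam ≤ δ ∧ π δ = (lam, ⟨r, hr⟩, γ) := by
    by_contra h
    have h3 : ∀ γ, Function.surjInv hπ (lam, ⟨r, hr⟩, γ) < max β lam := fun γ =>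
      lt_of_not_ge fun h' => h ⟨_, γ, h', Function.surjInv_eq hπ _⟩
    have : Countable (Set.Iio (max β lam)) := hc _
    have h4 : Countable Γ := Function.Injective.countable
      (f := fun γ => (⟨_, h3 γ⟩ : Set.Iio (max β lam))) fun γ γ' h => by
        simpa using Function.injective_surjInv hπ (Subtype.mk.inj h)
    rw [← mk_le_aleph0_iff, hΓ] at h4
    exact absurd h4 (not_le.2 aleph0_lt_aleph_one)
  have e1 : (fun k => if (π δ).1 ≤ δ then (dec (π δ).1 k ((π δ).2.1.1 k) fun i => b δ i).1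
      else (0, 0)) = ν r (b δ) := by
    funext k
    rw [e, if_pos ((le_max_right _ _).trans hδ)]
  refine ⟨δ, (le_max_left _ _).trans hδ, fun k => ?_, fun n => ?_⟩
  · rw [congrFun e1 k]
    exact (dec _ _ _ _).2
  · obtain ⟨k, hk, e2⟩ := hU n
    refine ⟨k, hk, ?_⟩
    rw [congrFun e1 k, e1]
    have e3 : ∀ i < k, ext k (fun i => b δ i) i = b δ i := fun i hi => dif_pos hi
    show (dec lam k (r k) fun i => b δ i).1 = _
    rw [e2, Function.surjInv_eq (hdec lam k)]
    refine h2 _ _ _ _ _ (fun i hi => ?_) e3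
    exact congrArg (fun s => (dec lam i (r i) s).1) (funext fun j => e3 j (j.2.trans hi))

/-- Under the continuum hypothesis the whole Baire space is a small non-meagre set. -/
theorem exists_nonmeagre_of_CH (h : Cardinal.continuum.{0} = Cardinal.aleph 1) :
    ∃ S : Set (ℕ → ℕ), Cardinal.mk S ≤ Cardinal.aleph 1 ∧ ¬ IsMeagre S := by
  refine ⟨Set.univ, ?_, fun hm => ?_⟩
  · rw [mk_univ, ← h]
    simp
  · have := dense_of_mem_residual hm
    simpa using this.nonempty

end Vale.Agent.P129
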