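import Vale.Agent.P129.Good

/-!
P129, file RIS: exact pairs exist in every block subspace.
-/

namespace Vale.Agent.P129

open Finset

variable {Γ : Type} [LinearOrder Γ] {R : Rho Γ}

theorem hc_small {v : ℕ → Γ →₀ ℝ} {a : ℕ → ℕ} {j : ℕ} {C : ℝ} (hC : 0 ≤ C) (ha : StrictMono a)
    (ha0 : 1 ≤ a 0) (hv : ∀ i, Good R C (1 / (a i * mm j)) (v i))
    (hl : ∀ i, 2 / mm (a (i + 1)) * l1 (v i) ≤ 1 / mm j) {h : Γ →₀ ℚ} (hh : HC R j h) :
    ∃ i₀, ∀ i, i ≠ i₀ → |act h (v i)| ≤ (2 * C + 1) / mm j := by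
  classical
  obtain ⟨s, A, ψ, ε, h1, h2, h3, h4⟩ := hh
  have hm := mm_cast_pos j
  have hεa : ∀ l, |(ε l : ℝ)| = 1 := fun l => by rcases h2 l with h | h <;> simp [h]
  have e : (2 * C + 1) / (mm j : ℝ) = C * (2 / mm j) + 1 / mm j := by ring
  have hhigh : ∀ i, (∀ l ∈ s, ∀ w ∈ A l, a (i + 1) ≤ w) → |act h (v i)| ≤ (2 * C + 1) / mm j := by
    intro i hi
    have h5 : HC R (a (i + 1)) h := ⟨s, A, ψ, ε, h1, h2, hi, h4⟩
    have h6 := (abs_dot_le_l1 h5.coord_le (v i)).trans (hl i)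
    have h7 : 0 ≤ C * (2 / mm j) := by positivity
    rw [e]
    exact h6.trans (by linarith)
  rcases (s.biUnion A).eq_empty_or_nonempty with hW | hW
  · refine ⟨0, fun i _ => hhigh i fun l hl w hw => ?_⟩
    have : w ∈ s.biUnion A := Finset.mem_biUnion.2 ⟨l, hl, hw⟩
    rw [hW] at this
    exact absurd this (Finset.notMem_empty _)
  obtain ⟨w₀, hw₀, hmin⟩ := Finset.exists_min_image _ id hW
  obtain ⟨l₀, hl₀, hw₀'⟩ := Finset.mem_biUnion.1 hw₀
  have hex : ∃ i, w₀ < a (i + 1) := ⟨w₀, lt_of_lt_of_le (Nat.lt_succ_self _) ha.le_apply⟩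
  refine ⟨Nat.find hex, fun i hi => ?_⟩
  rcases lt_or_gt_of_ne hi with hi | hi
  · refine hhigh i fun l hl w hw => ?_
    exact (not_lt.1 (Nat.find_min hex hi)).trans (hmin w (Finset.mem_biUnion.2 ⟨l, hl, hw⟩))
  · have h5 : s.card ≤ a i := by
      have h6 := h1.card l₀ hl₀ w₀ hw₀'
      have h7 := Nat.find_spec hex
      have h8 := ha.monotone (show Nat.find hex + 1 ≤ i from hi)
      omega
    have h6 : (0 : ℝ) < a i := by
      have := ha.monotone (Nat.zero_le i)
      exact_mod_cast (by omega : 0 < a i)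
    obtain ⟨-, J, hav, hhi⟩ := hv i
    have h7 : ∀ l ∈ s, |(ε l : ℝ) * act (∑ w ∈ A l, ψ l w) (v i)| ≤
        1 / (a i * mm j) + ∑ w ∈ A l, C * ((mm w : ℝ))⁻¹ := by
      intro l hl
      rw [abs_mul, hεa, one_mul, ← Finset.sum_filter_add_sum_filter_not (A l) (fun w => J ≤ w),
        act_add]
      refine (abs_add_le _ _).trans (add_le_add (hhi _ _ ((h1.sf l hl).filter_ge J)
        fun w hw => (Finset.mem_filter.1 hw).2) ?_)
      rw [act_sum]
      refine (Finset.abs_sum_le_sum_abs _ _).trans (le_trans (Finset.sum_le_sum fun w hw => ?_)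
        (Finset.sum_le_sum_of_subset_of_nonneg (Finset.filter_subset (fun w => ¬ J ≤ w) (A l))
          fun w _ _ => mul_nonneg hC (inv_pos.2 (mm_cast_pos w)).le))
      rw [Finset.mem_filter, not_le] at hw
      rw [← div_eq_mul_inv]
      exact hav w hw.2 _ ((h1.sf l hl).wt hw.1)
    rw [h4, act_sum]
    simp only [act_smul]
    refine (Finset.abs_sum_le_sum_abs _ _).trans ((Finset.sum_le_sum h7).trans ?_)
    rw [Finset.sum_add_distrib, Finset.sum_const, nsmul_eq_mul,
      ← Finset.sum_biUnion fun l hl l' hl' hne => h1.disj l hl l' hl' hne, ← Finset.mul_sum, e]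
    have h8 := sum_inv_mm_le j (s.biUnion A) fun w hw => by
      obtain ⟨l, hl, hw⟩ := Finset.mem_biUnion.1 hw
      exact h3 l hl w hw
    have h9 := mul_le_mul_of_nonneg_left h8 hC
    have h10 : (s.card : ℝ) * (1 / (a i * mm j)) ≤ 1 / mm j := by
      have h11 : (s.card : ℝ) ≤ a i := by exact_mod_cast h5
      calc (s.card : ℝ) * (1 / (a i * mm j)) ≤ a i * (1 / (a i * mm j)) :=
            mul_le_mul_of_nonneg_right h11 (by positivity)
        _ = 1 / mm j := by field_simp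
    linarith

theorem wt_excess {v : ℕ → Γ →₀ ℝ} {N w : ℕ} {ε X : ℝ} (hε : 0 ≤ ε) (hX : 0 ≤ X) (hs : Succ v)
    (hv : ∀ i, NN R (v i) ≤ 1)
    (hg : ∀ g ∈ GG R, ∑ i ∈ range N, max (|act g (v i)| - ε) 0 ≤ X) {ψ : Γ →₀ ℚ}
    (hψ : Wt (GG R) w ψ) :
    ∑ i ∈ range N, max (|act ψ (v i)| - ε * ((mm w : ℝ))⁻¹) 0 ≤ nn w + nn w * X := by
  classical
  have hmem := hψ.mem
  obtain ⟨n, g, hn, h1, h2, h3⟩ := hψ
  let M : ℕ → ℕ → Prop := fun r i => ∃ a ∈ (v i).support, g r a ≠ 0
  let Bad : ℕ → Prop := fun i => ∃ r r', r < r' ∧ r' < n ∧ M r i ∧ M r' i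
  have hp := inv_pos.2 (mm_cast_pos w)
  have hp1 : ((mm w : ℝ))⁻¹ ≤ 1 := inv_le_one_of_one_le₀ (by exact_mod_cast mm_pos w)
  have hz : ∀ r i, ¬ M r i → act (g r) (v i) = 0 := fun r i h =>
    act_eq_zero fun a ha => by
      by_contra hne
      exact h ⟨a, ha, hne⟩
  have hpt : ∀ i, max (|act ψ (v i)| - ε * ((mm w : ℝ))⁻¹) 0 ≤
      (if Bad i then 1 else 0) + ∑ r ∈ range n, max (|act (g r) (v i)| - ε) 0 := by
    intro i
    have h0 : 0 ≤ ∑ r ∈ range n, max (|act (g r) (v i)| - ε) 0 :=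
      Finset.sum_nonneg fun _ _ => le_max_right _ _
    have h00 : 0 ≤ ε * ((mm w : ℝ))⁻¹ := by positivity
    split_ifs with hb
    · have := (abs_act_le_NN hmem (v i)).trans (hv i)
      exact max_le (by linarith) (by linarith)
    · rw [zero_add]
      refine max_le ?_ h0
      have e : act ψ (v i) = ((mm w : ℝ))⁻¹ * ∑ r ∈ range n, act (g r) (v i) := by
        rw [h3, act_smul, act_sum]
        push_cast
        rfl
      by_cases hex : ∃ r < n, M r i
      · obtain ⟨r, hr, hM⟩ := hex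
        rw [e, Finset.sum_eq_single r]
        · have h4 : max (|act (g r) (v i)| - ε) 0 ≤
              ∑ r ∈ range n, max (|act (g r) (v i)| - ε) 0 :=
            Finset.single_le_sum (f := fun r => max (|act (g r) (v i)| - ε) 0)
              (fun _ _ => le_max_right _ _) (Finset.mem_range.2 hr)
          rw [abs_mul, abs_of_pos hp]
          have h5 := le_max_left (|act (g r) (v i)| - ε) 0
          have h6 := le_max_right (|act (g r) (v i)| - ε) 0
          nlinarith
        · intro r' hr' hne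
          apply hz
          intro hM'
          rcases lt_or_gt_of_ne hne with h | h
          · exact hb ⟨r', r, h, hr, hM', hM⟩
          · exact hb ⟨r, r', h, Finset.mem_range.1 hr', hM, hM'⟩
        · intro h
          exact absurd (Finset.mem_range.2 hr) h
      · push Not at hex
        rw [e, Finset.sum_eq_zero fun r hr => hz r i (hex r (Finset.mem_range.1 hr))]
        simp only [mul_zero, abs_zero]
        linarith
  have hcard : ((range N).filter Bad).card ≤ (range n).card := by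
    have hch : ∀ i, ∃ r r', Bad i → r < r' ∧ r' < n ∧ M r i ∧ M r' i := by
      intro i
      by_cases hb : Bad i
      · obtain ⟨r, r', h⟩ := hb
        exact ⟨r, r', fun _ => h⟩
      · exact ⟨0, 0, fun h => absurd h hb⟩
    choose f f' hf using hch
    have key : ∀ i i', Bad i → Bad i' → i < i' → f i < f i' := by
      intro i i' hi hi' hlt
      obtain ⟨a1, a2, -, a, ha, ha'⟩ := hf i hi
      obtain ⟨-, -, ⟨b, hb, hb'⟩, -⟩ := hf i' hi'
      by_contra hne
      have h4 := h2 (f i') (f' i) (by omega) a2 b (Finsupp.mem_support_iff.2 hb') a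
        (Finsupp.mem_support_iff.2 ha')
      exact lt_asymm h4 (hs i i' hlt a ha b hb)
    apply Finset.card_le_card_of_injOn f
    · intro i hi
      have := hf i (Finset.mem_filter.1 hi).2
      simp only [Finset.coe_range, Set.mem_Iio]
      omega
    · intro i hi i' hi' he
      have b1 := (Finset.mem_filter.1 hi).2
      have b2 := (Finset.mem_filter.1 hi').2
      rcases lt_trichotomy i i' with h | h | h
      · exact absurd he (key i i' b1 b2 h).ne
      · exact h
      · exact absurd he (key i' i b2 b1 h).ne'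
  refine (Finset.sum_le_sum fun i _ => hpt i).trans ?_
  rw [Finset.sum_add_distrib, Finset.sum_boole, Finset.sum_comm]
  have h4 : ∑ r ∈ range n, ∑ i ∈ range N, max (|act (g r) (v i)| - ε) 0 ≤ (range n).card • X :=
    Finset.sum_le_card_nsmul _ _ _ fun r hr => hg _ (h1 r (Finset.mem_range.1 hr))
  rw [Finset.card_range] at hcard
  rw [Finset.card_range, nsmul_eq_mul] at h4
  have h5 : (n : ℝ) ≤ nn w := by exact_mod_cast hn
  have h6 : (((range N).filter Bad).card : ℝ) ≤ n := by exact_mod_cast hcard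
  have h7 := mul_le_mul_of_nonneg_right h5 hX
  linarith

theorem sum_excess_le_one {x : ℕ → ℝ} {ε : ℝ} (hε : 0 ≤ ε) (N i₀ : ℕ) (h1 : |x i₀| ≤ 1)
    (h2 : ∀ i, i ≠ i₀ → |x i| ≤ ε) : ∑ i ∈ range N, max (|x i| - ε) 0 ≤ 1 := by
  classical
  have h3 : ∀ i ∈ range N, max (|x i| - ε) 0 ≤ if i = i₀ then 1 else 0 := by
    intro i _
    split_ifs with h
    · rw [h]; exact max_le (by linarith) zero_le_one
    · exact max_le (by linarith [h2 i h]) le_rfl
  refine (Finset.sum_le_sum h3).trans ?_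
  rw [Finset.sum_ite_eq']
  split_ifs
  · exact le_rfl
  · exact zero_le_one

theorem excess_le {v : ℕ → Γ →₀ ℝ} {j N : ℕ} {κ : ℝ} (hκ : 0 ≤ κ) (hs : Succ v)
    (hv : ∀ i, NN R (v i) ≤ 1)
    (hh : ∀ h, HC R j h → ∃ i₀, ∀ i, i ≠ i₀ → |act h (v i)| ≤ κ) (d : ℕ) (ε : ℝ)
    (hε : 2 * κ ≤ ε) (hd : 1 ≤ ε * 2 ^ d) {g : Γ →₀ ℚ} (hg : g ∈ GG R) :
    ∑ i ∈ range N, max (|act g (v i)| - ε) 0 ≤ (1 + 2 * (SS j : ℝ)) ^ d := by
  classical
  have hS : (0 : ℝ) ≤ SS j := Nat.cast_nonneg _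
  induction d generalizing ε g with
  | zero =>
    rw [pow_zero, mul_one] at hd
    rw [pow_zero]
    exact sum_excess_le_one (by linarith) N 0 ((abs_act_le_NN hg _).trans (hv _))
      fun i _ => ((abs_act_le_NN hg _).trans (hv _)).trans hd
  | succ d ih =>
    have hε0 : 0 ≤ ε := by linarith
    have hX : 1 ≤ (1 + 2 * (SS j : ℝ)) ^ d := one_le_pow₀ (by linarith)
    rcases GG_cases hg with ⟨a, ha⟩ | hc
    · have hz : ∀ i, a ∉ (v i).support → |act g (v i)| ≤ ε := by
        intro i hi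
        rw [Finsupp.notMem_support_iff] at hi
        rcases ha with h | h <;> rw [h, act_single, hi] <;> simpa using hε0
      have h1 : ∃ i₀, ∀ i, i ≠ i₀ → |act g (v i)| ≤ ε := by
        by_cases hex : ∃ i₀, a ∈ (v i₀).support
        · obtain ⟨i₀, hi₀⟩ := hex
          refine ⟨i₀, fun i hi => hz i fun h => ?_⟩
          rcases lt_or_gt_of_ne hi with h' | h'
          · exact lt_irrefl _ (hs i i₀ h' a h a hi₀)
          · exact lt_irrefl _ (hs i₀ i h' a hi₀ a h)
        · exact ⟨0, fun i _ => hz i fun h => hex ⟨i, h⟩⟩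
      obtain ⟨i₀, h1⟩ := h1
      exact (sum_excess_le_one hε0 N i₀ ((abs_act_le_NN hg _).trans (hv _)) h1).trans
        (one_le_pow₀ (by linarith))
    · obtain ⟨ψ, h, hψ, hh', rfl⟩ := split_comb hc j
      obtain ⟨i₀, hi₀⟩ := hh h hh'
      have h1 := sum_excess_le_one (x := fun i => act h (v i)) (ε := ε / 2) (by linarith) N i₀
        ((abs_act_le_NN hh'.mem _).trans (hv _)) fun i hi => (hi₀ i hi).trans (by linarith)
      have h2 : ∀ w ∈ range j, ∑ i ∈ range N, max (|act (ψ w) (v i)| - 2 * ε * ((mm w : ℝ))⁻¹) 0 ≤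
          nn w + nn w * (1 + 2 * (SS j : ℝ)) ^ d := fun w _ =>
        wt_excess (by linarith) (by linarith) hs hv
          (fun g hg => ih (2 * ε) (by linarith) (by rw [pow_succ] at hd; linarith) hg) (hψ w)
      have h3 : ∀ i ∈ range N, max (|act (∑ w ∈ range j, ψ w + h) (v i)| - ε) 0 ≤
          max (|act h (v i)| - ε / 2) 0 +
            ∑ w ∈ range j, max (|act (ψ w) (v i)| - 2 * ε * ((mm w : ℝ))⁻¹) 0 := by
        intro i _
        refine max_le ?_ (add_nonneg (le_max_right _ _)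
          (Finset.sum_nonneg fun _ _ => le_max_right _ _))
        have a1 : ∑ w ∈ range j, (|act (ψ w) (v i)| - 2 * ε * ((mm w : ℝ))⁻¹) ≤
            ∑ w ∈ range j, max (|act (ψ w) (v i)| - 2 * ε * ((mm w : ℝ))⁻¹) 0 :=
          Finset.sum_le_sum fun _ _ => le_max_left _ _
        rw [Finset.sum_sub_distrib, ← Finset.mul_sum] at a1
        have a2 := sum_inv_mm_le 0 (range j) fun _ _ => Nat.zero_le _
        have a3 : (2 : ℝ) / mm 0 = 1 / 4 := by norm_num [mm]
        rw [a3] at a2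
        have a4 := mul_le_mul_of_nonneg_left a2 (by linarith : 0 ≤ 2 * ε)
        have a5 := le_max_left (|act h (v i)| - ε / 2) 0
        have a6 := Finset.abs_sum_le_sum_abs (fun w => act (ψ w) (v i)) (range j)
        rw [act_add, act_sum]
        have a7 := abs_add_le (∑ w ∈ range j, act (ψ w) (v i)) (act h (v i))
        linarith
      refine (Finset.sum_le_sum h3).trans ?_
      rw [Finset.sum_add_distrib, Finset.sum_comm]
      have h4 := Finset.sum_le_sum h2
      rw [Finset.sum_add_distrib, ← Finset.sum_mul, ← Nat.cast_sum, ← SS_eq] at h4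
      rw [pow_succ]
      nlinarith

theorem exists_exact {V : ℕ → Submodule ℝ (Γ →₀ ℝ)} (hV : Blocks V) (R : Rho Γ) :
    ∃ C : ℝ, 0 < C ∧ ∀ T j, ∃ y ∈ V T, ∃ φ, Wt (GG R) j φ ∧ NN R y ≤ C ∧ 1 ≤ act φ y := by
  obtain ⟨C, hC, hgood⟩ := exists_good hV R
  refine ⟨2 * (4 * C + 3), by positivity, fun T j => ?_⟩
  have hm := mm_cast_pos j
  obtain ⟨v, a, ha0, ha, hv1, hv2, hv3, -⟩ := hV.seq R T 1
    (fun a v a' => (1 ≤ a → Good R C (1 / (a * mm j)) v) ∧ 2 / mm a' * l1 v ≤ 1 / mm j) (by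
    intro T a
    obtain ⟨v, hv, hv'⟩ := hgood (1 / ((max a 1 : ℕ) * mm j)) (by
      have : (0 : ℝ) < (max a 1 : ℕ) := by exact_mod_cast (by omega : 0 < max a 1)
      positivity) T
    obtain ⟨J', hJ'⟩ := exists_l1_small v (c := 1 / mm j) (one_div_pos.2 hm)
    exact ⟨v, hv, J', fun J'' h => ⟨fun h1 => by rwa [max_eq_left h1] at hv', hJ' J'' h⟩⟩)
  have hg : ∀ i, Good R C (1 / (a i * mm j)) (v i) := fun i =>
    (hv3 i).1 (ha0 ▸ ha.monotone (Nat.zero_le i))
  have hN : ∀ i, NN R (v i) ≤ 1 := fun i => (hg i).1.le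
  have hn : (0 : ℝ) < nn j := by exact_mod_cast nn_pos j
  have e : (nn j : ℝ) = mm j * (1 + 2 * (SS j : ℝ)) ^ (j + 3) := by unfold nn; push_cast; ring
  have hup : NN R (∑ i ∈ range (nn j), v i) ≤ (4 * C + 3) * nn j / mm j := by
    apply NN_le
    intro g hg'
    have h1 := excess_le (N := nn j) (κ := (2 * C + 1) / mm j) (by positivity) hv2 hN
      (fun h hh => hc_small hC ha ha0.ge hg (fun i => (hv3 i).2) hh) (j + 3) _ le_rfl (by
        have : (2 : ℝ) ^ (j + 3) = mm j := by unfold mm; push_cast; rfl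
        rw [this]
        have : 2 * ((2 * C + 1) / (mm j : ℝ)) * mm j = 2 * (2 * C + 1) := by field_simp
        rw [this]
        linarith) hg'
    have h2 : ∑ i ∈ range (nn j), (|act g (v i)| - 2 * ((2 * C + 1) / mm j)) ≤
        ∑ i ∈ range (nn j), max (|act g (v i)| - 2 * ((2 * C + 1) / mm j)) 0 :=
      Finset.sum_le_sum fun _ _ => le_max_left _ _
    rw [Finset.sum_sub_distrib, Finset.sum_const, Finset.card_range, nsmul_eq_mul] at h2
    rw [map_sum]
    refine (Finset.abs_sum_le_sum_abs _ _).trans ?_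
    have h3 : (4 * C + 3) * nn j / mm j =
        nn j * (2 * ((2 * C + 1) / mm j)) + (1 + 2 * (SS j : ℝ)) ^ (j + 3) := by
      rw [e]
      field_simp
      ring
    linarith
  obtain ⟨φ, hφ, h⟩ := exists_wt_blocks (R := R) (le_refl (nn j)) hv2
  simp only [fun i => (hg i).1, Finset.sum_const, Finset.card_range, nsmul_eq_mul, mul_one] at h
  have hp : (0 : ℝ) < 2 * mm j / nn j := by positivity
  refine ⟨(2 * mm j / nn j : ℝ) • ∑ i ∈ range (nn j), v i,
    (V T).smul_mem _ ((V T).sum_mem fun i _ => hv1 i), φ, hφ, ?_, ?_⟩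
  · rw [NN_smul, abs_of_pos hp]
    calc _ ≤ 2 * mm j / nn j * ((4 * C + 3) * nn j / mm j) := mul_le_mul_of_nonneg_left hup hp.le
      _ = 2 * (4 * C + 3) := by field_simp
  · rw [map_smul, smul_eq_mul, div_mul_eq_mul_div, le_div_iff₀ hn, one_mul]
    exact h

end Vale.Agent.P129
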