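import Vale.Agent.P129.Tail
import Vale.Agent.P129.RIS

/-!
P129, file Kill: a guessed branch gives a functional which is not null along a given filtration.

Plan for `kill`.  Let `C` come from `exists_exact`.  For `k`, a weight `j` and `ξ : Γ → ℝ` let
`Q k j ξ x` (for a move `x`) say: `MvLt lam x`, `Wt (GG R) j x.1`, and some `y ∈ V k` has `NN y ≤ C`,
`1 ≤ act x.1 y`, `|dot ξ y| ≤ 1 / 8`, `6 / mm x.2 * l1 y ≤ 1 / 8`.  If `Null (NN R) V ξ` then such `x`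
exists (take `y ∈ V (max k T)`, restrict the functional to `Iio lam`).  Put
`H k ν c = ` a choice of `x` with `Q k (pw R ν c k) (∑ i < k, cpl t (pf R ν c i) (κ ..)) x` when there is
one, else `(0, 0)`; it is local by `pw_local`, `pf_local`.  `Guess.hit` with `max β lam` gives `δ`.
All `pf` of `δ` live below `lam`, so the initial sums of `cpl` lie in the span of the `xx t ζ`,
`ζ < lam` (`cpl_mem_span`), which are null (null functions form a subspace).  At a guessed `k` with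
`2 C / mm k ≤ 1 / 8`: `dot (xx t δ) y = y δ + ∑ i < k, .. + cpl (φ k) y + t δ (k+1) y ≥ 1 - 3 / 8`
(`tail_zero_eq`, `cpl_sub_le`, `tail_coord_le`, `lt_pw_succ`), which contradicts nullness with
`ε = 1 / (4 C)` for `k ≥ T`.
-/

namespace Vale.Agent.P129

open Finset

variable {Γ : Type} [LinearOrder Γ] [WellFoundedLT Γ]

omit [WellFoundedLT Γ] in
theorem kill_null_span {R : Rho Γ} {V : ℕ → Submodule ℝ (Γ →₀ ℝ)} (hV : Blocks V)
    {A : Set (Γ → ℝ)} (hA : ∀ ξ ∈ A, Null (NN R) V ξ) {ξ : Γ → ℝ}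
    (hξ : ξ ∈ Submodule.span ℝ A) : Null (NN R) V ξ := by
  induction hξ using Submodule.span_induction with
  | mem x hx => exact hA x hx
  | zero =>
    intro ε hε
    refine ⟨0, fun y _ => ?_⟩
    rw [dot_zero, abs_zero]
    exact mul_nonneg hε.le (NN_nonneg y)
  | add x x' _ _ h1 h2 =>
    intro ε hε
    obtain ⟨T, hT⟩ := h1 (ε / 2) (by positivity)
    obtain ⟨T', hT'⟩ := h2 (ε / 2) (by positivity)
    refine ⟨max T T', fun y hy => ?_⟩
    have h3 := hT y (hV.anti (le_max_left _ _) hy)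
    have h4 := hT' y (hV.anti (le_max_right _ _) hy)
    rw [dot_add]
    exact (abs_add_le _ _).trans (by linarith)
  | smul c x _ h1 =>
    intro ε hε
    have hc : 0 < |c| + 1 := by positivity
    obtain ⟨T, hT⟩ := h1 (ε / (|c| + 1)) (by positivity)
    refine ⟨T, fun y hy => ?_⟩
    have h3 := hT y hy
    have h4 := NN_nonneg (R := R) y
    rw [dot_smul, abs_mul]
    calc |c| * |dot x y| ≤ (|c| + 1) * (ε / (|c| + 1) * NN R y) :=
          mul_le_mul (by linarith) h3 (abs_nonneg _) hc.le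
      _ = ε * NN R y := by field_simp

/-- The moves which the game wants to see. -/
def killQ (R : Rho Γ) (V : ℕ → Submodule ℝ (Γ →₀ ℝ)) (lam : Γ) (C : ℝ) (k j : ℕ) (ξ : Γ → ℝ)
    (x : Mv Γ) : Prop :=
  MvLt lam x ∧ Wt (GG R) j x.1 ∧ ∃ y ∈ V k, NN R y ≤ C ∧ 1 ≤ act x.1 y ∧ |dot ξ y| ≤ 1 / 8 ∧
    6 / mm x.2 * l1 y ≤ 1 / 8

omit [WellFoundedLT Γ] in
theorem killQ_exists {R : Rho Γ} {V : ℕ → Submodule ℝ (Γ →₀ ℝ)} (hV : Blocks V) {lam : Γ}
    (hlam : ∀ T, ∀ y ∈ V T, ∀ a ∈ y.support, a < lam) {C : ℝ} (hC : 0 < C)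
    (hex : ∀ T j, ∃ y ∈ V T, ∃ φ, Wt (GG R) j φ ∧ NN R y ≤ C ∧ 1 ≤ act φ y) (k j : ℕ)
    {ξ : Γ → ℝ} (hξ : Null (NN R) V ξ) : ∃ x, killQ R V lam C k j ξ x := by
  obtain ⟨T, hT⟩ := hξ (1 / (8 * C)) (by positivity)
  obtain ⟨y, hy, φ, h1, h2, h3⟩ := hex (max k T) j
  obtain ⟨n, hn⟩ := exists_nat_ge (48 * l1 y)
  refine ⟨(res (Set.Iio lam) φ, n), fun a ha => (mem_support_res.1 ha).1,
    h1.res Set.ordConnected_Iio, y, hV.anti (le_max_left _ _) hy, h2, ?_, ?_, ?_⟩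
  · show 1 ≤ act (res (Set.Iio lam) φ) y
    rw [act_res, res_eq_self (E := Set.Iio lam) (hlam _ y hy)]
    exact h3
  · refine (hT y (hV.anti (le_max_right _ _) hy)).trans ?_
    calc 1 / (8 * C) * NN R y ≤ 1 / (8 * C) * C := by gcongr
      _ = 1 / 8 := by field_simp
  · show 6 / (mm n : ℝ) * l1 y ≤ 1 / 8
    have h4 : (n : ℝ) < mm n := by exact_mod_cast lt_mm n
    rw [div_mul_eq_mul_div, div_le_iff₀ (mm_cast_pos n)]
    linarith

theorem kill (R : Rho Γ) {μ : Γ → ℕ → Mv Γ} {b : Γ → ℕ → Bool} (hG : Guess μ b)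
    {κ : Finset Γ → ℕ} {t : Γ → ℕ → Γ → ℝ}
    (hT : Tails (fun δ => pw R (μ δ) (b δ)) (fun δ => pf R (μ δ) (b δ)) κ t)
    (V : ℕ → Submodule ℝ (Γ →₀ ℝ)) (lam β : Γ) (hV : Blocks V)
    (hlam : ∀ T, ∀ y ∈ V T, ∀ a ∈ y.support, a < lam)
    (hnull : ∀ ζ < lam, Null (NN R) V (xx t ζ)) :
    ∃ δ, β ≤ δ ∧ (∀ a, lam ≤ a → a ≠ δ → xx t δ a = 0) ∧ ¬ Null (NN R) V (xx t δ) := by
  classical
  have hB := branches_of_guess R hG
  obtain ⟨C, hC, hex⟩ := exists_exact hV R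
  let H' : ℕ → ℕ → (Γ → ℝ) → Mv Γ := fun k j ξ =>
    if h : ∃ x, killQ R V lam C k j ξ x then Classical.choose h else (0, 0)
  have hH1 : ∀ k j ξ, MvLt lam (H' k j ξ) := by
    intro k j ξ
    by_cases h : ∃ x, killQ R V lam C k j ξ x
    · simp only [H', dif_pos h]
      exact (Classical.choose_spec h).1
    · simp only [H', dif_neg h]
      intro a ha
      simp at ha
  have hH2 : ∀ k j ξ, Null (NN R) V ξ → killQ R V lam C k j ξ (H' k j ξ) := by
    intro k j ξ hξ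
    have h := killQ_exists hV hlam hC hex k j hξ
    simp only [H', dif_pos h]
    exact Classical.choose_spec h
  obtain ⟨δ, hδ, hμ, hit⟩ := hG.hit lam (max β lam) (fun k ν c => H' k (pw R ν c k)
    (∑ i ∈ range k, cpl t (pf R ν c i) (κ (pf R ν c i).support))) (fun k ν c => hH1 _ _ _)
    (fun k ν ν' c c' hν hc => by
      rw [pw_local hν hc, Finset.sum_congr rfl fun i hi => by
        rw [pf_local hν hc i (Finset.mem_range.1 hi)]])
  have hlt : ∀ k, ∀ θ ∈ (pf R (μ δ) (b δ) k).support, θ < lam := fun k θ hθ =>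
    hμ k θ (pf_support R _ _ k hθ)
  refine ⟨δ, le_of_max_le_left hδ, fun a ha hne => ?_, fun hn => ?_⟩
  · show (Pi.single δ (1 : ℝ) : Γ → ℝ) a + t δ 0 a = 0
    rw [Pi.single_eq_of_ne hne, tail_eq_zero_of_lt hB hT hlt ha, add_zero]
  obtain ⟨T, hT'⟩ := hn (1 / (4 * C)) (by positivity)
  obtain ⟨n, hn⟩ := exists_nat_ge (16 * C)
  obtain ⟨k, hk, hkμ⟩ := hit (max T n)
  have hS : Null (NN R) V
      (∑ i ∈ range k, cpl t (pf R (μ δ) (b δ) i) (κ (pf R (μ δ) (b δ) i).support)) := by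
    refine kill_null_span hV (A := xx t '' Set.Iio lam) ?_ (Submodule.sum_mem _ fun i _ =>
      cpl_mem_span hB hT (isLowerSet_Iio lam) (hlt i) _)
    rintro _ ⟨ζ, hζ, rfl⟩
    exact hnull ζ hζ
  have hQ := hH2 k (pw R (μ δ) (b δ) k) _ hS
  rw [← hkμ] at hQ
  obtain ⟨-, hw, y, hy, h1, h2, h3, h4⟩ := hQ
  have hpf : pf R (μ δ) (b δ) k = (μ δ k).1 := by rw [pf_eq, if_pos hw]
  have hy0 : y δ = 0 := by
    by_contra h
    exact absurd (hlam k y hy δ (Finsupp.mem_support_iff.2 h))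
      (not_lt.2 (le_of_max_le_right hδ))
  have e1 := tail_zero_eq hB hT δ k
  have e2 := tail_succ hB hT δ k
  have e3 : dot (xx t δ) y =
      dot (∑ i ∈ range k, cpl t (pf R (μ δ) (b δ) i) (κ (pf R (μ δ) (b δ) i).support)) y +
      (dot (cpl t (pf R (μ δ) (b δ) k) (κ (pf R (μ δ) (b δ) k).support)) y +
        dot (t δ (k + 1)) y) := by
    unfold xx
    rw [dot_add, dot_pi_single, hy0, zero_add, e1, dot_add, e2, dot_add]
  have h5 := cpl_sub_le hB hT (hT.cut (pf R (μ δ) (b δ) k).support) (hB.wt δ k).coord_le y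
  have h6 := abs_dot_le_l1 (tail_coord_le hB hT δ (k + 1)) y
  have h7 : (mm (μ δ k).2 : ℝ) ≤ mm (pw R (μ δ) (b δ) (k + 1)) := by
    exact_mod_cast mm_mono (lt_pw_succ R (μ δ) (b δ) k).le
  have h8 : 6 / (mm (pw R (μ δ) (b δ) (k + 1)) : ℝ) * l1 y ≤ 6 / mm (μ δ k).2 * l1 y := by
    have := l1_nonneg y
    have := mm_cast_pos (μ δ k).2
    gcongr
  have h9 : 16 * C ≤ (mm (pw R (μ δ) (b δ) k) : ℝ) := by
    have a1 : n ≤ mm (pw R (μ δ) (b δ) k) :=
      ((le_of_max_le_right hk).trans ((hB.strictMono δ).id_le k)).trans (lt_mm _).le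
    exact hn.trans (by exact_mod_cast a1)
  have h10 : 2 * (mm (pw R (μ δ) (b δ) k) : ℝ)⁻¹ * NN R y ≤ 1 / 8 := by
    have a1 := mm_cast_pos (pw R (μ δ) (b δ) k)
    rw [mul_right_comm, ← div_eq_mul_inv, div_le_iff₀ a1]
    linarith
  have h11 := hT' y (hV.anti (le_of_max_le_left hk) hy)
  have h12 : 1 / (4 * C) * NN R y ≤ 1 / 4 := by
    calc 1 / (4 * C) * NN R y ≤ 1 / (4 * C) * C := by gcongr
      _ = 1 / 4 := by field_simp
  rw [← hpf] at h2
  have h13 := (abs_le.1 (h5.trans h10)).1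
  have h14 := (abs_le.1 ((h6.trans h8).trans h4)).1
  have h15 := (abs_le.1 h3).1
  have h16 := (abs_le.1 (h11.trans h12)).2
  linarith

theorem exists_frame (R : Rho Γ) {μ : Γ → ℕ → Mv Γ} {b : Γ → ℕ → Bool} (hG : Guess μ b) :
    ∃ (N : (Γ →₀ ℝ) → ℝ) (x : Γ → Γ → ℝ), Frame N x := by
  have hB := branches_of_guess R hG
  obtain ⟨κ, t, hT⟩ := hB.exists_tails
  refine ⟨NN R, xx t, NN_add, NN_smul, coord_le_NN, fun E z hE => NN_res_le hE z, NN_low,
    fun δ => ?_, fun δ a h => ?_, xx_bd hB hT, xx_norming hB hT,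
    fun V lam β hV hlam hnull => kill R hG hT V lam β hV hlam hnull⟩
  · show (Pi.single δ (1 : ℝ) : Γ → ℝ) δ + t δ 0 δ = 1
    rw [Pi.single_eq_same, tail_eq_zero hB hT le_rfl, add_zero]
  · show (Pi.single δ (1 : ℝ) : Γ → ℝ) a + t δ 0 a = 0
    rw [Pi.single_eq_of_ne h.ne', tail_eq_zero hB hT h.le, add_zero]

end Vale.Agent.P129
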