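import Vale.Agent.P129.Defs

/-!
P129, file RhoEx: existence of a rho function, and the index set `ω₁`.

`ρ α β = f β α` is defined by well-founded recursion on `β`.  For `β` with nonempty `Iio β` choose
a monotone cofinal `B k < β`, put `n k = k + max_{i, i' ≤ k} ρ (B i) (B i')`, `k(α) = ` least `k`
with `α ≤ B k`, and `ρ α β = max (n (k α)) (ρ α (B (k α)))` for `α < β`, `ρ α β = 0` for `β ≤ α`.
-/

namespace Vale.Agent.P129

open Finset

theorem rhoEx_cof {Γ : Type} [LinearOrder Γ] (hc : ∀ b : Γ, (Set.Iio b).Countable) (β : Γ) :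
    ∃ B : ℕ → Γ, Monotone B ∧ ∀ α < β, (∀ k, B k < β) ∧ ∃ k, α ≤ B k := by
  rcases (Set.Iio β).eq_empty_or_nonempty with h | h
  · exact ⟨fun _ => β, monotone_const, fun α hα => absurd (h ▸ hα : α ∈ (∅ : Set Γ)) id⟩
  · obtain ⟨e, he⟩ := (hc β).exists_eq_range h
    have h1 : ∀ k, e k < β := fun k => (he ▸ Set.mem_range_self k : e k ∈ Set.Iio β)
    refine ⟨partialSups e, (partialSups e).monotone, fun α hα => ⟨fun k => ?_, ?_⟩⟩
    · induction k with
      | zero => simpa using h1 0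
      | succ k ih => rw [partialSups_add_one]; exact max_lt ih (h1 _)
    · obtain ⟨k, rfl⟩ : α ∈ Set.range e := he ▸ hα
      exact ⟨k, le_partialSups e k⟩

theorem exists_rho (Γ : Type) [LinearOrder Γ] [WellFoundedLT Γ]
    (hc : ∀ b : Γ, (Set.Iio b).Countable) : Nonempty (Rho Γ) := by
  choose B hB1 hB2 using rhoEx_cof hc
  let K : Γ → Γ → ℕ := fun β α => sInf {k | α ≤ B β k}
  have hK1 : ∀ {β α}, α < β → α ≤ B β (K β α) := fun {β α} h => Nat.sInf_mem (hB2 β α h).2
  have hK2 : ∀ {β α k}, α ≤ B β k → K β α ≤ k := fun h => Nat.sInf_le h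
  let F : ∀ β : Γ, (∀ γ, γ < β → Γ → ℕ) → Γ → ℕ := fun β ih α =>
    if h : α < β then max (K β α + (range (K β α + 1) ×ˢ range (K β α + 1)).sup fun x =>
      ih (B β x.2) ((hB2 β α h).1 _) (B β x.1)) (ih (B β (K β α)) ((hB2 β α h).1 _) α) else 0
  obtain ⟨f, hf⟩ : ∃ f : Γ → Γ → ℕ, ∀ β, f β = F β fun γ _ => f γ :=
    ⟨(wellFounded_lt (α := Γ)).fix F, fun β => WellFounded.fix_eq _ _ _⟩
  let n : Γ → ℕ → ℕ := fun β k =>
    k + (range (k + 1) ×ˢ range (k + 1)).sup fun x => f (B β x.2) (B β x.1)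
  have e1 : ∀ {β α}, α < β → f β α = max (n β (K β α)) (f (B β (K β α)) α) := fun {β α} h => by
    rw [hf β]
    exact dif_pos h
  have e0 : ∀ β, f β β = 0 := fun β => by
    rw [hf β]
    exact dif_neg (lt_irrefl β)
  have n1 : ∀ β, Monotone (n β) := fun β k k' h =>
    Nat.add_le_add h (sup_mono (product_subset_product (range_subset_range.2 (by omega))
      (range_subset_range.2 (by omega))))
  have n2 : ∀ β i k, i ≤ k → f (B β k) (B β i) ≤ n β k := fun β i k h =>
    (le_sup (f := fun x : ℕ × ℕ => f (B β x.2) (B β x.1)) (b := (i, k))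
      (by simp only [mem_product, mem_range]; omega)).trans (Nat.le_add_left _ _)
  have key : ∀ c, (∀ a b, a ≤ b → b ≤ c →
      f c a ≤ max (f b a) (f c b) ∧ f b a ≤ max (f c a) (f c b)) ∧
        ∀ N, {a | a ≤ c ∧ f c a ≤ N}.Finite := by
    intro c
    induction c using WellFoundedLT.induction with | ind c ih => ?_
    refine ⟨fun a b hab hbc => ?_, fun N => ?_⟩
    · rcases hbc.eq_or_lt with rfl | hbc
      · exact ⟨le_max_left _ _, le_max_left _ _⟩
      rcases hab.eq_or_lt with rfl | hab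
      · exact ⟨le_max_right _ _, by rw [e0]; exact Nat.zero_le _⟩
      have hac := hab.trans hbc
      have hk : K c a ≤ K c b := hK2 (hab.le.trans (hK1 hbc))
      have hlt := (hB2 c b hbc).1 (K c b)
      obtain ⟨a1, a2⟩ := (ih _ hlt).1 a _ (hK1 hac) (hB1 c hk)
      obtain ⟨a3, a4⟩ := (ih _ hlt).1 a b hab.le (hK1 hbc)
      have a5 := n1 c hk
      have a6 := n2 c _ _ hk
      rw [e1 hac, e1 hbc]
      omega
    · refine ((Set.finite_singleton c).union ((Set.finite_Iic N).biUnion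
        (t := fun k => {a | B c k < c ∧ a ≤ B c k ∧ f (B c k) a ≤ N}) fun k _ => ?_)).subset ?_
      · by_cases h : B c k < c
        · exact ((ih _ h).2 N).subset fun a ha => ha.2
        · exact Set.finite_empty.subset fun a ha => h ha.1
      · rintro a ⟨h1, h2⟩
        rcases h1.eq_or_lt with rfl | h1
        · exact Or.inl rfl
        · rw [e1 h1, max_le_iff] at h2
          exact Or.inr (Set.mem_biUnion (x := K c a) ((Nat.le_add_right _ _).trans h2.1)
            ⟨(hB2 c a h1).1 _, hK1 h1, h2.2⟩)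
  exact ⟨⟨fun a b => f b a, e0, fun a b c h1 h2 => ((key c).1 a b h1 h2).1,
    fun a b c h1 h2 => ((key c).1 a b h1 h2).2, fun b N => (key b).2 N⟩⟩

theorem exists_omega1 : ∃ (Γ : Type) (_ : LinearOrder Γ), WellFoundedLT Γ ∧
    Cardinal.mk Γ = Cardinal.aleph 1 ∧ (∀ b : Γ, (Set.Iio b).Countable) ∧
    ∀ f : ℕ → Γ, ∃ β, ∀ n, f n < β := by
  have h1 : Cardinal.mk (Cardinal.aleph 1).ord.ToType = Cardinal.aleph 1 :=
    Cardinal.mk_ord_toType _
  have h2 : ∀ b : (Cardinal.aleph 1).ord.ToType, (Set.Iio b).Countable := fun b =>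
    Cardinal.countable_iff_lt_aleph_one _ |>.2 (Cardinal.mk_Iio_ord_toType b)
  refine ⟨(Cardinal.aleph 1).ord.ToType, inferInstance, inferInstance, h1, h2, fun f => ?_⟩
  by_contra h
  push Not at h
  have h3 : (Set.univ : Set (Cardinal.aleph 1).ord.ToType).Countable :=
    (Set.countable_iUnion fun n => (h2 (f n)).insert (f n)).mono fun β _ => by
      obtain ⟨n, hn⟩ := h β
      exact Set.mem_iUnion.2 ⟨n, hn.eq_or_lt⟩
  rw [Cardinal.countable_iff_lt_aleph_one, Cardinal.mk_univ, h1] at h3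
  exact lt_irrefl _ h3

end Vale.Agent.P129
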