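import Vale.Agent.P129.Dual
import Vale.Agent.P129.Extract
import Vale.Agent.P129.Kill
import Vale.Agent.P129.RhoEx
import Vale.Agent.P129.Guess

/-!
P129, file Main: assembly.

Plan for `no_sep_quotient`.  Let `M` be closed in `X` with `X ⧸ M` separable and
infinite-dimensional.  `W = {z | ∀ m ∈ M, ι m z = 0}`.  Every `g` in the dual of `X ⧸ M` gives
`f = g ∘ mkQ`, represented by some `z ∈ W` (`honto`); so the linear map `W → dual (X ⧸ M)` is onto,
and the dual of an infinite-dimensional normed space is infinite-dimensional.  Lift a dense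
sequence of `X ⧸ M` to `d n ∈ X` and apply `extract`.
-/

namespace Vale.Agent.P129

open TopologicalSpace

variable {Γ : Type} [LinearOrder Γ] {N : (Γ →₀ ℝ) → ℝ} {x : Γ → Γ → ℝ}
  {Z : Type} [NormedAddCommGroup Z] [NormedSpace ℝ Z] {e : (Γ →₀ ℝ) →ₗ[ℝ] Z}
  {P : Set Γ → Z →L[ℝ] Z} {xh : Γ → StrongDual ℝ Z}

theorem Setup.no_sep_quotient [WellFoundedLT Γ] (h : Setup N x e P xh)
    (hω : ∀ f : ℕ → Γ, ∃ β, ∀ n, f n < β) {X : Type} [NormedAddCommGroup X] [NormedSpace ℝ X]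
    (ι : X →ₗᵢ[ℝ] StrongDual ℝ Z) (hx : ∀ δ, ∃ ξ : X, ι ξ = xh δ)
    (honto : ∀ f : StrongDual ℝ X, ∃ z : Z, ∀ ξ : X, f ξ = ι ξ z) (M : Submodule ℝ X)
    (hM : IsClosed (M : Set X)) (hs : SeparableSpace (X ⧸ M)) :
    FiniteDimensional ℝ (X ⧸ M) := by
  by_contra hfin
  let W : Submodule ℝ Z :=
    { carrier := {z | ∀ m ∈ M, ι m z = 0}
      add_mem' := fun {a b} ha hb m hm => by rw [map_add, ha m hm, hb m hm, add_zero]
      zero_mem' := fun m _ => map_zero _
      smul_mem' := fun c a ha m hm => by rw [map_smul, ha m hm, smul_zero] }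
  have hW : ¬ FiniteDimensional ℝ W := by
    intro hW
    let Φ : X →ₗ[ℝ] Module.Dual ℝ W :=
      { toFun := fun ξ => (ι ξ : Z →ₗ[ℝ] ℝ) ∘ₗ W.subtype
        map_add' := fun a b => by ext; simp
        map_smul' := fun c a => by ext; simp }
    have hΦ : ∀ ξ (z : W), Φ ξ z = ι ξ z := fun _ _ => rfl
    have hle : M ≤ LinearMap.ker Φ := fun m hm => by
      rw [LinearMap.mem_ker]
      ext z
      exact z.2 m hm
    have hinj : Function.Injective (M.liftQ Φ hle) := by
      rw [← LinearMap.ker_eq_bot]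
      refine Submodule.ker_liftQ_eq_bot _ _ _ fun ξ hξ => ?_
      by_contra hξM
      have hne : (Submodule.Quotient.mk ξ : X ⧸ M) ≠ 0 := fun h0 =>
        hξM ((Submodule.Quotient.mk_eq_zero M).1 h0)
      obtain ⟨g, hg⟩ := SeparatingDual.exists_ne_zero (R := ℝ) hne
      obtain ⟨z, hz⟩ := honto (g.comp M.mkQL)
      have hzW : z ∈ W := fun m hm => by
        rw [← hz m]
        change g (Submodule.Quotient.mk m) = 0
        rw [(Submodule.Quotient.mk_eq_zero M).2 hm, map_zero]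
      refine hg ?_
      have h1 := hz ξ
      have h2 := hΦ ξ ⟨z, hzW⟩
      rw [LinearMap.mem_ker.1 hξ] at h2
      exact h1.trans h2.symm
    exact hfin (Module.Finite.of_injective _ hinj)
  obtain ⟨u, hu⟩ := exists_dense_seq (X ⧸ M)
  choose v hv using fun n => Submodule.Quotient.mk_surjective M (u n)
  refine h.extract hω W hW (fun n => ι (v n)) fun δ ε hε => ?_
  obtain ⟨ξ, hξ⟩ := hx δ
  obtain ⟨n, hn⟩ := hu.exists_dist_lt (Submodule.Quotient.mk ξ) (half_pos hε)
  obtain ⟨y, hy, hy'⟩ := Submodule.Quotient.norm_mk_lt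
    (Submodule.Quotient.mk (ξ - v n) : X ⧸ M) (half_pos hε)
  rw [dist_eq_norm, ← hv n, ← Submodule.Quotient.mk_sub] at hn
  refine ⟨n, fun z hz hz0 => ?_⟩
  have h1 := hz _ ((Submodule.Quotient.eq M).1 hy)
  have h2 : xh δ z = ι y z := by
    rw [map_sub, map_sub, sub_apply, sub_apply, hz0, hξ] at h1
    linarith
  have h3 := (ι y).le_opNorm z
  rw [ι.norm_map, Real.norm_eq_abs] at h3
  rw [h2]
  exact h3.trans (mul_le_mul_of_nonneg_right (by linarith) (norm_nonneg _))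

theorem main_real (S : Set (ℕ → ℕ)) (hS : Cardinal.mk S ≤ Cardinal.aleph 1) (hm : ¬ IsMeagre S) :
    ∃ (X : Type) (_ : NormedAddCommGroup X) (_ : NormedSpace ℝ X), CompleteSpace X ∧
      ¬ FiniteDimensional ℝ X ∧ ∀ M : Submodule ℝ X, IsClosed (M : Set X) →
        SeparableSpace (X ⧸ M) → FiniteDimensional ℝ (X ⧸ M) := by
  obtain ⟨Γ, _, hwf, hΓ, hc, hω⟩ := exists_omega1
  obtain ⟨R⟩ := exists_rho Γ hc
  obtain ⟨μ, b, hG⟩ := exists_guess Γ hc hΓ S hS hm
  obtain ⟨N, x, hF⟩ := exists_frame R hG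
  obtain ⟨Z, _, _, _, e, P, xh, h⟩ := exists_setup hF
  have : Infinite Γ := by
    rw [Cardinal.infinite_iff, hΓ]
    exact Cardinal.aleph0_le_aleph 1
  refine ⟨XX xh, inferInstance, inferInstance, ?_, h.not_finiteDimensional,
    fun M hM hs => h.no_sep_quotient hω (XX xh).subtypeₗᵢ (fun δ => ?_) h.dual_onto M hM hs⟩
  · exact (Submodule.isClosed_topologicalClosure _).completeSpace_coe
  · exact ⟨⟨xh δ, Submodule.le_topologicalClosure _ (Submodule.subset_span ⟨δ, rfl⟩)⟩, rfl⟩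

end Vale.Agent.P129
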