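import Vale.Agent.P129.Basic

/-!
P129, file Norm: the norm, the lower estimate and the choice of block sequences.
-/

namespace Vale.Agent.P129

open Finset

variable {Γ : Type} [LinearOrder Γ] {R : Rho Γ}

omit [LinearOrder Γ] in
theorem dot_eq (ξ : Γ → ℝ) (z : Γ →₀ ℝ) : dot ξ z = ∑ a ∈ z.support, z a * ξ a := by
  simp [dot, Finsupp.linearCombination_apply, Finsupp.sum]

omit [LinearOrder Γ] in
theorem dot_add (ξ ξ' : Γ → ℝ) (z : Γ →₀ ℝ) : dot (ξ + ξ') z = dot ξ z + dot ξ' z := by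
  simp [dot_eq, mul_add, Finset.sum_add_distrib]

omit [LinearOrder Γ] in
theorem dot_smul (c : ℝ) (ξ : Γ → ℝ) (z : Γ →₀ ℝ) : dot (c • ξ) z = c * dot ξ z := by
  simp only [dot_eq, Finset.mul_sum, Pi.smul_apply, smul_eq_mul]
  exact Finset.sum_congr rfl fun a _ => by ring

omit [LinearOrder Γ] in
theorem dot_zero (z : Γ →₀ ℝ) : dot (0 : Γ → ℝ) z = 0 := by
  simp [dot_eq]

omit [LinearOrder Γ] in
theorem dot_sum {ι : Type} (s : Finset ι) (ξ : ι → Γ → ℝ) (z : Γ →₀ ℝ) :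
    dot (∑ i ∈ s, ξ i) z = ∑ i ∈ s, dot (ξ i) z := by
  classical
  induction s using Finset.induction_on with
  | empty => simp [dot_zero]
  | insert i s hi ih => rw [Finset.sum_insert hi, Finset.sum_insert hi, dot_add, ih]

omit [LinearOrder Γ] in
theorem dot_single (ξ : Γ → ℝ) (a : Γ) (c : ℝ) : dot ξ (Finsupp.single a c) = c * ξ a := by
  simp [dot]

theorem dot_pi_single (a : Γ) (z : Γ →₀ ℝ) : dot (Pi.single a (1 : ℝ)) z = z a := by
  rw [dot_eq, Finset.sum_eq_single a]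
  · simp
  · intro b _ hb
    simp [hb]
  · intro ha
    simp [Finsupp.notMem_support_iff.1 ha]

omit [LinearOrder Γ] in
theorem dot_congr {ξ ξ' : Γ → ℝ} {z : Γ →₀ ℝ} (h : ∀ a ∈ z.support, ξ a = ξ' a) :
    dot ξ z = dot ξ' z := by
  rw [dot_eq, dot_eq]
  exact Finset.sum_congr rfl fun a ha => by rw [h a ha]

omit [LinearOrder Γ] in
theorem l1_nonneg (z : Γ →₀ ℝ) : 0 ≤ l1 z := Finset.sum_nonneg fun _ _ => abs_nonneg _

omit [LinearOrder Γ] in
theorem abs_dot_le_l1 {ξ : Γ → ℝ} {c : ℝ} (h : ∀ a, |ξ a| ≤ c) (z : Γ →₀ ℝ) :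
    |dot ξ z| ≤ c * l1 z := by
  rw [dot_eq, l1, Finset.mul_sum]
  refine (Finset.abs_sum_le_sum_abs _ _).trans (Finset.sum_le_sum fun a _ => ?_)
  rw [abs_mul, mul_comm]
  exact mul_le_mul_of_nonneg_right (h a) (abs_nonneg _)

omit [LinearOrder Γ] in
theorem cf_add (g g' : Γ →₀ ℚ) : cf (g + g') = cf g + cf g' := by
  ext a; simp [cf]

omit [LinearOrder Γ] in
theorem cf_smul (c : ℚ) (g : Γ →₀ ℚ) : cf (c • g) = (c : ℝ) • cf g := by
  ext a; simp [cf]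

omit [LinearOrder Γ] in
theorem cf_zero : cf (0 : Γ →₀ ℚ) = 0 := by
  ext a; simp [cf]

omit [LinearOrder Γ] in
theorem act_add (g g' : Γ →₀ ℚ) (z : Γ →₀ ℝ) : act (g + g') z = act g z + act g' z := by
  unfold act; rw [cf_add, dot_add]

omit [LinearOrder Γ] in
theorem act_smul (c : ℚ) (g : Γ →₀ ℚ) (z : Γ →₀ ℝ) : act (c • g) z = (c : ℝ) * act g z := by
  unfold act; rw [cf_smul, dot_smul]

omit [LinearOrder Γ] in
theorem act_neg (g : Γ →₀ ℚ) (z : Γ →₀ ℝ) : act (-g) z = -act g z := by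
  rw [← neg_one_smul ℚ g, act_smul]; simp

omit [LinearOrder Γ] in
theorem act_zero (z : Γ →₀ ℝ) : act (0 : Γ →₀ ℚ) z = 0 := by
  unfold act; rw [cf_zero, dot_zero]

omit [LinearOrder Γ] in
theorem act_sum {ι : Type} (s : Finset ι) (g : ι → Γ →₀ ℚ) (z : Γ →₀ ℝ) :
    act (∑ i ∈ s, g i) z = ∑ i ∈ s, act (g i) z := by
  classical
  induction s using Finset.induction_on with
  | empty => simp [act_zero]
  | insert i s hi ih => rw [Finset.sum_insert hi, Finset.sum_insert hi, act_add, ih]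

omit [LinearOrder Γ] in
theorem act_single (a : Γ) (c : ℚ) (z : Γ →₀ ℝ) : act (Finsupp.single a c) z = c * z a := by
  classical
  unfold act
  rw [dot_eq, Finset.sum_eq_single a]
  · simp [cf, mul_comm]
  · intro b _ hb
    simp [cf, hb]
  · intro ha
    simp [Finsupp.notMem_support_iff.1 ha]

theorem dot_res (E : Set Γ) (ξ : Γ → ℝ) (z : Γ →₀ ℝ) :
    dot ξ (res E z) = dot (E.indicator ξ) z := by
  classical
  rw [dot_eq, dot_eq]
  rw [Finset.sum_subset (support_res_subset E z)]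
  · refine Finset.sum_congr rfl fun a _ => ?_
    rw [res_apply, Set.indicator_apply]
    split_ifs <;> simp
  · intro a _ ha
    rw [Finsupp.notMem_support_iff.1 ha, zero_mul]

theorem act_res (E : Set Γ) (g : Γ →₀ ℚ) (z : Γ →₀ ℝ) : act (res E g) z = act g (res E z) := by
  classical
  unfold act
  rw [dot_res]
  apply dot_congr
  intro a _
  rw [Set.indicator_apply, cf, res_apply]
  split_ifs <;> simp [cf]

omit [LinearOrder Γ] in
theorem act_congr {g g' : Γ →₀ ℚ} {z : Γ →₀ ℝ} (h : ∀ a ∈ z.support, g a = g' a) :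
    act g z = act g' z :=
  dot_congr fun a ha => by unfold cf; rw [h a ha]

omit [LinearOrder Γ] in
theorem act_eq_zero {g : Γ →₀ ℚ} {z : Γ →₀ ℝ} (h : ∀ a ∈ z.support, g a = 0) : act g z = 0 := by
  rw [← act_zero z]
  exact act_congr h

theorem Wt.act_le_l1 {w : ℕ} {φ : Γ →₀ ℚ} (h : Wt (GG R) w φ) (z : Γ →₀ ℝ) :
    |act φ z| ≤ ((mm w : ℝ))⁻¹ * l1 z := abs_dot_le_l1 h.coord_le z

theorem abs_act_le_l1 {g : Γ →₀ ℚ} (hg : g ∈ GG R) (z : Γ →₀ ℝ) : |act g z| ≤ l1 z := by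
  have := abs_dot_le_l1 (GG_coord_le hg) z
  rwa [one_mul] at this

theorem abs_act_le_NN {g : Γ →₀ ℚ} (hg : g ∈ GG R) (z : Γ →₀ ℝ) : |act g z| ≤ NN R z :=
  le_ciSup (f := fun g : GG R => |act g.1 z|) ⟨l1 z, by
    rintro _ ⟨g, rfl⟩
    exact abs_act_le_l1 g.2 z⟩ ⟨g, hg⟩

theorem NN_le {z : Γ →₀ ℝ} {c : ℝ} (h : ∀ g ∈ GG R, |act g z| ≤ c) : NN R z ≤ c := by
  have : Nonempty (GG R) := ⟨⟨0, zero_mem_GG⟩⟩
  exact ciSup_le fun g => h g.1 g.2

theorem exists_act_gt {z : Γ →₀ ℝ} {c : ℝ} (h : c < NN R z) : ∃ g ∈ GG R, c < act g z := by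
  by_contra hne
  push Not at hne
  refine absurd (NN_le fun g hg => abs_le.2 ⟨?_, hne g hg⟩) (not_le.2 h)
  have := hne _ (neg_mem_GG hg)
  rw [act_neg] at this
  linarith

theorem NN_nonneg (z : Γ →₀ ℝ) : 0 ≤ NN R z :=
  (abs_nonneg _).trans (abs_act_le_NN zero_mem_GG z)

theorem NN_zero : NN R (0 : Γ →₀ ℝ) = 0 :=
  le_antisymm (NN_le fun g _ => by simp) (NN_nonneg _)

theorem NN_add (y z : Γ →₀ ℝ) : NN R (y + z) ≤ NN R y + NN R z :=
  NN_le fun g hg => by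
    rw [map_add]
    exact (abs_add_le _ _).trans (add_le_add (abs_act_le_NN hg y) (abs_act_le_NN hg z))

theorem NN_smul_le (c : ℝ) (z : Γ →₀ ℝ) : NN R (c • z) ≤ |c| * NN R z :=
  NN_le fun g hg => by
    rw [map_smul, smul_eq_mul, abs_mul]
    exact mul_le_mul_of_nonneg_left (abs_act_le_NN hg z) (abs_nonneg _)

theorem NN_smul (c : ℝ) (z : Γ →₀ ℝ) : NN R (c • z) = |c| * NN R z := by
  refine le_antisymm (NN_smul_le c z) ?_
  rcases eq_or_ne c 0 with rfl | hc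
  · simpa using NN_nonneg _
  · have h1 := NN_smul_le (R := R) c⁻¹ (c • z)
    rw [smul_smul, inv_mul_cancel₀ hc, one_smul, abs_inv] at h1
    have h2 : 0 < |c| := abs_pos.2 hc
    calc |c| * NN R z ≤ |c| * (|c|⁻¹ * NN R (c • z)) := mul_le_mul_of_nonneg_left h1 h2.le
      _ = NN R (c • z) := by field_simp

theorem NN_sum_le {ι : Type} (s : Finset ι) (z : ι → Γ →₀ ℝ) :
    NN R (∑ i ∈ s, z i) ≤ ∑ i ∈ s, NN R (z i) :=
  NN_le fun g hg => by
    rw [map_sum]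
    exact (Finset.abs_sum_le_sum_abs _ _).trans
      (Finset.sum_le_sum fun i _ => abs_act_le_NN hg _)

theorem coord_le_NN (z : Γ →₀ ℝ) (a : Γ) : |z a| ≤ NN R z := by
  have := abs_act_le_NN (R := R) (base_sub ⟨a, Or.inl rfl⟩) z
  rwa [act_single, Rat.cast_one, one_mul] at this

theorem NN_le_l1 (z : Γ →₀ ℝ) : NN R z ≤ l1 z := NN_le fun _ hg => abs_act_le_l1 hg z

theorem NN_single (a : Γ) : NN R (Finsupp.single a (1 : ℝ)) ≤ 1 :=
  NN_le fun g hg => by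
    unfold act
    rw [dot_single, one_mul]
    exact GG_coord_le hg a

theorem NN_pos {z : Γ →₀ ℝ} (hz : z ≠ 0) : 0 < NN R z := by
  obtain ⟨a, ha⟩ := Finsupp.support_nonempty_iff.2 hz
  exact (abs_pos.2 (Finsupp.mem_support_iff.1 ha)).trans_le (coord_le_NN z a)

theorem NN_res_le {E : Set Γ} (hE : E.OrdConnected) (z : Γ →₀ ℝ) : NN R (res E z) ≤ NN R z :=
  NN_le fun g hg => by
    rw [← act_res]
    exact abs_act_le_NN (res_mem_GG hg hE) z

theorem Adm.sum_le {ι : Type} {s : Finset ι} {A : ι → Finset ℕ} {ψ : ι → ℕ → Γ →₀ ℚ}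
    (h : Adm R (GG R) s A ψ) (z : Γ →₀ ℝ) :
    ∑ l ∈ s, |act (∑ w ∈ A l, ψ l w) z| ≤ NN R z := by
  classical
  have hm := h.mem (ε := fun l => if 0 ≤ act (∑ w ∈ A l, ψ l w) z then 1 else -1)
    (fun l => by split_ifs <;> simp)
  refine le_trans (le_of_eq ?_) ((le_abs_self _).trans (abs_act_le_NN hm z))
  rw [act_sum]
  refine Finset.sum_congr rfl fun l _ => ?_
  rw [act_smul]
  split_ifs with h1
  · rw [abs_of_nonneg h1]; simp
  · rw [abs_of_neg (not_le.1 h1)]; simp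

/-- Intervals around the supports of a successive sequence. -/
theorem Succ.exists_intervals {u : ℕ → Γ →₀ ℝ} (hu : Succ u) :
    ∃ E : ℕ → Set Γ, (∀ i, (E i).OrdConnected) ∧
      (∀ i j, i < j → ∀ a ∈ E i, ∀ b ∈ E j, a < b) ∧ (∀ i, res (E i) (u i) = u i) ∧
      ∀ i j, i ≠ j → res (E i) (u j) = 0 := by
  have hs : ∀ i j, i < j → ∀ a ∈ {a | ∃ b ∈ (u i).support, ∃ c ∈ (u i).support, b ≤ a ∧ a ≤ c},
      ∀ b ∈ {a | ∃ b ∈ (u j).support, ∃ c ∈ (u j).support, b ≤ a ∧ a ≤ c}, a < b := by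
    rintro i j hij a ⟨-, -, c, hc, -, hac⟩ b ⟨d, hd, -, -, hdb, -⟩
    exact (hac.trans_lt (hu i j hij c hc d hd)).trans_le hdb
  have hm : ∀ i, ∀ a ∈ (u i).support,
      a ∈ {a | ∃ b ∈ (u i).support, ∃ c ∈ (u i).support, b ≤ a ∧ a ≤ c} :=
    fun i a ha => ⟨a, ha, a, ha, le_rfl, le_rfl⟩
  refine ⟨fun i => {a | ∃ b ∈ (u i).support, ∃ c ∈ (u i).support, b ≤ a ∧ a ≤ c}, fun i => ⟨?_⟩,
    hs, fun i => res_eq_self (hm i), fun i j hij => res_eq_zero fun a ha ha' => ?_⟩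
  · rintro x ⟨b, hb, -, -, hbx, -⟩ y ⟨-, -, c, hc, -, hyc⟩ z hz
    exact ⟨b, hb, c, hc, hbx.trans hz.1, hz.2.trans hyc⟩
  · rcases lt_or_gt_of_ne hij with h | h
    · exact lt_irrefl _ (hs i j h a ha' a (hm j a ha))
    · exact lt_irrefl _ (hs j i h a (hm j a ha) a ha')

theorem exists_act_half (z : Γ →₀ ℝ) : ∃ g ∈ GG R, NN R z ≤ 2 * act g z := by
  rcases (NN_nonneg (R := R) z).lt_or_eq with h | h
  · obtain ⟨g, hg, h1⟩ := exists_act_gt (R := R) (z := z) (c := NN R z / 2) (by linarith)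
    exact ⟨g, hg, by linarith⟩
  · exact ⟨0, zero_mem_GG, by rw [act_zero, ← h]; simp⟩

/-- The lower estimate, with the functional which gives it. -/
theorem exists_wt_lower {j n : ℕ} (hn : n ≤ nn j) (z : Γ →₀ ℝ) {E : ℕ → Set Γ}
    (hE : ∀ i, (E i).OrdConnected) (hs : ∀ i j, i < j → ∀ a ∈ E i, ∀ b ∈ E j, a < b) :
    ∃ φ, Wt (GG R) j φ ∧ ∑ i ∈ range n, NN R (res (E i) z) ≤ 2 * mm j * act φ z := by
  choose g hg hg' using fun i => exists_act_half (R := R) (res (E i) z)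
  refine ⟨_, ⟨n, fun i => res (E i) (g i), hn, fun r _ => res_mem_GG (hg r) (hE r),
    fun r r' h _ a ha b hb => hs r r' h a (mem_support_res.1 ha).1 b (mem_support_res.1 hb).1,
    rfl⟩, ?_⟩
  rw [act_smul, act_sum]
  have hp := mm_cast_pos j
  have e : 2 * (mm j : ℝ) * ((((mm j : ℚ))⁻¹ : ℚ) * ∑ i ∈ range n, act (res (E i) (g i)) z) =
      ∑ i ∈ range n, 2 * act (res (E i) (g i)) z := by
    rw [← Finset.mul_sum]
    push_cast
    field_simp
  rw [e]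
  exact Finset.sum_le_sum fun i _ => by rw [act_res]; exact hg' i

theorem exists_wt_blocks {j n : ℕ} (hn : n ≤ nn j) {u : ℕ → Γ →₀ ℝ} (hu : Succ u) :
    ∃ φ, Wt (GG R) j φ ∧ ∑ i ∈ range n, NN R (u i) ≤ 2 * mm j * act φ (∑ i ∈ range n, u i) := by
  obtain ⟨E, h1, h2, h3, h4⟩ := hu.exists_intervals
  obtain ⟨φ, hφ, h⟩ := exists_wt_lower (R := R) hn (∑ i ∈ range n, u i) h1 h2
  refine ⟨φ, hφ, le_trans (le_of_eq (Finset.sum_congr rfl fun i hi => ?_)) h⟩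
  rw [res_sum, Finset.sum_eq_single i, h3]
  · intro k _ hk
    exact h4 i k hk.symm
  · intro hi'
    exact absurd hi hi'

theorem le_SS (j : ℕ) : j ≤ SS j := by
  induction j with
  | zero => exact Nat.zero_le _
  | succ k ih =>
    have h1 : 0 < mm k * (1 + 2 * SS k) ^ (k + 3) := Nat.mul_pos (mm_pos k) (by positivity)
    show k + 1 ≤ SS k + mm k * (1 + 2 * SS k) ^ (k + 3)
    omega

theorem nn_pos (j : ℕ) : 0 < nn j := Nat.mul_pos (mm_pos j) (by positivity)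

theorem NN_low (ε : ℝ) (hε : 0 < ε) : ∃ n : ℕ, 0 < n ∧ ∀ (z : Γ →₀ ℝ) (E : ℕ → Set Γ),
    (∀ i, (E i).OrdConnected) → (∀ i j, i < j → ∀ a ∈ E i, ∀ b ∈ E j, a < b) →
    ∑ i ∈ range n, NN R (res (E i) z) ≤ ε * n * NN R z := by
  obtain ⟨j, hj⟩ := exists_nat_ge (1 / ε)
  refine ⟨nn j, nn_pos j, fun z E hE hs => ?_⟩
  obtain ⟨φ, hφ, h⟩ := exists_wt_lower (R := R) (le_refl (nn j)) z hE hs
  have h1 : act φ z ≤ NN R z := (le_abs_self _).trans (abs_act_le_NN hφ.mem z)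
  have hp := mm_cast_pos j
  have h2 : (1 + 2 * (SS j : ℝ)) ≤ (1 + 2 * (SS j : ℝ)) ^ (j + 3) :=
    le_self_pow₀ (by have : (0 : ℝ) ≤ SS j := Nat.cast_nonneg _; linarith) (by omega)
  have h3 : (j : ℝ) ≤ SS j := by exact_mod_cast le_SS j
  have h4 : 1 ≤ ε * j := by rwa [div_le_iff₀' hε] at hj
  have h5 : 2 * (mm j : ℝ) ≤ ε * nn j := by
    have : (nn j : ℝ) = mm j * (1 + 2 * (SS j : ℝ)) ^ (j + 3) := by unfold nn; push_cast; ring
    rw [this]
    have h6 : 2 ≤ ε * (1 + 2 * (SS j : ℝ)) ^ (j + 3) := by nlinarith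
    nlinarith
  calc _ ≤ 2 * mm j * act φ z := h
    _ ≤ 2 * mm j * NN R z := mul_le_mul_of_nonneg_left h1 (by positivity)
    _ ≤ ε * nn j * NN R z := mul_le_mul_of_nonneg_right h5 (NN_nonneg z)

theorem Blocks.exists_norm_one {V : ℕ → Submodule ℝ (Γ →₀ ℝ)} (hV : Blocks V) (T : ℕ) :
    ∃ y ∈ V T, NN R y = 1 := by
  obtain ⟨y, hy, hy0⟩ := hV.ne T
  have hp := NN_pos (R := R) hy0
  refine ⟨(NN R y)⁻¹ • y, (V T).smul_mem _ hy, ?_⟩
  rw [NN_smul, abs_of_pos (inv_pos.2 hp), inv_mul_cancel₀ hp.ne']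

/-- Recursive choice of a block sequence together with thresholds. -/
theorem Blocks.seq {V : ℕ → Submodule ℝ (Γ →₀ ℝ)} (hV : Blocks V) (R : Rho Γ) (T₀ J₀ : ℕ)
    (P : ℕ → (Γ →₀ ℝ) → ℕ → Prop) (hP : ∀ T J, ∃ u ∈ V T, ∃ J', ∀ J'' ≥ J', P J u J'') :
    ∃ (u : ℕ → Γ →₀ ℝ) (J : ℕ → ℕ), J 0 = J₀ ∧ StrictMono J ∧ (∀ k, u k ∈ V T₀) ∧ Succ u ∧
      (∀ k, P (J k) (u k) (J (k + 1))) ∧ ∀ k, Chain R (J k) (hsupp u k) := by
  classical
  choose u hu J' hJ' using hP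
  choose T' hT' using fun T J => hV.after T (u T J) (hu T J)
  -- the state is the triple (index of the subspace, threshold, union of the supports)
  let step : ℕ × ℕ × Finset Γ → ℕ × ℕ × Finset Γ := fun x =>
    (max x.1 (T' x.1 x.2.1),
      max (max (x.2.1 + 1) (J' x.1 x.2.1)) (lev R (x.2.2 ∪ (u x.1 x.2.1).support)),
      x.2.2 ∪ (u x.1 x.2.1).support)
  let st : ℕ → ℕ × ℕ × Finset Γ := fun k => step^[k] (T₀, J₀, ∅)
  have hst : ∀ k, st (k + 1) = step (st k) := fun k => Function.iterate_succ_apply' _ _ _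
  have hT : Monotone fun k => (st k).1 := monotone_nat_of_le_succ fun k => by
    rw [hst]; exact le_max_left _ _
  have hF : ∀ k, (st k).2.2 = hsupp (fun k => u (st k).1 (st k).2.1) k := by
    intro k
    induction k with
    | zero => simp [st, hsupp]
    | succ k ih =>
      rw [hst]
      show (st k).2.2 ∪ _ = _
      rw [ih]
      unfold hsupp
      rw [Finset.range_add_one, Finset.biUnion_insert, Finset.union_comm]
  refine ⟨fun k => u (st k).1 (st k).2.1, fun k => (st k).2.1, rfl,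
    strictMono_nat_of_lt_succ fun k => ?_, fun k => hV.anti (hT (Nat.zero_le k)) (hu _ _),
    fun k k' hk => hT' _ _ _ (hV.anti ?_ (hu _ _)), fun k => hJ' _ _ _ ?_, fun k => ?_⟩
  · rw [hst]
    exact lt_of_lt_of_le (Nat.lt_succ_self _) ((le_max_left _ _).trans (le_max_left _ _))
  · refine le_trans ?_ (hT (Nat.succ_le_of_lt hk))
    show _ ≤ (st (k + 1)).1
    rw [hst]
    exact le_max_right _ _
  · show _ ≤ (st (k + 1)).2.1
    rw [hst]
    exact (le_max_right _ _).trans (le_max_left _ _)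
  · rw [← hF]
    cases k with
    | zero => intro a ha; simp [st] at ha
    | succ k =>
      show Chain R (st (k + 1)).2.1 (st (k + 1)).2.2
      rw [hst]
      exact (chain_lev R _).mono (le_max_right _ _) (Finset.Subset.refl _)

end Vale.Agent.P129
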