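import Vale.Agent.P129.Defs

/-!
P129, file RhoCmp: coding and comparability of special sequences.
-/

namespace Vale.Agent.P129

open Finset

variable {Γ : Type} [LinearOrder Γ] {R : Rho Γ}

theorem code_gt (p : ℕ) (τ : List (ℕ × (ℕ →₀ ℚ))) : p < code p τ :=
  Nat.lt_succ_of_le (Nat.left_le_pair _ _)

theorem enc_injective : Function.Injective enc :=
  Classical.choose_spec (Countable.exists_injective_nat (List (ℕ × (ℕ →₀ ℚ))))

theorem code_inj {p p' : ℕ} {τ τ' : List (ℕ × (ℕ →₀ ℚ))} (h : code p τ = code p' τ') :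
    p = p' ∧ τ = τ' := by
  unfold code at h
  have h1 := Nat.pair_eq_pair.1 (Nat.succ_injective h)
  exact ⟨h1.1, enc_injective h1.2⟩

theorem Chain.mono {p p' : ℕ} {A A' : Finset Γ} (h : Chain R p A) (hp : p ≤ p') (hA : A' ⊆ A) :
    Chain R p' A' := fun a ha b hb hab => (h a (hA ha) b (hA hb) hab).trans hp

theorem chain_lev (R : Rho Γ) (A : Finset Γ) : Chain R (lev R A) A := by
  intro a ha b hb _
  exact Finset.le_sup (f := fun x : Γ × Γ => R.ρ x.1 x.2) (b := (a, b))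
    (Finset.mem_product.2 ⟨ha, hb⟩)

theorem mem_hsupp {M : Type} [Zero M] {φ : ℕ → Γ →₀ M} {i : ℕ} {a : Γ} :
    a ∈ hsupp φ i ↔ ∃ h < i, φ h a ≠ 0 := by
  simp [hsupp]

theorem hsupp_congr {M : Type} [Zero M] {φ φ' : ℕ → Γ →₀ M} {i : ℕ} (h : ∀ k < i, φ k = φ' k) :
    hsupp φ i = hsupp φ' i := by
  ext a
  simp only [mem_hsupp]
  constructor
  · rintro ⟨k, hk, ha⟩
    exact ⟨k, hk, h k hk ▸ ha⟩
  · rintro ⟨k, hk, ha⟩
    exact ⟨k, hk, (h k hk).symm ▸ ha⟩

theorem hsupp_mono {M : Type} [Zero M] (φ : ℕ → Γ →₀ M) {i i' : ℕ} (h : i ≤ i') :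
    hsupp φ i ⊆ hsupp φ i' := by
  intro a ha
  obtain ⟨k, hk, ha⟩ := mem_hsupp.1 ha
  exact mem_hsupp.2 ⟨k, hk.trans_le h, ha⟩

theorem support_subset_hsupp {M : Type} [Zero M] (φ : ℕ → Γ →₀ M) {k i : ℕ} (h : k < i) :
    (φ k).support ⊆ hsupp φ i := fun _ ha => mem_hsupp.2 ⟨k, h, Finsupp.mem_support_iff.1 ha⟩

theorem hist_congr {p i : ℕ} {w w' : ℕ → ℕ} {φ φ' : ℕ → Γ →₀ ℚ} (hw : ∀ k < i, w k = w' k)
    (hφ : ∀ k < i, φ k = φ' k) : hist R p w φ i = hist R p w' φ' i := by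
  unfold hist
  apply List.map_congr_left
  intro k hk
  rw [List.mem_range] at hk
  rw [hw k hk, hφ k hk]

theorem hist_eq {p i i' : ℕ} {w w' : ℕ → ℕ} {φ φ' : ℕ → Γ →₀ ℚ}
    (h : hist R p w φ i = hist R p w' φ' i') :
    i = i' ∧ ∀ k < i, w k = w' k ∧
      Finsupp.mapDomain (ht R p) (φ k) = Finsupp.mapDomain (ht R p) (φ' k) := by
  have hi : i = i' := by simpa [hist] using congrArg List.length h
  subst hi
  refine ⟨rfl, fun k hk => ?_⟩
  unfold hist at h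
  have := List.map_inj_left.1 h k (List.mem_range.2 hk)
  exact ⟨congrArg Prod.fst this, congrArg Prod.snd this⟩

theorem ht_lt {p : ℕ} {a b : Γ} (hab : a < b) (hρ : R.ρ a b ≤ p) : ht R p a < ht R p b := by
  unfold ht
  apply Set.ncard_lt_ncard _ (R.fin b p)
  constructor
  · rintro c ⟨hc, hc'⟩
    exact ⟨hc.trans hab.le, (R.tr1 c a b hc hab.le).trans (max_le hc' hρ)⟩
  · intro hsub
    have : b ∈ {c | c ≤ a ∧ R.ρ c a ≤ p} := hsub ⟨le_rfl, by rw [R.refl]; exact Nat.zero_le _⟩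
    exact absurd this.1 (not_le.2 hab)

theorem ht_le {p : ℕ} {a b : Γ} (hab : a ≤ b) (hρ : R.ρ a b ≤ p) : ht R p a ≤ ht R p b := by
  rcases hab.lt_or_eq with h | h
  · exact (ht_lt h hρ).le
  · rw [h]

omit [LinearOrder Γ] in
theorem mapDomain_apply_of_unique {f : Γ → ℕ} {φ : Γ →₀ ℚ} {b : Γ}
    (h : ∀ c ∈ φ.support, f c = f b → c = b) : Finsupp.mapDomain f φ (f b) = φ b := by
  classical
  rw [Finsupp.mapDomain, Finsupp.sum_apply, Finsupp.sum]
  rw [Finset.sum_eq_single b]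
  · simp
  · intro c hc hcb
    rw [Finsupp.single_apply, if_neg (fun h' => hcb (h c hc h'))]
  · intro hb
    rw [Finsupp.notMem_support_iff.1 hb]
    simp

/-- Two functionals of the same type at level `p` agree below two `p`-comparable points. -/
theorem cmp_of_type {p : ℕ} {A A' : Finset Γ} {φ φ' : Γ →₀ ℚ} (hA : Chain R p A)
    (hA' : Chain R p A') (hφ : φ.support ⊆ A) (hφ' : φ'.support ⊆ A')
    (h : Finsupp.mapDomain (ht R p) φ = Finsupp.mapDomain (ht R p) φ') {a a' : Γ} (ha : a ∈ A)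
    (ha' : a' ∈ A') (haa : a ≤ a') (hρ : R.ρ a a' ≤ p) : ∀ b ≤ a, φ b = φ' b := by
  intro b hb
  -- `ht` is injective on the predecessors of `a'`
  have hinj : ∀ c d : Γ, c ≤ a' → R.ρ c a' ≤ p → d ≤ a' → R.ρ d a' ≤ p →
      ht R p c = ht R p d → c = d := by
    intro c d hc hc' hd hd' he
    rcases lt_trichotomy c d with h1 | h1 | h1
    · exact absurd he (ht_lt h1 ((R.tr2 c d a' h1.le hd).trans (max_le hc' hd'))).ne
    · exact h1
    · exact absurd he (ht_lt h1 ((R.tr2 d c a' h1.le hc).trans (max_le hd' hc'))).ne'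
  by_cases hL : R.ρ b a' ≤ p
  · have hba : R.ρ b a ≤ p := (R.tr2 b a a' hb haa).trans (max_le hL hρ)
    have e1 : Finsupp.mapDomain (ht R p) φ (ht R p b) = φ b := by
      apply mapDomain_apply_of_unique
      intro c hc he
      by_cases hca : c ≤ a
      · exact hinj c b (hca.trans haa)
          ((R.tr1 c a a' hca haa).trans (max_le (hA c (hφ hc) a ha hca) hρ)) (hb.trans haa) hL he
      · rw [not_le] at hca
        have h1 := ht_lt hca (hA a ha c (hφ hc) hca.le)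
        have h2 := ht_le hb hba
        omega
    have e2 : Finsupp.mapDomain (ht R p) φ' (ht R p b) = φ' b := by
      apply mapDomain_apply_of_unique
      intro c hc he
      by_cases hca : c ≤ a'
      · exact hinj c b hca (hA' c (hφ' hc) a' ha' hca) (hb.trans haa) hL he
      · rw [not_le] at hca
        have h1 := ht_lt hca (hA' a' ha' c (hφ' hc) hca.le)
        have h2 := ht_le (hb.trans haa) hL
        omega
    rw [← e1, ← e2, h]
  · have e1 : φ b = 0 := by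
      by_contra hne
      have hbA := hφ (Finsupp.mem_support_iff.2 hne)
      exact hL ((R.tr1 b a a' hb haa).trans (max_le (hA b hbA a ha hb) hρ))
    have e2 : φ' b = 0 := by
      by_contra hne
      have hbA := hφ' (Finsupp.mem_support_iff.2 hne)
      exact hL (hA' b hbA a' ha' (hb.trans haa))
    rw [e1, e2]

variable {G : Set (Γ →₀ ℚ)}

theorem IsSp.mono {q q' : ℕ} {w : ℕ → ℕ} {φ : ℕ → Γ →₀ ℚ} (h : IsSp R G q w φ) (hq : q' ≤ q) :
    IsSp R G q' w φ :=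
  ⟨fun i hi => h.wt i (hi.trans_le hq), fun i hi => h.cod i (hi.trans_le hq)⟩

theorem IsSp.lt {q : ℕ} {w : ℕ → ℕ} {φ : ℕ → Γ →₀ ℚ} (h : IsSp R G q w φ) {i i' : ℕ}
    (hi : i < i') (hi' : i' < q) : w i < w i' := by
  induction i' with
  | zero => omega
  | succ k ih =>
    obtain ⟨p, hp, -, hc⟩ := h.cod k hi'
    have h1 : w k < w (k + 1) := hc ▸ hp.trans_lt (code_gt _ _)
    rcases Nat.lt_succ_iff_lt_or_eq.1 hi with h2 | h2
    · exact (ih h2 (by omega)).trans h1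
    · rw [h2]; exact h1

theorem IsSp.le {q : ℕ} {w : ℕ → ℕ} {φ : ℕ → Γ →₀ ℚ} (h : IsSp R G q w φ) {i i' : ℕ}
    (hi : i ≤ i') (hi' : i' < q) : w i ≤ w i' := by
  rcases hi.lt_or_eq with h1 | h1
  · exact (h.lt h1 hi').le
  · rw [h1]

theorem IsSp.inj {q : ℕ} {w : ℕ → ℕ} {φ : ℕ → Γ →₀ ℚ} (h : IsSp R G q w φ) {i i' : ℕ}
    (hi : i < q) (hi' : i' < q) (he : w i = w i') : i = i' := by
  rcases lt_trichotomy i i' with h1 | h1 | h1
  · exact absurd he (h.lt h1 hi').ne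
  · exact h1
  · exact absurd he (h.lt h1 hi).ne'

/-- Two special sequences which share a weight have comparable histories. -/
theorem IsSp.share {q q' : ℕ} {w w' : ℕ → ℕ} {φ φ' : ℕ → Γ →₀ ℚ} (h : IsSp R G q w φ)
    (h' : IsSp R G q' w' φ') {i i' : ℕ} (hi : i + 1 < q) (hi' : i' + 1 < q')
    (hw : w (i + 1) = w' (i' + 1)) :
    i = i' ∧ (∀ k ≤ i, w k = w' k) ∧ ∀ a ∈ hsupp φ (i + 1), ∀ a' ∈ hsupp φ' (i + 1), a ≤ a' →
      R.ρ a a' ≤ w i → ∀ k ≤ i, ∀ b ≤ a, φ k b = φ' k b := by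
  obtain ⟨p, hp, hch, hc⟩ := h.cod i hi
  obtain ⟨p', -, hch', hc'⟩ := h'.cod i' hi'
  rw [hc, hc'] at hw
  obtain ⟨hpp, hτ⟩ := code_inj hw
  subst hpp
  obtain ⟨hii, hk⟩ := hist_eq hτ
  have hii' : i = i' := by omega
  subst hii'
  refine ⟨rfl, fun k hk' => (hk k (by omega)).1, fun a ha a' ha' haa hρ k hk' => ?_⟩
  exact cmp_of_type hch hch' (support_subset_hsupp φ (by omega))
    (support_subset_hsupp φ' (by omega)) (hk k (by omega)).2 ha ha' haa (hρ.trans hp)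

end Vale.Agent.P129
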