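import Vale.Agent.P129.Norm

/-!
P129, file Space: the completion, the projections and the extended functionals.

Plan for `exists_setup`.  `N` is a seminorm (`add`, `smul`); put it on a type synonym of `Γ →₀ ℝ`
(`Seminorm`, `AddGroupSeminorm.toSeminormedAddCommGroup`, `NormedSpace`), let `Z` be its
`UniformSpace.Completion`, `e` the canonical linear map.  Extend `e ∘ res E` (for `E` order connected;
`0` otherwise) and `dot (x δ)` by continuity (`ContinuousLinearMap.extend`,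
`LinearMap.extendOfNorm` or `LinearMap.mkContinuous` followed by `extend`).
All other lemmas follow by density (`DenseRange.induction_on`, `isClosed_le`, `isClosed_eq`).
-/

namespace Vale.Agent.P129

open Finset

variable {Γ : Type} [LinearOrder Γ] {N : (Γ →₀ ℝ) → ℝ} {x : Γ → Γ → ℝ}

theorem Frame.zero (h : Frame N x) : N 0 = 0 := by
  have := h.smul 0 0
  simpa using this

theorem Frame.neg (h : Frame N x) (z : Γ →₀ ℝ) : N (-z) = N z := by
  have := h.smul (-1) z
  simpa using this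

theorem Frame.nonneg (h : Frame N x) (z : Γ →₀ ℝ) : 0 ≤ N z := by
  have h1 := h.add z (-z)
  rw [add_neg_cancel, h.zero, h.neg] at h1
  linarith

/-- Restriction as a linear map. -/
noncomputable def spResL (E : Set Γ) : (Γ →₀ ℝ) →ₗ[ℝ] (Γ →₀ ℝ) where
  toFun := res E
  map_add' := res_add E
  map_smul' := res_smul E

theorem spResL_apply (E : Set Γ) (z : Γ →₀ ℝ) : spResL E z = res E z := rfl

theorem sp_res_sub (E : Set Γ) (y z : Γ →₀ ℝ) : res E (y - z) = res E y - res E z :=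
  map_sub (spResL E) y z

theorem exists_completion (h : Frame N x) :
    ∃ (Z : Type) (_ : NormedAddCommGroup Z) (_ : NormedSpace ℝ Z) (_ : CompleteSpace Z)
      (e : (Γ →₀ ℝ) →ₗ[ℝ] Z), (∀ z, ‖e z‖ = N z) ∧ DenseRange e := by
  let p : AddGroupSeminorm (Γ →₀ ℝ) :=
    { toFun := N
      map_zero' := h.zero
      add_le' := h.add
      neg' := h.neg }
  let : SeminormedAddCommGroup (Γ →₀ ℝ) := p.toSeminormedAddCommGroup
  have hn : ∀ z : Γ →₀ ℝ, ‖z‖ = N z := fun _ => rfl
  let : NormedSpace ℝ (Γ →₀ ℝ) :=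
    { norm_smul_le := fun c z => by rw [hn, hn, h.smul, Real.norm_eq_abs] }
  refine ⟨UniformSpace.Completion (Γ →₀ ℝ), inferInstance, inferInstance, inferInstance,
    (UniformSpace.Completion.toComplₗᵢ (𝕜 := ℝ) (E := Γ →₀ ℝ)).toLinearMap, fun z => ?_, ?_⟩
  · exact (UniformSpace.Completion.toComplₗᵢ (𝕜 := ℝ) (E := Γ →₀ ℝ)).norm_map z
  · exact UniformSpace.Completion.denseRange_coe

theorem exists_setup (h : Frame N x) :
    ∃ (Z : Type) (_ : NormedAddCommGroup Z) (_ : NormedSpace ℝ Z) (_ : CompleteSpace Z)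
      (e : (Γ →₀ ℝ) →ₗ[ℝ] Z) (P : Set Γ → Z →L[ℝ] Z) (xh : Γ → StrongDual ℝ Z),
      Setup N x e P xh := by
  obtain ⟨Z, _, _, _, e, he, hd⟩ := exists_completion h
  refine ⟨Z, inferInstance, inferInstance, inferInstance, e,
    fun E => (e ∘ₗ spResL E).extendOfNorm e, fun δ => (dot (x δ)).extendOfNorm e,
    h, he, hd, fun E hE z => ?_, fun δ z => ?_⟩
  · refine LinearMap.extendOfNorm_eq hd ⟨1, fun y => ?_⟩ z
    rw [one_mul, LinearMap.comp_apply, he, he, spResL_apply]
    exact h.res_le E y hE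
  · refine LinearMap.extendOfNorm_eq hd ⟨3, fun y => ?_⟩ z
    rw [he, Real.norm_eq_abs]
    exact h.x_bd δ y

variable {Z : Type} [NormedAddCommGroup Z] [NormedSpace ℝ Z] {e : (Γ →₀ ℝ) →ₗ[ℝ] Z}
  {P : Set Γ → Z →L[ℝ] Z} {xh : Γ → StrongDual ℝ Z}

theorem Setup.norm_P_le (h : Setup N x e P xh) {E : Set Γ} (hE : E.OrdConnected) (z : Z) :
    ‖P E z‖ ≤ ‖z‖ := by
  refine h.dense.induction_on (p := fun z => ‖P E z‖ ≤ ‖z‖) z
    (isClosed_le (by fun_prop) (by fun_prop)) fun y => ?_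
  rw [h.P_e E hE, h.norm_e, h.norm_e]
  exact h.frame.res_le E y hE

theorem Setup.P_P (h : Setup N x e P xh) {E F : Set Γ} (hE : E.OrdConnected)
    (hF : F.OrdConnected) (z : Z) : P E (P F z) = P (E ∩ F) z := by
  refine h.dense.induction_on (p := fun z => P E (P F z) = P (E ∩ F) z) z
    (isClosed_eq (by fun_prop) (by fun_prop)) fun y => ?_
  rw [h.P_e F hF, h.P_e E hE, h.P_e _ (hE.inter hF), res_res]

theorem Setup.P_univ (h : Setup N x e P xh) (z : Z) : P Set.univ z = z := by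
  refine h.dense.induction_on (p := fun z => P Set.univ z = z) z
    (isClosed_eq (by fun_prop) (by fun_prop)) fun y => ?_
  rw [h.P_e _ Set.ordConnected_univ, res_univ]

theorem Setup.P_empty (h : Setup N x e P xh) (z : Z) : P ∅ z = 0 := by
  refine h.dense.induction_on (p := fun z => P ∅ z = 0) z
    (isClosed_eq (by fun_prop) (by fun_prop)) fun y => ?_
  rw [h.P_e _ Set.ordConnected_empty, res_eq_zero fun a _ => Set.notMem_empty a, map_zero]

theorem Setup.P_union (h : Setup N x e P xh) {E F : Set Γ} (hE : E.OrdConnected)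
    (hF : F.OrdConnected) (hEF : (E ∪ F).OrdConnected) (hd : Disjoint E F) (z : Z) :
    P (E ∪ F) z = P E z + P F z := by
  classical
  refine h.dense.induction_on (p := fun z => P (E ∪ F) z = P E z + P F z) z
    (isClosed_eq (by fun_prop) (by fun_prop)) fun y => ?_
  rw [h.P_e _ hEF, h.P_e _ hE, h.P_e _ hF, ← map_add]
  congr 1
  ext a
  have : a ∈ E → a ∉ F := fun h' => Set.disjoint_left.1 hd h'
  simp only [res_apply, Finsupp.add_apply, Set.mem_union]
  by_cases h1 : a ∈ E <;> by_cases h2 : a ∈ F <;> simp_all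

/-- The projection on one coordinate has rank one. -/
theorem Setup.P_single (h : Setup N x e P xh) (a : Γ) :
    ∃ f : StrongDual ℝ Z, ∀ z, P {a} z = f z • e (Finsupp.single a 1) := by
  classical
  have hb : ∃ C : ℝ, ∀ y : Γ →₀ ℝ, ‖(Finsupp.lapply a : (Γ →₀ ℝ) →ₗ[ℝ] ℝ) y‖ ≤ C * ‖e y‖ :=
    ⟨1, fun y => by
      rw [one_mul, h.norm_e, Real.norm_eq_abs]
      exact h.frame.coord y a⟩
  refine ⟨(Finsupp.lapply a : (Γ →₀ ℝ) →ₗ[ℝ] ℝ).extendOfNorm e, fun z => ?_⟩
  refine h.dense.induction_on (p := fun z => P {a} z =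
    (Finsupp.lapply a : (Γ →₀ ℝ) →ₗ[ℝ] ℝ).extendOfNorm e z • e (Finsupp.single a 1)) z
    (isClosed_eq (by fun_prop) (by fun_prop)) fun y => ?_
  rw [h.P_e _ (Set.ordConnected_singleton), LinearMap.extendOfNorm_eq h.dense hb, ← map_smul]
  congr 1
  ext b
  simp only [res_apply, Set.mem_singleton_iff, Finsupp.lapply_apply, Finsupp.smul_apply,
    Finsupp.single_apply, smul_eq_mul]
  by_cases hab : b = a
  · simp [hab]
  · simp [hab, Ne.symm hab]

theorem Setup.abs_xh_le (h : Setup N x e P xh) (δ : Γ) (z : Z) : |xh δ z| ≤ 3 * ‖z‖ := by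
  refine h.dense.induction_on (p := fun z => |xh δ z| ≤ 3 * ‖z‖) z
    (isClosed_le (by fun_prop) (by fun_prop)) fun y => ?_
  rw [h.xh_e, h.norm_e]
  exact h.frame.x_bd δ y

theorem Setup.xh_P (h : Setup N x e P xh) {S : Set Γ} (hS : IsLowerSet S) {δ : Γ} (hδ : δ ∈ S)
    (z : Z) : xh δ (P S z) = xh δ z := by
  refine h.dense.induction_on (p := fun z => xh δ (P S z) = xh δ z) z
    (isClosed_eq (by fun_prop) (by fun_prop)) fun y => ?_
  rw [h.P_e _ hS.ordConnected, h.xh_e, h.xh_e, dot_res]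
  refine dot_congr fun a _ => ?_
  by_cases ha : a ∈ S
  · exact Set.indicator_of_mem ha _
  · rw [Set.indicator_of_notMem ha, h.frame.x_gt δ a]
    exact lt_of_not_ge fun hle => ha (hS hle hδ)

theorem Setup.low (h : Setup N x e P xh) (ε : ℝ) (hε : 0 < ε) : ∃ n : ℕ, 0 < n ∧
    ∀ (z : Z) (E : ℕ → Set Γ), (∀ i, (E i).OrdConnected) →
    (∀ i j, i < j → ∀ a ∈ E i, ∀ b ∈ E j, a < b) →
    ∑ i ∈ range n, ‖P (E i) z‖ ≤ ε * n * ‖z‖ := by
  obtain ⟨n, hn, hl⟩ := h.frame.low ε hε
  refine ⟨n, hn, fun z E hE hE' => ?_⟩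
  refine h.dense.induction_on (p := fun z => ∑ i ∈ range n, ‖P (E i) z‖ ≤ ε * n * ‖z‖) z
    (isClosed_le (by fun_prop) (by fun_prop)) fun y => ?_
  have := hl y E hE hE'
  rw [h.norm_e]
  refine le_of_eq_of_le (Finset.sum_congr rfl fun i _ => ?_) this
  rw [h.P_e _ (hE i), h.norm_e]

theorem Setup.exists_lift (h : Setup N x e P xh) {S : Set Γ} {ξ : Γ → ℝ}
    (hξ : ξ ∈ Submodule.span ℝ (x '' S)) :
    ∃ η ∈ Submodule.span ℝ (xh '' S), ∀ y, η (e y) = dot ξ y := by
  induction hξ using Submodule.span_induction with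
  | mem ξ hξ =>
    obtain ⟨δ, hδ, rfl⟩ := hξ
    exact ⟨xh δ, Submodule.subset_span ⟨δ, hδ, rfl⟩, h.xh_e δ⟩
  | zero => exact ⟨0, zero_mem _, fun y => by simp [dot_zero]⟩
  | add ξ ξ' _ _ h1 h2 =>
    obtain ⟨η, hη, h1⟩ := h1
    obtain ⟨η', hη', h2⟩ := h2
    exact ⟨η + η', add_mem hη hη', fun y => by simp [dot_add, h1, h2]⟩
  | smul c ξ _ h1 =>
    obtain ⟨η, hη, h1⟩ := h1
    exact ⟨c • η, Submodule.smul_mem _ c hη, fun y => by simp [dot_smul, h1]⟩

/-- Approximation of a vector fixed by a projection. -/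
theorem Setup.exists_approx (h : Setup N x e P xh) {E : Set Γ} (hE : E.OrdConnected) {z : Z}
    (hz : P E z = z) {ε : ℝ} (hε : 0 < ε) :
    ∃ y : Γ →₀ ℝ, (∀ a ∈ y.support, a ∈ E) ∧ ‖e y - z‖ ≤ ε := by
  obtain ⟨y, hy⟩ := h.dense.exists_dist_lt z hε
  refine ⟨res E y, fun a ha => (mem_support_res.1 ha).1, ?_⟩
  have : e (res E y) - z = P E (e y - z) := by rw [map_sub, hz, h.P_e E hE]
  rw [this]
  refine (h.norm_P_le hE _).trans ?_
  rw [dist_comm, dist_eq_norm] at hy
  exact hy.le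

/-- The span of the `xh δ`, `δ ∈ S`, norms the range of `P S`. -/
theorem Setup.norming (h : Setup N x e P xh) {S : Set Γ} (hS : IsLowerSet S) {z : Z}
    (hz : P S z = z) {c : ℝ}
    (hc : ∀ ξ ∈ Submodule.span ℝ (xh '' S), |ξ z| ≤ c * ‖ξ‖) (hc0 : 0 ≤ c) : ‖z‖ ≤ 6 * c := by
  refine le_of_forall_pos_le_add fun ε hε => ?_
  obtain ⟨y, hy, hyz⟩ := h.exists_approx hS.ordConnected hz (ε := ε / 7) (by positivity)
  obtain ⟨ξ, hξ, hb, hn⟩ := h.frame.norming S hS y hy
  obtain ⟨η, hη, hηe⟩ := h.exists_lift hξ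
  have hη3 : ‖η‖ ≤ 3 := by
    refine η.opNorm_le_bound (by norm_num) fun z => ?_
    refine h.dense.induction_on (p := fun z => ‖η z‖ ≤ 3 * ‖z‖) z
      (isClosed_le (by fun_prop) (by fun_prop)) fun y => ?_
    rw [hηe, h.norm_e, Real.norm_eq_abs]
    exact hb y
  have h1 := hc η hη
  have h2 : |η (e y - z)| ≤ 3 * (ε / 7) := by
    have := η.le_opNorm (e y - z)
    rw [Real.norm_eq_abs] at this
    exact this.trans (mul_le_mul hη3 hyz (norm_nonneg _) (by norm_num))
  rw [map_sub, hηe] at h2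
  have h3 : c * ‖η‖ ≤ c * 3 := mul_le_mul_of_nonneg_left hη3 hc0
  have h4 : ‖z‖ ≤ ‖e y‖ + ‖e y - z‖ := by
    have := norm_sub_le (e y) (e y - z)
    rwa [sub_sub_cancel] at this
  rw [h.norm_e] at h4
  have h5 := le_abs_self (η z)
  have h6 := le_abs_self (dot ξ y - η z)
  linarith

/-- Countably many finite sets are bounded. -/
theorem exists_bound_finsets [Nonempty Γ] (hω : ∀ f : ℕ → Γ, ∃ β, ∀ n, f n < β)
    (A : ℕ → Finset Γ) : ∃ β, ∀ n, ∀ a ∈ A n, a < β := by
  have hb : ∀ n, ∃ b, ∀ a ∈ A n, a ≤ b := fun n => (A n).exists_le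
  choose b hb using hb
  obtain ⟨β, hβ⟩ := hω b
  exact ⟨β, fun n a ha => (hb n a ha).trans_lt (hβ n)⟩

/-- Every vector lives below some point. -/
theorem Setup.exists_P_Iio [Nonempty Γ] (h : Setup N x e P xh)
    (hω : ∀ f : ℕ → Γ, ∃ β, ∀ n, f n < β) (z : Z) :
    ∃ β, ∀ γ, β ≤ γ → P (Set.Iio γ) z = z := by
  obtain ⟨u, hu, hl⟩ := mem_closure_iff_seq_limit.1 (h.dense z)
  choose y hy using hu
  obtain ⟨β, hβ⟩ := exists_bound_finsets hω fun n => (y n).support
  refine ⟨β, fun γ hγ => ?_⟩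
  have h1 : ∀ n, P (Set.Iio γ) (u n) = u n := fun n => by
    rw [← hy n, h.P_e _ Set.ordConnected_Iio,
      res_eq_self (E := Set.Iio γ) fun a ha => (hβ n a ha).trans_le hγ]
  have h2 := ((P (Set.Iio γ)).continuous.tendsto z).comp hl
  have h3 : (P (Set.Iio γ)) ∘ u = u := funext h1
  rw [h3] at h2
  exact tendsto_nhds_unique h2 hl

theorem Setup.linearIndependent (h : Setup N x e P xh) : LinearIndependent ℝ xh := by
  classical
  rw [linearIndependent_iff']
  intro s
  induction s using Finset.induction_on_max with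
  | empty => simp
  | insert a s ha ih =>
    intro g hg
    have hna : a ∉ s := fun h' => lt_irrefl _ (ha a h')
    rw [Finset.sum_insert hna] at hg
    have h0 : g a = 0 := by
      have := congrArg (fun f : StrongDual ℝ Z => f (e (Finsupp.single a 1))) hg
      simp only [_root_.add_apply, _root_.smul_apply,
        _root_.sum_apply, _root_.zero_apply, h.xh_e, dot_single,
        one_mul, h.frame.x_self, smul_eq_mul, mul_one] at this
      rw [Finset.sum_eq_zero fun b hb => by rw [h.frame.x_gt b a (ha b hb), mul_zero],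
        add_zero] at this
      exact this
    rw [h0, zero_smul, zero_add] at hg
    intro i hi
    rcases Finset.mem_insert.1 hi with rfl | hi
    · exact h0
    · exact ih g hg i hi

theorem Setup.not_finiteDimensional [Infinite Γ] (h : Setup N x e P xh) :
    ¬ FiniteDimensional ℝ (XX xh) := by
  intro hf
  have hm : ∀ δ, xh δ ∈ XX xh := fun δ =>
    Submodule.le_topologicalClosure _ (Submodule.subset_span ⟨δ, rfl⟩)
  have hl : LinearIndependent ℝ fun δ => (⟨xh δ, hm δ⟩ : XX xh) :=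
    LinearIndependent.of_comp (XX xh).subtype h.linearIndependent
  have := hl.finite
  exact not_finite Γ

end Vale.Agent.P129
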