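import Vale.Agent.P129.Branch
import Vale.Agent.P129.Norm

/-!
P129, file Tail: estimates for tails.

Plan for `tail_sum_le`.  Strong induction on `γ` for the statement about all `F ⊆ Iic γ` (or on a
strict upper bound).  The hypothesis for `F' = supp (φ η k) ⊆ Iio η` with the cut `κ F'` gives
`|∑ ζ ∈ F', φ η k ζ * dot (t ζ (κ F')) z| ≤ (mm (w η k))⁻¹ * (2 * NN z)` (`Wt.coord_le`); with
`z = single θ 1` this bounds the coefficients of `cpl` by `3 / mm (w η k)`, so the series defining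
`t η c θ` converges and `dot (t η c) z = ∑' k, dot (cpl ..) z`.  For the first `q` terms:
`∑ η ∈ F, |∑ k < q, act (φ η (k + c)) z| ≤ NN z` by `Adm.sum_le` (`IsSp.exists_isSF` with the
segment `[c, c + q)`; the cut gives disjointness and the cardinality condition), and the weights
`w η (k + c)` are pairwise distinct, so `∑ (mm ..)⁻¹ ≤ 2 / mm 0 = 1 / 4` (`sum_inv_mm_le`).
Total `≤ NN z + NN z / 2`; let `q → ∞`.
-/

namespace Vale.Agent.P129

open Finset Filter Topology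

variable {Γ : Type} [LinearOrder Γ] [WellFoundedLT Γ] {R : Rho Γ} {w : Γ → ℕ → ℕ}
  {φ : Γ → ℕ → Γ →₀ ℚ} {κ : Finset Γ → ℕ} {t : Γ → ℕ → Γ → ℝ}

omit [LinearOrder Γ] [WellFoundedLT Γ] in
theorem tl_dot_cpl (t : Γ → ℕ → Γ → ℝ) (g : Γ →₀ ℚ) (c : ℕ) (z : Γ →₀ ℝ) :
    dot (cpl t g c) z = act g z + ∑ ζ ∈ g.support, (g ζ : ℝ) * dot (t ζ c) z := by
  rw [cpl, dot_add, dot_sum]
  simp only [dot_smul]
  rfl

omit [WellFoundedLT Γ] in
theorem tl_sub_le {g : Γ →₀ ℚ} {c : ℕ} {B : ℝ} (hg : ∀ a, |cf g a| ≤ B) (z : Γ →₀ ℝ)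
    (h : ∑ η ∈ g.support, |dot (t η c) z| ≤ 2 * NN R z) :
    |dot (cpl t g c) z - act g z| ≤ 2 * B * NN R z := by
  rcases isEmpty_or_nonempty Γ with hΓ | ⟨⟨a⟩⟩
  · rw [Subsingleton.elim z 0]
    simp [NN_zero]
  have hB : 0 ≤ B := (abs_nonneg _).trans (hg a)
  rw [tl_dot_cpl, add_sub_cancel_left]
  refine (abs_sum_le_sum_abs _ _).trans ?_
  calc ∑ ζ ∈ g.support, |(g ζ : ℝ) * dot (t ζ c) z| ≤ ∑ ζ ∈ g.support, B * |dot (t ζ c) z| :=
        sum_le_sum fun ζ _ => by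
          rw [abs_mul]
          exact mul_le_mul_of_nonneg_right (hg ζ) (abs_nonneg _)
    _ ≤ B * (2 * NN R z) := by
        rw [← mul_sum]
        exact mul_le_mul_of_nonneg_left h hB
    _ = _ := by ring

omit [WellFoundedLT Γ] in
theorem tl_coord_le {g : Γ →₀ ℚ} {c : ℕ} {B : ℝ} (hg : ∀ a, |cf g a| ≤ B)
    (h : ∀ z, ∑ η ∈ g.support, |dot (t η c) z| ≤ 2 * NN R z) (a : Γ) :
    |cpl t g c a| ≤ 3 * B := by
  have h1 := tl_sub_le hg _ (h (Finsupp.single a 1))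
  rw [act, dot_single, dot_single, one_mul, one_mul] at h1
  have h2 := hg a
  have h3 := mul_le_mul_of_nonneg_left (NN_single (R := R) a) ((abs_nonneg _).trans h2)
  have h4 := abs_sub_abs_le_abs_sub (cpl t g c a) (cf g a)
  linarith

omit [WellFoundedLT Γ] in
theorem tl_inv_le (hB : Branches R w φ) (δ : Γ) (c : ℕ) (s : Finset ℕ) :
    ∑ k ∈ s, ((mm (w δ (k + c)) : ℝ))⁻¹ ≤ 2 / mm (w δ c) := by
  rw [← sum_image (f := fun x => ((mm x : ℝ))⁻¹) (g := fun k => w δ (k + c))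
    fun i _ j _ hij => Nat.add_right_cancel ((hB.strictMono δ).injective hij)]
  refine sum_inv_mm_le _ _ fun x hx => ?_
  obtain ⟨k, -, rfl⟩ := mem_image.1 hx
  exact (hB.strictMono δ).monotone (Nat.le_add_left _ _)

omit [WellFoundedLT Γ] in
theorem tl_summable (hB : Branches R w φ) {δ : Γ}
    (h : ∀ k z, ∑ η ∈ (φ δ k).support, |dot (t η (κ (φ δ k).support)) z| ≤ 2 * NN R z) (c : ℕ)
    (a : Γ) : Summable fun k => cpl t (φ δ (k + c)) (κ (φ δ (k + c)).support) a :=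
  ((summable_of_sum_le (fun _ => by positivity) (tl_inv_le hB δ c)).mul_left 3).of_norm_bounded
    fun k => tl_coord_le (hB.wt δ (k + c)).coord_le (h (k + c)) a

omit [WellFoundedLT Γ] in
theorem tl_main (hB : Branches R w φ) {F : Finset Γ} {c : ℕ} (hc : Cut w F c) (q : ℕ)
    (z : Γ →₀ ℝ) : ∑ η ∈ F, |∑ k ∈ range q, act (φ η (k + c)) z| ≤ NN R z := by
  choose ψ h1 h2 using fun η => (hB.sp η (q + c)).exists_isSF c
  have h3 : Adm R (GG R) F (fun η => (Ico c (q + c)).image (w η)) ψ := by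
    refine ⟨fun η _ => h1 η, fun η hη η' hη' hne => disjoint_left.2 fun x hx hx' => ?_,
      fun η hη x hx => ?_⟩
    · obtain ⟨i, hi, rfl⟩ := mem_image.1 hx
      obtain ⟨i', hi', he⟩ := mem_image.1 hx'
      exact hc.1 η hη η' hη' hne i (mem_Ico.1 hi).1 i' (mem_Ico.1 hi').1 he.symm
    · obtain ⟨i, hi, rfl⟩ := mem_image.1 hx
      exact hc.2 η hη i (mem_Ico.1 hi).1
  refine le_of_eq_of_le (sum_congr rfl fun η _ => ?_) (h3.sum_le z)
  rw [sum_image fun i _ j _ hij => (hB.strictMono η).injective hij, act_sum,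
    sum_Ico_eq_sum_range, Nat.add_sub_cancel]
  refine congrArg _ (sum_congr rfl fun k hk => ?_)
  rw [h2 η _ (by have := mem_range.1 hk; omega), add_comm]

omit [WellFoundedLT Γ] in
theorem tl_weights (hB : Branches R w φ) {F : Finset Γ} {c : ℕ} (hc : Cut w F c) (q : ℕ) :
    ∑ η ∈ F, ∑ k ∈ range q, ((mm (w η (k + c)) : ℝ))⁻¹ ≤ 1 / 4 := by
  rw [← sum_product', ← sum_image (f := fun x => ((mm x : ℝ))⁻¹)
    (g := fun x : Γ × ℕ => w x.1 (x.2 + c))]
  · refine (sum_inv_mm_le 0 _ fun _ _ => Nat.zero_le _).trans ?_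
    norm_num [mm]
  · rintro ⟨η, k⟩ h ⟨η', k'⟩ h' he
    obtain rfl : η = η' := by
      by_contra hne
      exact hc.1 η (mem_product.1 h).1 η' (mem_product.1 h').1 hne _ (Nat.le_add_left _ _) _
        (Nat.le_add_left _ _) he
    exact Prod.ext rfl (Nat.add_right_cancel ((hB.strictMono η).injective he))

omit [WellFoundedLT Γ] in
theorem tl_step (hB : Branches R w φ) (hT : Tails w φ κ t) {F : Finset Γ} {c : ℕ}
    (hc : Cut w F c) (ih : ∀ δ ∈ F, ∀ k z,
      ∑ η ∈ (φ δ k).support, |dot (t η (κ (φ δ k).support)) z| ≤ 2 * NN R z) (z : Γ →₀ ℝ) :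
    ∑ η ∈ F, |dot (t η c) z| ≤ 2 * NN R z := by
  have h1 : ∀ η ∈ F, HasSum (fun k => dot (cpl t (φ η (k + c)) (κ (φ η (k + c)).support)) z)
      (dot (t η c) z) := fun η hη => by
    simp only [dot_eq]
    refine hasSum_sum fun a _ => HasSum.mul_left _ ?_
    rw [hT.eq]
    exact (tl_summable hB (ih η hη) c a).hasSum
  refine le_of_tendsto' (tendsto_finset_sum F fun η hη => (h1 η hη).tendsto_sum_nat.abs)
    fun q => ?_
  have h2 := tl_main hB hc q z
  have h3 := mul_le_mul_of_nonneg_right (tl_weights hB hc q) (NN_nonneg (R := R) z)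
  have h4 : ∀ η ∈ F, |∑ k ∈ range q, dot (cpl t (φ η (k + c)) (κ (φ η (k + c)).support)) z| ≤
      |∑ k ∈ range q, act (φ η (k + c)) z| +
        2 * ((∑ k ∈ range q, ((mm (w η (k + c)) : ℝ))⁻¹) * NN R z) := fun η hη => by
    refine sub_le_iff_le_add'.1 ((abs_sub_abs_le_abs_sub _ _).trans ?_)
    rw [← sum_sub_distrib, sum_mul, mul_sum]
    refine (abs_sum_le_sum_abs _ _).trans (sum_le_sum fun k _ => ?_)
    rw [← mul_assoc]
    exact tl_sub_le (hB.wt η (k + c)).coord_le z (ih η hη _ z)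
  refine (sum_le_sum h4).trans ?_
  rw [sum_add_distrib, ← mul_sum, ← sum_mul]
  linarith [NN_nonneg (R := R) z]

theorem tl_ind (hB : Branches R w φ) (hT : Tails w φ κ t) (δ : Γ) : ∀ k z,
    ∑ η ∈ (φ δ k).support, |dot (t η (κ (φ δ k).support)) z| ≤ 2 * NN R z := by
  induction δ using WellFoundedLT.induction with
  | ind δ ih => exact fun k => tl_step hB hT (hT.cut _) fun η hη => ih η (hB.lt δ k η hη)

theorem tail_sum_le (hB : Branches R w φ) (hT : Tails w φ κ t) {F : Finset Γ} {c : ℕ}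
    (hc : Cut w F c) (z : Γ →₀ ℝ) : ∑ η ∈ F, |dot (t η c) z| ≤ 2 * NN R z :=
  tl_step hB hT hc (fun δ _ => tl_ind hB hT δ) z

theorem cpl_sub_le (hB : Branches R w φ) (hT : Tails w φ κ t) {g : Γ →₀ ℚ} {c : ℕ} {B : ℝ}
    (hc : Cut w g.support c) (hg : ∀ a, |cf g a| ≤ B) (z : Γ →₀ ℝ) :
    |dot (cpl t g c) z - act g z| ≤ 2 * B * NN R z :=
  tl_sub_le hg z (tail_sum_le hB hT hc z)

theorem cpl_coord_le (hB : Branches R w φ) (hT : Tails w φ κ t) {g : Γ →₀ ℚ} {c : ℕ} {B : ℝ}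
    (hc : Cut w g.support c) (hg : ∀ a, |cf g a| ≤ B) (a : Γ) : |cpl t g c a| ≤ 3 * B :=
  tl_coord_le hg (tail_sum_le hB hT hc) a

omit [WellFoundedLT Γ] in
theorem tl_zero (hT : Tails w φ κ t) {δ a : Γ} (h : ∀ k, ∀ θ ∈ (φ δ k).support, θ < a)
    (ih : ∀ k, ∀ θ ∈ (φ δ k).support, ∀ c, t θ c a = 0) (c : ℕ) : t δ c a = 0 := by
  rw [hT.eq]
  refine (tsum_congr fun k => ?_).trans tsum_zero
  have h1 : φ δ (k + c) a = 0 := Finsupp.notMem_support_iff.1 fun ha => lt_irrefl _ (h _ a ha)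
  rw [cpl, Pi.add_apply, cf, h1, Finset.sum_apply, Rat.cast_zero, zero_add]
  exact sum_eq_zero fun θ hθ => by rw [Pi.smul_apply, ih _ θ hθ, smul_zero]

theorem tail_eq_zero (hB : Branches R w φ) (hT : Tails w φ κ t) {δ a : Γ} (h : δ ≤ a) (c : ℕ) :
    t δ c a = 0 := by
  induction δ using WellFoundedLT.induction generalizing c with
  | ind δ ih =>
    exact tl_zero hT (fun k θ hθ => (hB.lt δ k θ hθ).trans_le h)
      (fun k θ hθ c => ih θ (hB.lt δ k θ hθ) ((hB.lt δ k θ hθ).le.trans h) c) c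

/-- If the branch lives below `lam`, so does the tail. -/
theorem tail_eq_zero_of_lt (hB : Branches R w φ) (hT : Tails w φ κ t) {δ lam a : Γ}
    (h : ∀ k, ∀ θ ∈ (φ δ k).support, θ < lam) (ha : lam ≤ a) (c : ℕ) : t δ c a = 0 :=
  tl_zero hT (fun k θ hθ => (h k θ hθ).trans_le ha)
    (fun k θ hθ c => tail_eq_zero hB hT ((h k θ hθ).le.trans ha) c) c

theorem tail_succ (hB : Branches R w φ) (hT : Tails w φ κ t) (δ : Γ) (c : ℕ) :
    t δ c = cpl t (φ δ c) (κ (φ δ c).support) + t δ (c + 1) := by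
  funext a
  rw [Pi.add_apply, hT.eq, hT.eq, (tl_summable hB (tl_ind hB hT δ) c a).tsum_eq_zero_add, zero_add]
  simp only [add_right_comm _ 1 c, add_assoc]

theorem tail_zero_eq (hB : Branches R w φ) (hT : Tails w φ κ t) (δ : Γ) (c : ℕ) :
    t δ 0 = ∑ k ∈ range c, cpl t (φ δ k) (κ (φ δ k).support) + t δ c := by
  induction c with
  | zero => simp
  | succ c ih => rw [sum_range_succ, add_assoc, ← tail_succ hB hT, ← ih]

theorem tail_coord_le (hB : Branches R w φ) (hT : Tails w φ κ t) (δ : Γ) (c : ℕ) (a : Γ) :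
    |t δ c a| ≤ 6 / mm (w δ c) := by
  rw [hT.eq]
  refine le_of_tendsto' (tl_summable hB (tl_ind hB hT δ) c a).hasSum.tendsto_sum_nat.abs
    fun q => (abs_sum_le_sum_abs _ _).trans ((sum_le_sum fun k _ =>
      cpl_coord_le hB hT (hT.cut _) (hB.wt δ (k + c)).coord_le a).trans ?_)
  rw [← mul_sum]
  exact (mul_le_mul_of_nonneg_left (tl_inv_le hB δ c _) (by norm_num)).trans (le_of_eq (by ring))

omit [WellFoundedLT Γ] in
theorem tl_cpl_eq (t : Γ → ℕ → Γ → ℝ) (g : Γ →₀ ℚ) (c : ℕ) :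
    cpl t g c = ∑ ζ ∈ g.support, (g ζ : ℝ) • (Pi.single ζ 1 + t ζ c) := by
  simp only [smul_add, sum_add_distrib, cpl]
  congr 1
  funext a
  rw [Finset.sum_apply, sum_eq_single a (fun b _ hb => by simp [hb.symm]) fun ha => by
    simp [Finsupp.notMem_support_iff.1 ha]]
  simp [cf]

theorem tl_mem_span (hB : Branches R w φ) (hT : Tails w φ κ t) {S : Set Γ} (hS : IsLowerSet S)
    {δ : Γ} (hδ : δ ∈ S) (c : ℕ) : Pi.single δ 1 + t δ c ∈ Submodule.span ℝ (xx t '' S) := by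
  induction δ using WellFoundedLT.induction generalizing c with
  | ind δ ih =>
    have h1 : Pi.single δ 1 + t δ c =
        xx t δ - ∑ k ∈ range c, cpl t (φ δ k) (κ (φ δ k).support) := by
      rw [xx, tail_zero_eq hB hT δ c]
      abel
    rw [h1]
    refine sub_mem (Submodule.subset_span ⟨δ, hδ, rfl⟩) (sum_mem fun k _ => ?_)
    rw [tl_cpl_eq]
    exact sum_mem fun ζ hζ => Submodule.smul_mem _ _
      (ih ζ (hB.lt δ k ζ hζ) (hS (hB.lt δ k ζ hζ).le hδ) _)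

theorem cpl_mem_span (hB : Branches R w φ) (hT : Tails w φ κ t) {S : Set Γ} (hS : IsLowerSet S)
    {g : Γ →₀ ℚ} (hg : ∀ a ∈ g.support, a ∈ S) (c : ℕ) :
    cpl t g c ∈ Submodule.span ℝ (xx t '' S) := by
  rw [tl_cpl_eq]
  exact sum_mem fun ζ hζ => Submodule.smul_mem _ _ (tl_mem_span hB hT hS (hg ζ hζ) c)

theorem xx_bd (hB : Branches R w φ) (hT : Tails w φ κ t) (δ : Γ) (z : Γ →₀ ℝ) :
    |dot (xx t δ) z| ≤ 3 * NN R z := by
  have h1 := tail_sum_le hB hT (cut_singleton w δ 0) z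
  rw [sum_singleton] at h1
  rw [xx, dot_add, dot_pi_single]
  linarith [abs_add_le (z δ) (dot (t δ 0) z), coord_le_NN (R := R) z δ]

theorem tl_tendsto (hB : Branches R w φ) (hT : Tails w φ κ t) (δ : Γ) (z : Γ →₀ ℝ) :
    Tendsto (fun c => dot (t δ c) z) atTop (𝓝 0) := by
  have h1 : Tendsto (fun c => ((mm (w δ c) : ℕ) : ℝ)) atTop atTop :=
    tendsto_natCast_atTop_atTop.comp (tendsto_atTop_mono
      (fun c => ((hB.strictMono δ).id_le c).trans (lt_mm _).le) tendsto_id)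
  have h2 := ((tendsto_const_nhds (x := (6 : ℝ))).div_atTop h1).mul_const (l1 z)
  rw [zero_mul] at h2
  exact squeeze_zero_norm (fun c => abs_dot_le_l1 (tail_coord_le hB hT δ c) z) h2

theorem xx_norming (hB : Branches R w φ) (hT : Tails w φ κ t) (S : Set Γ) (hS : IsLowerSet S)
    (z : Γ →₀ ℝ) (hz : ∀ a ∈ z.support, a ∈ S) :
    ∃ ξ ∈ Submodule.span ℝ (xx t '' S), (∀ y, |dot ξ y| ≤ 3 * NN R y) ∧ NN R z ≤ 2 * dot ξ z := by
  by_cases h0 : z = 0
  · refine ⟨0, zero_mem _, fun y => ?_, by simp [h0, NN_zero]⟩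
    rw [dot_zero, abs_zero]
    linarith [NN_nonneg (R := R) y]
  obtain ⟨g', hg', h1⟩ := exists_act_gt (half_lt_self (NN_pos (R := R) h0))
  obtain ⟨g, hg⟩ : ∃ g, g = res S g' := ⟨_, rfl⟩
  have h2 : g ∈ GG R := hg ▸ res_mem_GG hg' hS.ordConnected
  have h3 : NN R z / 2 < act g z := by rwa [hg, act_res, res_eq_self hz]
  have h4 : Tendsto (fun c => dot (cpl t g c) z) atTop (𝓝 (act g z)) := by
    simp only [tl_dot_cpl]
    simpa using (tendsto_finset_sum g.support fun ζ _ =>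
      (tl_tendsto hB hT ζ z).const_mul (g ζ : ℝ)).const_add (act g z)
  obtain ⟨c, hc, hc'⟩ := ((h4.eventually_const_lt h3).and (eventually_ge_atTop (κ g.support))).exists
  refine ⟨cpl t g c, cpl_mem_span hB hT hS (fun a ha => (mem_support_res.1 (hg ▸ ha)).1) c,
    fun y => ?_, by linarith⟩
  have h5 := cpl_sub_le hB hT ((hT.cut _).mono hc') (GG_coord_le h2) y
  linarith [abs_sub_abs_le_abs_sub (dot (cpl t g c) y) (act g y), abs_act_le_NN h2 y]

end Vale.Agent.P129
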